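import Vale.Agent.P105.Iterate

/-! P105, module [F]: the initial state, `U = (1 + √2) ^ 62`. -/

open Real

namespace Vale.Agent.P105

namespace Base

/-- `(1+√2)^62 + (1-√2)^62` -/
def V : ℕ := 539625533398566696614406
/-- `⌊10^45 / b⌋` -/
def L : ℕ := 531010056459569184632741258847642988008720546
/-- the common denominator -/
def D : ℕ := 10 ^ 45
/-- `U ≥ V - 1/E` -/
def E : ℕ := 10 ^ 23

/-- nearest integer to `2 V (L/D)^j` -/
def c (j : ℕ) : ℕ := (4 * V * L ^ j + D ^ j) / (2 * D ^ j)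

/-- upper check -/
def chk1 (j : ℕ) : Prop := 200 * V * (L + 1) ^ j ≤ (100 * c j + 48) * D ^ j
/-- lower check -/
def chk2 (j : ℕ) : Prop :=
  100 * c j * D ^ j * E ≤ 200 * (V * E - 1) * L ^ j + 48 * D ^ j * E

instance (j : ℕ) : Decidable (chk1 j) := inferInstanceAs (Decidable (_ ≤ _))
instance (j : ℕ) : Decidable (chk2 j) := inferInstanceAs (Decidable (_ ≤ _))

theorem chk1_all : ∀ j < 100, chk1 j := by decide +kernel
theorem chk2_all : ∀ j < 100, chk2 j := by decide +kernel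

theorem small_all : 1000 * V * (L + 1) ^ 100 ≤ D ^ 100 := by decide +kernel

theorem VE_pos : 1 ≤ V * E := by decide +kernel

/-- the constants -/
structure Num (b U : ℝ) : Prop where
  b1 : (1.8832 : ℝ) < b
  b2 : b < 1.8833
  inv_lo : (L : ℝ) / D ≤ b⁻¹
  inv_hi : b⁻¹ ≤ ((L : ℝ) + 1) / D
  U_lo : (V : ℝ) - 1 / E ≤ U
  U_hi : U ≤ V

theorem Dpos : (0 : ℝ) < D := by norm_num [D]
theorem Epos : (0 : ℝ) < E := by norm_num [E]
theorem Lpos : (0 : ℝ) < L := by norm_num [L]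
theorem Vbig : (300000000000000000000000 : ℝ) ≤ V - 1 := by norm_num [V]

theorem Num.U_pos {b U : ℝ} (h : Num b U) : (300000000000000000000000 : ℝ) ≤ U := by
  have h1 := h.U_lo
  have h2 := Vbig
  have h3 : (1 : ℝ) / E ≤ 1 := by norm_num [E]
  linarith

theorem Num.window {b U : ℝ} (h : Num b U) {j : ℕ} (hj : j < 100) :
    |2 * (U * b⁻¹ ^ j) - (c j : ℝ)| ≤ 0.48 := by
  have hD := Dpos
  have hE := Epos
  have hL := Lpos
  have hU := h.U_pos
  have hDj : (0 : ℝ) < (D : ℝ) ^ j := by positivity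
  have c1 : (200 * V * (L + 1) ^ j : ℝ) ≤ (100 * c j + 48) * D ^ j := by
    exact_mod_cast chk1_all j hj
  have c2 : (100 * c j * D ^ j * E : ℝ) ≤ 200 * (V * E - 1) * L ^ j + 48 * D ^ j * E := by
    have := chk2_all j hj
    unfold chk2 at this
    have h3 : ((V * E - 1 : ℕ) : ℝ) = (V : ℝ) * E - 1 := by
      rw [Nat.cast_sub VE_pos]; push_cast; ring
    rw [← h3]
    exact_mod_cast this
  have hpos : 0 ≤ b⁻¹ := (by positivity : (0 : ℝ) ≤ (L : ℝ) / D).trans h.inv_lo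
  have up : U * b⁻¹ ^ j ≤ V * (((L : ℝ) + 1) / D) ^ j := by
    have h1 := h.inv_hi
    have h2 := h.U_hi
    gcongr
  have lo : ((V : ℝ) - 1 / E) * ((L : ℝ) / D) ^ j ≤ U * b⁻¹ ^ j := by
    have h1 := h.inv_lo
    have h2 := h.U_lo
    gcongr
  rw [div_pow] at up lo
  rw [abs_le]
  constructor
  · have e : ((c j : ℝ) - 0.48) / 2 ≤ ((V : ℝ) - 1 / E) * ((L : ℝ) ^ j / (D : ℝ) ^ j) := by
      rw [mul_div_assoc', div_le_div_iff₀ (by norm_num) hDj]
      have e1 : (((V : ℝ) - 1 / E) * (L : ℝ) ^ j) * 2 * (100 * E) =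
          200 * (V * E - 1) * L ^ j := by field_simp; ring
      have e2 : ((c j : ℝ) - 0.48) * D ^ j * (100 * E) =
          100 * c j * D ^ j * E - 48 * D ^ j * E := by ring
      have e3 : ((c j : ℝ) - 0.48) * D ^ j * (100 * E) ≤
          (((V : ℝ) - 1 / E) * (L : ℝ) ^ j) * 2 * (100 * E) := by
        rw [e1, e2]; linarith
      exact le_of_mul_le_mul_right e3 (by positivity)
    linarith
  · have e : (V : ℝ) * (((L : ℝ) + 1) ^ j / (D : ℝ) ^ j) ≤ ((c j : ℝ) + 0.48) / 2 := by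
      rw [mul_div_assoc', div_le_div_iff₀ hDj (by norm_num)]
      linarith
    linarith

/-- the tangent bound -/
theorem tan_bound {x : ℝ} {n : ℤ} (h : |2 * x - n| ≤ 0.481) :
    cos (2 * π * x) ≠ 0 ∧ tan (2 * π * x) ^ 2 ≤ 700 := by
  have hpi := Real.pi_pos
  set y := 2 * x - n with hy
  have e : 2 * π * x = π * y + n * π := by rw [hy]; ring
  have h1 : 0.038 ≤ cos (π * y) := by
    rw [← Real.cos_abs, abs_mul, abs_of_pos hpi]
    have := Real.one_sub_mul_le_cos (x := π * |y|) (by positivity) (by nlinarith)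
    have e2 : 2 / π * (π * |y|) = 2 * |y| := by field_simp
    rw [e2] at this
    linarith
  have h2 : cos (2 * π * x) ≠ 0 := by
    rw [e, Real.cos_add_int_mul_pi]
    refine mul_ne_zero ?_ (by linarith)
    exact zpow_ne_zero _ (by norm_num)
  refine ⟨h2, ?_⟩
  have h3 : cos (π * y) ≠ 0 := by linarith
  rw [e, Real.tan_add_int_mul_pi]
  have h4 := Real.inv_one_add_tan_sq h3
  have h5 : 0 < 1 + tan (π * y) ^ 2 := by positivity
  have h6 : (0.038 : ℝ) ^ 2 ≤ (1 + tan (π * y) ^ 2)⁻¹ := by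
    rw [h4]; gcongr
  rw [le_inv_comm₀ (by norm_num) h5] at h6
  have h7 : ((0.038 : ℝ) ^ 2)⁻¹ ≤ 701 := by norm_num
  linarith

theorem Num.small {b U : ℝ} (h : Num b U) {j : ℕ} (hj : 100 ≤ j) :
    U * b⁻¹ ^ j ≤ 1 / 1000 * b⁻¹ ^ (j - 100) := by
  have hD := Dpos
  have hL := Lpos
  have hpos : 0 ≤ b⁻¹ := (by positivity : (0 : ℝ) ≤ (L : ℝ) / D).trans h.inv_lo
  have e : b⁻¹ ^ j = b⁻¹ ^ 100 * b⁻¹ ^ (j - 100) := by rw [← pow_add]; congr 1; omega
  have hU := h.U_pos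
  rw [e, ← mul_assoc]
  apply mul_le_mul_of_nonneg_right _ (by positivity)
  have up : U * b⁻¹ ^ 100 ≤ V * (((L : ℝ) + 1) / D) ^ 100 :=
    mul_le_mul h.U_hi (pow_le_pow_left₀ hpos h.inv_hi 100) (pow_nonneg hpos _) (Nat.cast_nonneg _)
  refine up.trans ?_
  have hs : (1000 * V * (L + 1) ^ 100 : ℝ) ≤ D ^ 100 := by exact_mod_cast small_all
  rw [div_pow, mul_div_assoc', div_le_div_iff₀ (by positivity) (by norm_num)]
  linarith

theorem Num.near_neg {b U : ℝ} (h : Num b U) (j : ℕ) :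
    ∃ n : ℤ, |2 * (U * b⁻¹ ^ j) - n| ≤ 0.48 := by
  rcases lt_or_ge j 100 with hj | hj
  · exact ⟨(c j : ℤ), by exact_mod_cast h.window hj⟩
  · refine ⟨0, ?_⟩
    have hb := h.b1
    have h1 := h.small hj
    have hU := h.U_pos
    have h2 : b⁻¹ ^ (j - 100) ≤ 1 := pow_le_one₀ (by positivity) (inv_le_one_of_one_le₀ (by linarith))
    have h3 : 0 ≤ U * b⁻¹ ^ j := by positivity
    push_cast
    rw [sub_zero, abs_of_nonneg (by positivity)]
    linarith

theorem sq2 : √2 ^ 2 = (2 : ℝ) := Real.sq_sqrt (by norm_num)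

/-- the Pell pair: `(1+√2)^n = (pell n).1 + (pell n).2 √2` -/
def pell : ℕ → ℕ × ℕ
  | 0 => (1, 0)
  | n + 1 => ((pell n).1 + 2 * (pell n).2, (pell n).1 + (pell n).2)

theorem pell_add (n : ℕ) : (1 + √2) ^ n = ((pell n).1 : ℝ) + (pell n).2 * √2 := by
  induction n with
  | zero => simp [pell]
  | succ n ih =>
    rw [pow_succ, ih, pell]
    push_cast
    linear_combination ((pell n).2 : ℝ) * sq2

theorem pell_sub (n : ℕ) : (1 - √2) ^ n = ((pell n).1 : ℝ) - (pell n).2 * √2 := by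
  induction n with
  | zero => simp [pell]
  | succ n ih =>
    rw [pow_succ, ih, pell]
    push_cast
    linear_combination ((pell n).2 : ℝ) * sq2

theorem pell_62 : 2 * (pell 62).1 = V := by decide +kernel

theorem UW_add : (1 + √2) ^ 62 + (1 - √2) ^ 62 = (V : ℝ) := by
  rw [pell_add, pell_sub, ← pell_62]
  push_cast
  ring

theorem UW_mul : (1 + √2) ^ 62 * (1 - √2) ^ 62 = 1 := by
  rw [← mul_pow]
  have : (1 + √2) * (1 - √2) = -1 := by linear_combination -sq2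
  rw [this]; norm_num

theorem W_pos : 0 < (1 - √2) ^ 62 := by
  have h : (1 - √2) ^ 62 = ((1 - √2) ^ 2) ^ 31 := by rw [← pow_mul]
  rw [h]
  apply pow_pos
  have : 1 - √2 ≠ 0 := by
    intro h0
    have h1 := UW_mul
    rw [h0] at h1
    norm_num at h1
  positivity

theorem W_le_one : (1 - √2) ^ 62 ≤ 1 := by
  have h : (1 - √2) ^ 62 = ((1 - √2) ^ 2) ^ 31 := by rw [← pow_mul]
  rw [h]
  apply pow_le_one₀ (by positivity)
  have h1 : (1 - √2) ^ 2 = 3 - 2 * √2 := by linear_combination sq2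
  rw [h1]
  have : 1 ≤ √2 := by rw [Real.one_le_sqrt]; norm_num
  linarith

theorem U_ge : (300000000000000000000000 : ℝ) ≤ (1 + √2) ^ 62 := by
  have h1 := UW_add
  have h2 := W_le_one
  have h3 := Vbig
  linarith

theorem W_le : (1 - √2) ^ 62 ≤ 1 / 300000000000000000000000 := by
  have h1 := UW_mul
  have h2 := U_ge
  have h3 := W_pos
  rw [le_div_iff₀ (by norm_num)]
  calc (1 - √2) ^ 62 * 300000000000000000000000 ≤ (1 - √2) ^ 62 * (1 + √2) ^ 62 :=
        mul_le_mul_of_nonneg_left h2 h3.le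
    _ = 1 := by rw [mul_comm, h1]

theorem num {b : ℝ} (hb1 : 1.8832 < b) (hb2 : b < 1.8833) (hs : b + b⁻¹ = 1 + √2) :
    Num b ((1 + √2) ^ 62) := by
  have hb0 : 0 < b := by linarith
  have hi0 : 0 < b⁻¹ := by positivity
  have hi1 : b⁻¹ < 0.6 := by rw [inv_lt_comm₀ hb0 (by norm_num)]; norm_num; linarith
  -- monotonicity
  have mono : ∀ x y : ℝ, 0 < x → x < 0.6 → 0 < y → y < 0.6 → x + x⁻¹ ≤ y + y⁻¹ → y ≤ x := by
    intro x y hx hx1 hy hy1 hxy
    by_contra hlt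
    push Not at hlt
    have e : y + y⁻¹ - (x + x⁻¹) = (y - x) * (x * y - 1) / (x * y) := by field_simp; ring
    have e2 : (y - x) * (x * y - 1) / (x * y) < 0 := by
      apply div_neg_of_neg_of_pos _ (by positivity)
      apply mul_neg_of_pos_of_neg (by linarith)
      nlinarith
    linarith
  refine ⟨hb1, hb2, ?_, ?_, ?_, ?_⟩
  · refine mono _ _ hi0 hi1 (by norm_num [L, D]) (by norm_num [L, D]) ?_
    rw [inv_inv, add_comm, hs]
    have : √2 ≤ (L : ℝ) / D + ((L : ℝ) / D)⁻¹ - 1 := by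
      rw [Real.sqrt_le_iff]
      constructor <;> norm_num [L, D]
    linarith
  · refine mono _ _ (by norm_num [L, D]) (by norm_num [L, D]) hi0 hi1 ?_
    rw [inv_inv, add_comm b⁻¹, hs]
    have : ((L : ℝ) + 1) / D + (((L : ℝ) + 1) / D)⁻¹ - 1 ≤ √2 := by
      rw [Real.le_sqrt' (by norm_num [L, D])]
      norm_num [L, D]
    linarith
  · have h1 := UW_add
    have h2 := W_le
    have h3 : (1 : ℝ) / 300000000000000000000000 ≤ 1 / E := by norm_num [E]
    linarith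
  · have h1 := UW_add
    have h2 := W_pos
    linarith

theorem near {b th : ℝ} (h : Num b ((1 + √2) ^ 62))
    (htr : TraceInt b th ((1+√2)^62) ((1+√2)^62) (((1-√2)^62 : ℝ) : ℂ)) (i : ℤ) :
    ∃ n : ℤ, |2 * ((1+√2)^62 * b ^ i) - n| ≤ 0.481 := by
  rcases le_or_gt i 0 with hi | hi
  · obtain ⟨j, rfl⟩ : ∃ j : ℕ, i = -(j : ℤ) := ⟨(-i).toNat, by omega⟩
    obtain ⟨n, hn⟩ := h.near_neg j
    refine ⟨n, ?_⟩
    rw [zpow_neg, zpow_natCast, ← inv_pow]
    linarith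
  · obtain ⟨j, rfl⟩ : ∃ j : ℕ, i = (j : ℤ) := ⟨i.toNat, by omega⟩
    obtain ⟨n, hn⟩ := h.near_neg j
    obtain ⟨c, hc⟩ := htr j
    refine ⟨2 * c - n, ?_⟩
    have hw : |(((((1-√2)^62 : ℝ) : ℂ) *
        Complex.exp (Complex.I * ((th * ((j : ℤ) : ℝ) : ℝ) : ℂ))).re)| ≤
        1 / 300000000000000000000000 := by
      refine (Complex.abs_re_le_norm _).trans ?_
      rw [norm_mul, Complex.norm_exp_I_mul_ofReal, mul_one, Complex.norm_real, Real.norm_eq_abs,
        abs_of_pos W_pos]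
      exact W_le
    rw [zpow_neg, zpow_natCast, ← inv_pow] at hc
    rw [zpow_natCast]
    push_cast
    rw [abs_le] at hn hw ⊢
    constructor
    · have := hn.1; have := hn.2; have := hw.1; have := hw.2
      linarith
    · have := hn.1; have := hn.2; have := hw.1; have := hw.2
      linarith

theorem om_eq : (90 : ℝ) ^ (-12 : ℝ) = ((90 : ℝ) ^ 12)⁻¹ := by
  rw [show (-12 : ℝ) = -((12 : ℕ) : ℝ) by norm_num, Real.rpow_neg (by norm_num), Real.rpow_natCast]

theorem U_le_om {b : ℝ} (h : Num b ((1 + √2) ^ 62)) :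
    |(1 + √2) ^ 62| ≤ (90 : ℝ) ^ (-12 : ℝ) * b ^ 175 := by
  have h0 := h.U_pos
  rw [abs_of_pos (by linarith), om_eq]
  have h1 : (1.8832 : ℝ) ^ 175 ≤ b ^ 175 := pow_le_pow_left₀ (by norm_num) h.b1.le 175
  have h2 : (V : ℝ) * 90 ^ 12 ≤ 1.8832 ^ 175 := by norm_num [V]
  have h3 := h.U_hi
  rw [inv_mul_eq_div, le_div_iff₀ (by positivity)]
  have h4 : (1 + √2) ^ 62 * (90 : ℝ) ^ 12 ≤ V * 90 ^ 12 :=
    mul_le_mul_of_nonneg_right h3 (by positivity)
  linarith

/-- The tail sum. -/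
theorem tail {b : ℝ} (h : Num b ((1 + √2) ^ 62)) (F : Finset ℤ) (hF : ∀ i ∈ F, i ≤ -100) :
    ∑ i ∈ F, tan (2 * π * ((1 + √2) ^ 62 * b ^ i)) ^ 2 ≤ 1 := by
  have hb : 3 / 2 ≤ b := by have := h.b1; linarith
  have hb0 : 0 < b := by linarith
  have h0 := h.U_pos
  have key : ∀ i ∈ F, tan (2 * π * ((1 + √2) ^ 62 * b ^ i)) ^ 2 ≤ 1 / 1000 * b ^ (i + 100) := by
    intro i hi
    have hi' := hF i hi
    obtain ⟨j, rfl⟩ : ∃ j : ℕ, i = -(j : ℤ) := ⟨(-i).toNat, by omega⟩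
    have hj : 100 ≤ j := by omega
    have h1 := h.small hj
    have e1 : (1 + √2) ^ 62 * b ^ (-(j : ℤ)) = (1 + √2) ^ 62 * b⁻¹ ^ j := by
      rw [zpow_neg, zpow_natCast, ← inv_pow]
    have e2 : b ^ (-(j : ℤ) + 100) = b⁻¹ ^ (j - 100) := by
      rw [inv_pow, ← zpow_natCast, ← zpow_neg]
      congr 1
      omega
    rw [e1, e2]
    set t := b⁻¹ ^ (j - 100) with ht
    have ht1 : t ≤ 1 := pow_le_one₀ (by positivity) (inv_le_one_of_one_le₀ (by linarith))
    have ht0 : 0 < t := by positivity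
    set a := (1 + √2) ^ 62 * b⁻¹ ^ j with ha
    have ha0 : 0 ≤ a := by positivity
    have h2 := abs_tan_le_of_small (x := a) (by rw [abs_of_nonneg ha0]; linarith)
    rw [abs_of_nonneg ha0] at h2
    have h3 : |tan (2 * π * a)| ≤ 8 / 1000 * t := by linarith
    calc tan (2 * π * a) ^ 2 = |tan (2 * π * a)| ^ 2 := (sq_abs _).symm
      _ ≤ (8 / 1000 * t) ^ 2 := pow_le_pow_left₀ (abs_nonneg _) h3 2
      _ ≤ 1 / 1000 * t := by nlinarith
  calc ∑ i ∈ F, tan (2 * π * ((1 + √2) ^ 62 * b ^ i)) ^ 2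
      ≤ ∑ i ∈ F, 1 / 1000 * b ^ (i + 100) := Finset.sum_le_sum key
    _ = 1 / 1000 * ∑ i ∈ F.image (fun i => i + 100), b ^ i := by
        rw [Finset.mul_sum, Finset.sum_image]
        intro i _ j _ hij
        simpa using hij
    _ ≤ 1 / 1000 * 3 := by
        apply mul_le_mul_of_nonneg_left _ (by norm_num)
        apply sum_zpow_le hb
        intro i hi
        obtain ⟨k, hk, rfl⟩ := Finset.mem_image.1 hi
        have := hF k hk
        omega
    _ ≤ 1 := by norm_num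

end Base

open Base in
/-- The initial state. -/
theorem base {b th : ℝ} (hb1 : 1.8832 < b) (hb2 : b < 1.8833) (hs : b + b⁻¹ = 1 + √2)
    (htr : TraceInt b th ((1+√2)^62) ((1+√2)^62) (((1-√2)^62 : ℝ) : ℂ)) :
    ∃ Q0 : ℝ, 1 ≤ Q0 ∧ Q0 ≤ (90:ℝ)^(3:ℝ) ∧ Has b th 90 Q0 := by
  have h := num hb1 hb2 hs
  have hb0 : 0 < b := by linarith
  refine ⟨200000, by norm_num, ?_, (1 + √2) ^ 62, 175, 175, ⟨?_, U_le_om h, ?_, ?_, ?_⟩, ?_, ?_,
    by norm_num⟩
  · rw [show (3 : ℝ) = ((3 : ℕ) : ℝ) by norm_num, Real.rpow_natCast]; norm_num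
  · have := h.U_pos
    rw [abs_of_pos (by linarith)]; linarith
  · refine ⟨_, _, htr, U_le_om h, ?_⟩
    rw [Complex.norm_real, Real.norm_eq_abs, abs_of_pos W_pos, om_eq]
    have h1 := W_le
    have h2 : (1 : ℝ) / 300000000000000000000000 ≤ ((90 : ℝ) ^ 12)⁻¹ := by norm_num
    linarith
  · intro i
    obtain ⟨n, hn⟩ := near h htr i
    exact (tan_bound hn).1
  · intro F hF
    have h1 : ∑ i ∈ F.filter (fun i => i ≤ -100), tan (2 * π * ((1 + √2) ^ 62 * b ^ i)) ^ 2 ≤ 1 := by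
      apply tail h
      intro i hi
      exact (Finset.mem_filter.1 hi).2
    have h2 : ∑ i ∈ F.filter (fun i => ¬ i ≤ -100), tan (2 * π * ((1 + √2) ^ 62 * b ^ i)) ^ 2 ≤
        275 * 700 := by
      have h3 : (F.filter (fun i => ¬ i ≤ -100)) ⊆ Finset.Ico (-100 : ℤ) 175 := by
        intro i hi
        have := (Finset.mem_filter.1 hi).2
        have := hF i (Finset.mem_filter.1 hi).1
        rw [Finset.mem_Ico]
        push_cast at this
        omega
      calc _ ≤ ∑ i ∈ Finset.Ico (-100 : ℤ) 175, tan (2 * π * ((1 + √2) ^ 62 * b ^ i)) ^ 2 :=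
            Finset.sum_le_sum_of_subset_of_nonneg h3 (fun _ _ _ => sq_nonneg _)
        _ ≤ ∑ i ∈ Finset.Ico (-100 : ℤ) 175, (700 : ℝ) := by
            apply Finset.sum_le_sum
            intro i _
            obtain ⟨n, hn⟩ := near h htr i
            exact (tan_bound hn).2
        _ = 275 * 700 := by
            have hc : (Finset.Ico (-100 : ℤ) 175).card = 275 := by rw [Int.card_Ico]; rfl
            rw [Finset.sum_const, hc]; norm_num
    rw [← Finset.sum_filter_add_sum_filter_not F (fun i => i ≤ -100)]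
    linarith
  · rw [show (8 : ℝ) = ((8 : ℕ) : ℝ) by norm_num, Real.rpow_natCast]; norm_num
  · rw [show (48 : ℝ) = ((48 : ℕ) : ℝ) by norm_num, Real.rpow_natCast]
    have h1 : (1.8832 : ℝ) ^ 175 ≤ b ^ 175 := pow_le_pow_left₀ (by norm_num) h.b1.le _
    have h2 : (90 : ℝ) ^ 24 ≤ 1.8832 ^ 175 := by norm_num
    have h3 : (90 : ℝ) ^ 24 ≤ b ^ 175 := h2.trans h1
    calc (90 : ℝ) ^ 48 = (90 : ℝ) ^ 24 * (90 : ℝ) ^ 24 := by rw [← pow_add]
      _ ≤ b ^ 175 * b ^ 175 := mul_le_mul h3 h3 (by positivity) (by positivity)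
      _ = b ^ (175 + 175) := by rw [← pow_add]

end Vale.Agent.P105
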