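import Mathlib

/-! Basic notions for the proof (P105): windows, tangents, states. -/

open Real

namespace Vale.Agent.P105

/-- Integrality of the trace sequence `U b^i + S b^{-i} + 2 Re (w e^{iθ i})`. -/
def TraceInt (b th U S : ℝ) (w : ℂ) : Prop :=
  ∀ i : ℤ, ∃ c : ℤ,
    U * b ^ i + S * b ^ (-i) + 2 * (w * Complex.exp (Complex.I * ((th * (i : ℝ) : ℝ) : ℂ))).re = c

/-- The state predicate of the recursion.  `U` is the expanding coordinate, the window is
`[-M, N)`, `om` bounds the tails and the neutral coordinate, `Q` bounds the sum of squares of the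
tangents `tan (2π U b^i)` over `i < N`. -/
structure St (b th U : ℝ) (M N : ℕ) (om Q : ℝ) : Prop where
  hU1 : 1 ≤ |U|
  hU : |U| ≤ om * b ^ M
  tr : ∃ (S : ℝ) (w : ℂ), TraceInt b th U S w ∧ |S| ≤ om * b ^ N ∧ ‖w‖ ≤ om
  cos_ne : ∀ i : ℤ, cos (2 * π * (U * b ^ i)) ≠ 0
  sum_le : ∀ F : Finset ℤ, (∀ i ∈ F, i < (N : ℤ)) →
    ∑ i ∈ F, tan (2 * π * (U * b ^ i)) ^ 2 ≤ Q

end Vale.Agent.P105
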