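import Mathlib

/-! Definitions for P105 (Bernoulli convolutions). -/

open MeasureTheory

namespace Vale.Agent.P105

/-- The law of a fair sign: mass `1/2` at `1` and mass `1/2` at `-1`. -/
noncomputable def fairSign : Measure ℝ :=
  (2⁻¹ : ENNReal) • Measure.dirac (1 : ℝ) + (2⁻¹ : ENNReal) • Measure.dirac (-1 : ℝ)

/-- The unbiased Bernoulli convolution `ν_l`: the law of `∑ εₙ lⁿ` where the coordinates
`εₙ` of a point of `ℕ → ℝ` are independent fair signs. -/
noncomputable def bernoulliConv (l : ℝ) : Measure ℝ :=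
  (Measure.infinitePi (fun _ : ℕ => fairSign)).map (fun w : ℕ → ℝ => ∑' n : ℕ, w n * l ^ n)

/-- `b` is a Pisot number: a real algebraic integer `> 1` all of whose other Galois conjugates
(complex roots of its minimal polynomial) have modulus `< 1`. -/
def IsPisot (b : ℝ) : Prop :=
  1 < b ∧ IsIntegral ℤ b ∧
    ∀ z : ℂ, z ≠ (b : ℂ) → Polynomial.aeval z (minpoly ℚ b) = 0 → ‖z‖ < 1

end Vale.Agent.P105
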