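import Mathlib
import Vale.Agent.P105.Defs
import Vale.Agent.P105.Core0

/-! P105: the second quartic Salem number below `2`. -/

open Real

namespace Vale.Agent.P105

/-- `(1 + √13)/2` -/
noncomputable def t2 : ℝ := (1 + √13) / 2

/-- `(1 - √13)/2` -/
noncomputable def t2' : ℝ := (1 - √13) / 2

/-- the Salem number `1.7220…`, root of `x⁴ - x³ - x² - x + 1` -/
noncomputable def sb2 : ℝ := (t2 + √(t2 - 1)) / 2

/-- the angle of the complex conjugates -/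
noncomputable def sth2 : ℝ := Real.arccos (t2' / 2)

theorem sqrt13_lb : (3.605551275 : ℝ) < √13 := by
  apply Real.lt_sqrt_of_sq_lt; norm_num

theorem sqrt13_ub : √13 < (3.605551276 : ℝ) := by
  rw [Real.sqrt_lt' (by norm_num)]; norm_num

theorem sq_sqrt13 : √13 ^ 2 = (13 : ℝ) := Real.sq_sqrt (by norm_num)

theorem t2_lb : (2.302775637 : ℝ) < t2 := by unfold t2; have := sqrt13_lb; linarith

theorem t2_ub : t2 < (2.302775638 : ℝ) := by unfold t2; have := sqrt13_ub; linarith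

theorem t2'_lb : (-1.302775638 : ℝ) < t2' := by unfold t2'; have := sqrt13_ub; linarith

theorem t2'_ub : t2' < (-1.302775637 : ℝ) := by unfold t2'; have := sqrt13_lb; linarith

theorem t2_sq : t2 ^ 2 = t2 + 3 := by unfold t2; have := sq_sqrt13; linarith

theorem t2'_sq : t2' ^ 2 = t2' + 3 := by unfold t2'; have := sq_sqrt13; linarith

theorem t2_add : t2 + t2' = 1 := by unfold t2 t2'; ring

theorem disc2_sq : √(t2 - 1) ^ 2 = t2 - 1 :=
  Real.sq_sqrt (by have := t2_lb; linarith)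

theorem disc2_lb : (1.14136 : ℝ) < √(t2 - 1) := by
  apply Real.lt_sqrt_of_sq_lt
  have := t2_lb; norm_num; linarith

theorem disc2_ub : √(t2 - 1) < (1.1414 : ℝ) := by
  rw [Real.sqrt_lt' (by norm_num)]
  have := t2_ub; norm_num; linarith

theorem sb2_lb : (1.7220 : ℝ) < sb2 := by
  unfold sb2; have := t2_lb; have := disc2_lb; linarith

theorem sb2_ub : sb2 < (1.7221 : ℝ) := by
  unfold sb2; have := t2_ub; have := disc2_ub; linarith

theorem sb2_pos : 0 < sb2 := by have := sb2_lb; linarith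

theorem sb2_quad : sb2 ^ 2 - t2 * sb2 + 1 = 0 := by
  unfold sb2
  have h1 := t2_sq
  have h2 := disc2_sq
  nlinarith

theorem sb2_add_inv : sb2 + sb2⁻¹ = t2 := by
  have h := sb2_quad
  have h0 := sb2_pos.ne'
  field_simp
  linarith

theorem sb2_quartic : sb2 ^ 4 - sb2 ^ 3 - sb2 ^ 2 - sb2 + 1 = 0 := by
  have h := sb2_quad
  have h1 := t2_sq
  have e : sb2 ^ 2 + 1 = t2 * sb2 := by linarith
  have : sb2 ^ 4 - sb2 ^ 3 - sb2 ^ 2 - sb2 + 1 =
      (sb2 ^ 2 + 1) ^ 2 - (sb2 ^ 2 + 1) * sb2 - 3 * sb2 ^ 2 := by ring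
  rw [this, e]
  have : (t2 * sb2) ^ 2 - t2 * sb2 * sb2 - 3 * sb2 ^ 2 = (t2 ^ 2 - t2 - 3) * sb2 ^ 2 := by ring
  rw [this, h1]; ring

theorem two_cos_sth2 : 2 * cos sth2 = t2' := by
  unfold sth2
  have := t2'_lb
  have := t2'_ub
  rw [Real.cos_arccos (by linarith) (by linarith)]
  ring

/-- `b^i + b^{-i}` -/
theorem x2_rec (i : ℤ) : sb2 ^ (i + 1) + sb2 ^ (-(i + 1)) =
    t2 * (sb2 ^ i + sb2 ^ (-i)) - (sb2 ^ (i - 1) + sb2 ^ (-(i - 1))) := by
  have h0 := sb2_pos.ne'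
  rw [← sb2_add_inv]
  have e1 : sb2 ^ (i + 1) = sb2 ^ i * sb2 := by rw [zpow_add₀ h0, zpow_one]
  have e2 : sb2 ^ (i - 1) = sb2 ^ i * sb2⁻¹ := by rw [zpow_sub₀ h0, zpow_one, div_eq_mul_inv]
  have e3 : sb2 ^ (-(i + 1)) = sb2 ^ (-i) * sb2⁻¹ := by
    rw [neg_add, zpow_add₀ h0, zpow_neg_one]
  have e4 : sb2 ^ (-(i - 1)) = sb2 ^ (-i) * sb2 := by
    have : -(i - 1) = -i + 1 := by ring
    rw [this, zpow_add₀ h0, zpow_one]
  rw [e1, e2, e3, e4]
  ring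

theorem y2_rec (i : ℤ) : 2 * cos (sth2 * ((i + 1 : ℤ) : ℝ)) =
    t2' * (2 * cos (sth2 * (i : ℝ))) - 2 * cos (sth2 * ((i - 1 : ℤ) : ℝ)) := by
  rw [← two_cos_sth2]
  have e1 : sth2 * ((i + 1 : ℤ) : ℝ) = sth2 * i + sth2 := by push_cast; ring
  have e2 : sth2 * ((i - 1 : ℤ) : ℝ) = sth2 * i - sth2 := by push_cast; ring
  rw [e1, e2, Real.cos_add, Real.cos_sub]
  ring

theorem c2_int_nat (i : ℕ) : ∀ p q : ℤ, ∃ c : ℤ,
    ((p : ℝ) + q * t2) * (sb2 ^ (i : ℤ) + sb2 ^ (-(i : ℤ))) +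
      ((p : ℝ) + q * t2') * (2 * cos (sth2 * ((i : ℤ) : ℝ)))
      = (c : ℝ) := by
  have ht := t2_sq
  have ht' := t2'_sq
  have hs := t2_add
  have h : ∀ i : ℕ, (∀ p q : ℤ, ∃ c : ℤ,
    ((p : ℝ) + q * t2) * (sb2 ^ (i : ℤ) + sb2 ^ (-(i : ℤ))) +
      ((p : ℝ) + q * t2') * (2 * cos (sth2 * ((i : ℤ) : ℝ)))
      = (c : ℝ)) ∧ (∀ p q : ℤ, ∃ c : ℤ,
    ((p : ℝ) + q * t2) * (sb2 ^ ((i : ℤ) + 1) + sb2 ^ (-((i : ℤ) + 1))) +
      ((p : ℝ) + q * t2') * (2 * cos (sth2 * (((i : ℤ) + 1 : ℤ) : ℝ)))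
      = (c : ℝ)) := by
    intro i
    induction i with
    | zero =>
      refine ⟨fun p q => ?_, fun p q => ?_⟩
      · refine ⟨2 * (2 * p + q), ?_⟩
        push_cast
        simp
        linear_combination (2 * q : ℝ) * hs
      · refine ⟨p + 7 * q, ?_⟩
        have e1 : sb2 ^ (((0:ℕ) : ℤ) + 1) + sb2 ^ (-(((0:ℕ) : ℤ) + 1)) = t2 := by
          rw [← sb2_add_inv]; simp
        have e2 : 2 * cos (sth2 * ((((0:ℕ) : ℤ) + 1 : ℤ) : ℝ)) = t2' := by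
          rw [← two_cos_sth2]; simp
        rw [e1, e2]
        push_cast
        linear_combination (q : ℝ) * ht + (q : ℝ) * ht' + (p + q : ℝ) * hs
    | succ i ih =>
      obtain ⟨h1, h2⟩ := ih
      refine ⟨fun p q => ?_, fun p q => ?_⟩
      · obtain ⟨c, hc⟩ := h2 p q
        refine ⟨c, ?_⟩
        push_cast at hc ⊢
        exact hc
      · obtain ⟨c1, hc1⟩ := h1 p q
        obtain ⟨c2, hc2⟩ := h2 (3 * q) (p + q)
        refine ⟨c2 - c1, ?_⟩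
        have hx := x2_rec ((i : ℤ) + 1)
        have hy := y2_rec ((i : ℤ) + 1)
        rw [add_sub_cancel_right] at hx hy
        have e : (((i + 1 : ℕ) : ℤ)) = (i : ℤ) + 1 := by push_cast; ring
        have m1 : ((3 * q : ℤ) : ℝ) + ((p + q : ℤ) : ℝ) * t2 = t2 * ((p : ℝ) + q * t2) := by
          push_cast; linear_combination -(q : ℝ) * ht
        have m2 : ((3 * q : ℤ) : ℝ) + ((p + q : ℤ) : ℝ) * t2' = t2' * ((p : ℝ) + q * t2') := by
          push_cast; linear_combination -(q : ℝ) * ht'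
        rw [m1, m2] at hc2
        rw [e, hx, hy, Int.cast_sub, ← hc1, ← hc2]
        ring
  exact (h i).1

theorem traceInt2 (p q : ℤ) : TraceInt sb2 sth2 ((p : ℝ) + q * t2) ((p : ℝ) + q * t2)
    (((p : ℝ) + q * t2' : ℝ) : ℂ) := by
  intro i
  have hre : 2 * ((((p : ℝ) + q * t2' : ℝ) : ℂ) *
      Complex.exp (Complex.I * ((sth2 * (i : ℝ) : ℝ) : ℂ))).re =
      ((p : ℝ) + q * t2') * (2 * cos (sth2 * (i : ℝ))) := by
    rw [Complex.re_ofReal_mul, mul_comm Complex.I, Complex.exp_ofReal_mul_I_re]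
    ring
  rw [hre]
  obtain ⟨j, rfl | rfl⟩ := Int.eq_nat_or_neg i
  · obtain ⟨c, hc⟩ := c2_int_nat j p q
    exact ⟨c, by rw [← hc]; ring⟩
  · obtain ⟨c, hc⟩ := c2_int_nat j p q
    refine ⟨c, ?_⟩
    rw [← hc, neg_neg]
    have : sth2 * ((-(j : ℤ) : ℤ) : ℝ) = -(sth2 * ((j : ℤ) : ℝ)) := by push_cast; ring
    rw [this, Real.cos_neg]
    ring

end Vale.Agent.P105
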