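import Vale.Agent.P105.Base
import Vale.Agent.P105.Beta2

/-! P105: the initial state for the second quartic Salem number,
`U = (2 + 5t)(1 + t)^50`, `t = (1 + √13)/2`. -/

open Real

namespace Vale.Agent.P105

namespace Base2

/-- `U + W` -/
def V : ℕ := 1187773474692584709454805427
/-- `⌊10^45 / b⌋` -/
def L : ℕ := 580691831992952401532541421581416511055531731
/-- the common denominator -/
def D : ℕ := 10 ^ 45
/-- `|U - V| ≤ 1/E` -/
def E : ℕ := 10 ^ 25

/-- nearest integer to `2 V (L/D)^j` -/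
def c (j : ℕ) : ℕ := (4 * V * L ^ j + D ^ j) / (2 * D ^ j)

/-- upper check -/
def chk1 (j : ℕ) : Prop :=
  200 * (V * E + 1) * (L + 1) ^ j ≤ (100 * c j + 48) * D ^ j * E
/-- lower check -/
def chk2 (j : ℕ) : Prop :=
  100 * c j * D ^ j * E ≤ 200 * (V * E - 1) * L ^ j + 48 * D ^ j * E

instance (j : ℕ) : Decidable (chk1 j) := inferInstanceAs (Decidable (_ ≤ _))
instance (j : ℕ) : Decidable (chk2 j) := inferInstanceAs (Decidable (_ ≤ _))

theorem chk1_all : ∀ j < 130, chk1 j := by decide +kernel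
theorem chk2_all : ∀ j < 130, chk2 j := by decide +kernel

theorem small_all : 1000 * (V + 1) * (L + 1) ^ 130 ≤ D ^ 130 := by decide +kernel

theorem VE_pos : 1 ≤ V * E := by decide +kernel

/-- the constants -/
structure Num (b U : ℝ) : Prop where
  b1 : (1.7220 : ℝ) < b
  b2 : b < 1.7221
  inv_lo : (L : ℝ) / D ≤ b⁻¹
  inv_hi : b⁻¹ ≤ ((L : ℝ) + 1) / D
  U_lo : (V : ℝ) - 1 / E ≤ U
  U_hi : U ≤ V + 1 / E

theorem Dpos : (0 : ℝ) < D := by norm_num [D]
theorem Epos : (0 : ℝ) < E := by norm_num [E]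
theorem Lpos : (0 : ℝ) < L := by norm_num [L]
theorem Vbig : (1000000000000000000000000000 : ℝ) ≤ V - 5 := by norm_num [V]
theorem Einv : (1 : ℝ) / E ≤ 1 := by norm_num [E]

theorem Num.U_pos {b U : ℝ} (h : Num b U) : (1000000000000000000000000000 : ℝ) ≤ U := by
  have h1 := h.U_lo
  have h2 := Vbig
  have h3 := Einv
  linarith

theorem Num.U_hi' {b U : ℝ} (h : Num b U) : U ≤ (V : ℝ) + 1 := by
  have h1 := h.U_hi
  have h3 := Einv
  linarith

theorem Num.window {b U : ℝ} (h : Num b U) {j : ℕ} (hj : j < 130) :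
    |2 * (U * b⁻¹ ^ j) - (c j : ℝ)| ≤ 0.48 := by
  have hD := Dpos
  have hE := Epos
  have hL := Lpos
  have hU := h.U_pos
  have hDj : (0 : ℝ) < (D : ℝ) ^ j := by positivity
  have c1 : (200 * (V * E + 1) * (L + 1) ^ j : ℝ) ≤ (100 * c j + 48) * D ^ j * E := by
    exact_mod_cast chk1_all j hj
  have c2 : (100 * c j * D ^ j * E : ℝ) ≤ 200 * (V * E - 1) * L ^ j + 48 * D ^ j * E := by
    have := chk2_all j hj
    unfold chk2 at this
    have h3 : ((V * E - 1 : ℕ) : ℝ) = (V : ℝ) * E - 1 := by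
      rw [Nat.cast_sub VE_pos]; push_cast; ring
    rw [← h3]
    exact_mod_cast this
  have hpos : 0 ≤ b⁻¹ := (by positivity : (0 : ℝ) ≤ (L : ℝ) / D).trans h.inv_lo
  have up : U * b⁻¹ ^ j ≤ ((V : ℝ) + 1 / E) * (((L : ℝ) + 1) / D) ^ j := by
    have h1 := h.inv_hi
    have h2 := h.U_hi
    gcongr
  have lo : ((V : ℝ) - 1 / E) * ((L : ℝ) / D) ^ j ≤ U * b⁻¹ ^ j := by
    have h1 := h.inv_lo
    have h2 := h.U_lo
    gcongr
  rw [div_pow] at up lo
  rw [abs_le]
  constructor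
  · have e : ((c j : ℝ) - 0.48) / 2 ≤ ((V : ℝ) - 1 / E) * ((L : ℝ) ^ j / (D : ℝ) ^ j) := by
      rw [mul_div_assoc', div_le_div_iff₀ (by norm_num) hDj]
      have e1 : (((V : ℝ) - 1 / E) * (L : ℝ) ^ j) * 2 * (100 * E) =
          200 * (V * E - 1) * L ^ j := by field_simp; ring
      have e2 : ((c j : ℝ) - 0.48) * D ^ j * (100 * E) =
          100 * c j * D ^ j * E - 48 * D ^ j * E := by ring
      have e3 : ((c j : ℝ) - 0.48) * D ^ j * (100 * E) ≤
          (((V : ℝ) - 1 / E) * (L : ℝ) ^ j) * 2 * (100 * E) := by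
        rw [e1, e2]; linarith
      exact le_of_mul_le_mul_right e3 (by positivity)
    linarith
  · have e : ((V : ℝ) + 1 / E) * (((L : ℝ) + 1) ^ j / (D : ℝ) ^ j) ≤ ((c j : ℝ) + 0.48) / 2 := by
      rw [mul_div_assoc', div_le_div_iff₀ hDj (by norm_num)]
      have e1 : (((V : ℝ) + 1 / E) * ((L : ℝ) + 1) ^ j) * 2 * (100 * E) =
          200 * (V * E + 1) * (L + 1) ^ j := by field_simp; ring
      have e2 : ((c j : ℝ) + 0.48) * D ^ j * (100 * E) =
          (100 * c j + 48) * D ^ j * E := by ring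
      have e3 : (((V : ℝ) + 1 / E) * ((L : ℝ) + 1) ^ j) * 2 * (100 * E) ≤
          ((c j : ℝ) + 0.48) * D ^ j * (100 * E) := by
        rw [e1, e2]; linarith
      exact le_of_mul_le_mul_right e3 (by positivity)
    linarith

set_option maxRecDepth 100000 in
theorem Num.small {b U : ℝ} (h : Num b U) {j : ℕ} (hj : 130 ≤ j) :
    U * b⁻¹ ^ j ≤ 1 / 1000 * b⁻¹ ^ (j - 130) := by
  have hD := Dpos
  have hL := Lpos
  have hpos : 0 ≤ b⁻¹ := (by positivity : (0 : ℝ) ≤ (L : ℝ) / D).trans h.inv_lo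
  have e : b⁻¹ ^ j = b⁻¹ ^ 130 * b⁻¹ ^ (j - 130) := by rw [← pow_add]; congr 1; omega
  have hU := h.U_pos
  rw [e, ← mul_assoc]
  apply mul_le_mul_of_nonneg_right _ (by positivity)
  have up : U * b⁻¹ ^ 130 ≤ ((V : ℝ) + 1) * (((L : ℝ) + 1) / D) ^ 130 :=
    mul_le_mul h.U_hi' (pow_le_pow_left₀ hpos h.inv_hi 130) (pow_nonneg hpos _) (by positivity)
  refine up.trans ?_
  have hs : (1000 * (V + 1) * (L + 1) ^ 130 : ℝ) ≤ D ^ 130 := by exact_mod_cast small_all
  rw [div_pow, mul_div_assoc', div_le_div_iff₀ (by positivity) (by norm_num)]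
  linarith

theorem Num.near_neg {b U : ℝ} (h : Num b U) (j : ℕ) :
    ∃ n : ℤ, |2 * (U * b⁻¹ ^ j) - n| ≤ 0.48 := by
  rcases lt_or_ge j 130 with hj | hj
  · exact ⟨(c j : ℤ), by exact_mod_cast h.window hj⟩
  · refine ⟨0, ?_⟩
    have hb := h.b1
    have h1 := h.small hj
    have hU := h.U_pos
    have h2 : b⁻¹ ^ (j - 130) ≤ 1 := pow_le_one₀ (by positivity) (inv_le_one_of_one_le₀ (by linarith))
    have h3 : 0 ≤ U * b⁻¹ ^ j := by positivity
    push_cast
    rw [sub_zero, abs_of_nonneg (by positivity)]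
    linarith

/-- `(1+t)^n = (pell n).1 + (pell n).2 t` -/
def pell : ℕ → ℕ × ℕ
  | 0 => (1, 0)
  | n + 1 => ((pell n).1 + 3 * (pell n).2, (pell n).1 + 2 * (pell n).2)

theorem pell_pow {t : ℝ} (ht : t ^ 2 = t + 3) (n : ℕ) :
    (1 + t) ^ n = ((pell n).1 : ℝ) + (pell n).2 * t := by
  induction n with
  | zero => simp [pell]
  | succ n ih =>
    rw [pow_succ, ih, pell]
    push_cast
    linear_combination ((pell n).2 : ℝ) * ht

/-- the coordinates of `U` -/
def P0 : ℕ := 429172192475517615991685333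
/-- the coordinates of `U` -/
def Q0 : ℕ := 329429089741549477471434761

theorem pell_50 : 2 * (pell 50).1 + 15 * (pell 50).2 = P0 ∧
    5 * (pell 50).1 + 7 * (pell 50).2 = Q0 := by decide +kernel

theorem PQV : 2 * P0 + Q0 = V := by decide +kernel

/-- `(2 + 5x)(1 + x)^50` -/
noncomputable def UU (x : ℝ) : ℝ := (2 + 5 * x) * (1 + x) ^ 50

theorem UU_eq {t : ℝ} (ht : t ^ 2 = t + 3) : UU t = (P0 : ℝ) + Q0 * t := by
  unfold UU
  rw [pell_pow ht, ← pell_50.1, ← pell_50.2]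
  push_cast
  linear_combination (5 * (pell 50).2 : ℝ) * ht

theorem UW_add : UU t2 + UU t2' = (V : ℝ) := by
  rw [UU_eq t2_sq, UU_eq t2'_sq, ← PQV]
  push_cast
  linear_combination (Q0 : ℝ) * t2_add

theorem UW_mul : UU t2 * UU t2' = -61 := by
  unfold UU
  have h1 : (1 + t2) * (1 + t2') = -1 := by
    have : t2 * t2' = -3 := by
      have h2 := t2_sq
      have h3 := t2_add
      have : t2' = 1 - t2 := by linarith
      rw [this]; linarith
    linear_combination t2_add + this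
  have h2 : (2 + 5 * t2) * (2 + 5 * t2') = -61 := by
    have : t2 * t2' = -3 := by
      have h2 := t2_sq
      have h3 := t2_add
      have : t2' = 1 - t2 := by linarith
      rw [this]; linarith
    linear_combination 10 * t2_add + 25 * this
  calc (2 + 5 * t2) * (1 + t2) ^ 50 * ((2 + 5 * t2') * (1 + t2') ^ 50)
      = ((2 + 5 * t2) * (2 + 5 * t2')) * ((1 + t2) * (1 + t2')) ^ 50 := by rw [mul_pow]; ring
    _ = -61 := by rw [h1, h2]; norm_num

theorem W_neg : UU t2' < 0 := by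
  unfold UU
  have h1 := t2'_lb
  have h2 := t2'_ub
  apply mul_neg_of_neg_of_pos (by linarith)
  have h : (1 + t2') ^ 50 = ((1 + t2') ^ 2) ^ 25 := by rw [← pow_mul]
  rw [h]
  apply pow_pos
  have : 1 + t2' ≠ 0 := by linarith
  positivity

theorem W_ge : -5 ≤ UU t2' := by
  unfold UU
  have h1 := t2'_lb
  have h2 := t2'_ub
  have h : (1 + t2') ^ 50 = ((1 + t2') ^ 2) ^ 25 := by rw [← pow_mul]
  rw [h]
  have h3 : ((1 + t2') ^ 2) ^ 25 ≤ 1 := pow_le_one₀ (by positivity) (by nlinarith)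
  have h4 : 0 ≤ ((1 + t2') ^ 2) ^ 25 := by positivity
  nlinarith

theorem U_ge : (1000000000000000000000000000 : ℝ) ≤ UU t2 := by
  have h1 := UW_add
  have h2 := W_neg
  have h3 := Vbig
  linarith

theorem W_abs_le : |UU t2'| ≤ 1 / 10000000000000000000000000 := by
  have h1 := UW_mul
  have h2 := U_ge
  have h3 := W_neg
  rw [abs_of_neg h3, le_div_iff₀ (by norm_num)]
  have h4 : -(UU t2') * 1000000000000000000000000000 ≤ -(UU t2') * UU t2 :=
    mul_le_mul_of_nonneg_left h2 (by linarith)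
  linarith

theorem num : Num sb2 (UU t2) := by
  have hb1 := sb2_lb
  have hb2 := sb2_ub
  have hb0 : 0 < sb2 := sb2_pos
  have hs := sb2_add_inv
  have hi0 : 0 < sb2⁻¹ := by positivity
  have hi1 : sb2⁻¹ < 0.6 := by rw [inv_lt_comm₀ hb0 (by norm_num)]; norm_num; linarith
  -- monotonicity
  have mono : ∀ x y : ℝ, 0 < x → x < 0.6 → 0 < y → y < 0.6 → x + x⁻¹ ≤ y + y⁻¹ → y ≤ x := by
    intro x y hx hx1 hy hy1 hxy
    by_contra hlt
    push Not at hlt
    have e : y + y⁻¹ - (x + x⁻¹) = (y - x) * (x * y - 1) / (x * y) := by field_simp; ring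
    have e2 : (y - x) * (x * y - 1) / (x * y) < 0 := by
      apply div_neg_of_neg_of_pos _ (by positivity)
      apply mul_neg_of_pos_of_neg (by linarith)
      nlinarith
    linarith
  have hW := W_abs_le
  rw [abs_of_neg W_neg] at hW
  have hE : (1 : ℝ) / 10000000000000000000000000 ≤ 1 / E := by norm_num [E]
  refine ⟨hb1, hb2, ?_, ?_, ?_, ?_⟩
  · refine mono _ _ hi0 hi1 (by norm_num [L, D]) (by norm_num [L, D]) ?_
    rw [inv_inv, add_comm, hs]
    have : √13 ≤ 2 * ((L : ℝ) / D + ((L : ℝ) / D)⁻¹) - 1 := by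
      rw [Real.sqrt_le_iff]
      constructor <;> norm_num [L, D]
    unfold t2
    linarith
  · refine mono _ _ (by norm_num [L, D]) (by norm_num [L, D]) hi0 hi1 ?_
    rw [inv_inv, add_comm sb2⁻¹, hs]
    have : 2 * (((L : ℝ) + 1) / D + (((L : ℝ) + 1) / D)⁻¹) - 1 ≤ √13 := by
      rw [Real.le_sqrt' (by norm_num [L, D])]
      norm_num [L, D]
    unfold t2
    linarith
  · have h1 := UW_add
    have h2 := W_neg
    have h3 := Epos
    have h4 : (0:ℝ) < 1 / E := by positivity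
    linarith
  · have h1 := UW_add
    linarith

theorem htr : TraceInt sb2 sth2 (UU t2) (UU t2) ((UU t2' : ℝ) : ℂ) := by
  have h := traceInt2 P0 Q0
  rw [UU_eq t2_sq, UU_eq t2'_sq]
  push_cast at h ⊢
  exact h

theorem near (i : ℤ) : ∃ n : ℤ, |2 * (UU t2 * sb2 ^ i) - n| ≤ 0.481 := by
  have h := num
  rcases le_or_gt i 0 with hi | hi
  · obtain ⟨j, rfl⟩ : ∃ j : ℕ, i = -(j : ℤ) := ⟨(-i).toNat, by omega⟩
    obtain ⟨n, hn⟩ := h.near_neg j
    refine ⟨n, ?_⟩
    rw [zpow_neg, zpow_natCast, ← inv_pow]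
    linarith
  · obtain ⟨j, rfl⟩ : ∃ j : ℕ, i = (j : ℤ) := ⟨i.toNat, by omega⟩
    obtain ⟨n, hn⟩ := h.near_neg j
    obtain ⟨c, hc⟩ := htr j
    refine ⟨2 * c - n, ?_⟩
    have hw : |((((UU t2' : ℝ) : ℂ) *
        Complex.exp (Complex.I * ((sth2 * ((j : ℤ) : ℝ) : ℝ) : ℂ))).re)| ≤
        1 / 10000000000000000000000000 := by
      refine (Complex.abs_re_le_norm _).trans ?_
      rw [norm_mul, Complex.norm_exp_I_mul_ofReal, mul_one, Complex.norm_real, Real.norm_eq_abs]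
      exact W_abs_le
    rw [zpow_neg, zpow_natCast, ← inv_pow] at hc
    rw [zpow_natCast]
    push_cast
    rw [abs_le] at hn hw ⊢
    constructor
    · have := hn.1; have := hn.2; have := hw.1; have := hw.2
      linarith
    · have := hn.1; have := hn.2; have := hw.1; have := hw.2
      linarith

theorem U_le_om : |UU t2| ≤ (90 : ℝ) ^ (-12 : ℝ) * sb2 ^ 220 := by
  have h0 := num.U_pos
  rw [abs_of_pos (by linarith), Base.om_eq]
  have h1 : (1.7220 : ℝ) ^ 220 ≤ sb2 ^ 220 := pow_le_pow_left₀ (by norm_num) sb2_lb.le 220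
  have h2 : ((V : ℝ) + 1) * 90 ^ 12 ≤ 1.7220 ^ 220 := by norm_num [V]
  have h3 := num.U_hi'
  rw [inv_mul_eq_div, le_div_iff₀ (by positivity)]
  have h4 : UU t2 * (90 : ℝ) ^ 12 ≤ (V + 1) * 90 ^ 12 :=
    mul_le_mul_of_nonneg_right h3 (by positivity)
  linarith

set_option maxRecDepth 100000 in
/-- The tail sum. -/
theorem tail (F : Finset ℤ) (hF : ∀ i ∈ F, i ≤ -130) :
    ∑ i ∈ F, tan (2 * π * (UU t2 * sb2 ^ i)) ^ 2 ≤ 1 := by
  have h := num
  have hb : 3 / 2 ≤ sb2 := by have := h.b1; linarith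
  have hb0 : 0 < sb2 := by linarith
  have h0 := h.U_pos
  have key : ∀ i ∈ F, tan (2 * π * (UU t2 * sb2 ^ i)) ^ 2 ≤ 1 / 1000 * sb2 ^ (i + 130) := by
    intro i hi
    have hi' := hF i hi
    obtain ⟨j, rfl⟩ : ∃ j : ℕ, i = -(j : ℤ) := ⟨(-i).toNat, by omega⟩
    have hj : 130 ≤ j := by omega
    have h1 := h.small hj
    have e1 : UU t2 * sb2 ^ (-(j : ℤ)) = UU t2 * sb2⁻¹ ^ j := by
      rw [zpow_neg, zpow_natCast, ← inv_pow]
    have e2 : sb2 ^ (-(j : ℤ) + 130) = sb2⁻¹ ^ (j - 130) := by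
      rw [inv_pow, ← zpow_natCast, ← zpow_neg]
      congr 1
      omega
    rw [e1, e2]
    set t := sb2⁻¹ ^ (j - 130) with ht
    have ht1 : t ≤ 1 := pow_le_one₀ (by positivity) (inv_le_one_of_one_le₀ (by linarith))
    have ht0 : 0 < t := by positivity
    set a := UU t2 * sb2⁻¹ ^ j with ha
    have ha0 : 0 ≤ a := by
      have : 0 ≤ UU t2 := by linarith
      positivity
    have h2 := abs_tan_le_of_small (x := a) (by rw [abs_of_nonneg ha0]; linarith)
    rw [abs_of_nonneg ha0] at h2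
    have h3 : |tan (2 * π * a)| ≤ 8 / 1000 * t := by linarith
    calc tan (2 * π * a) ^ 2 = |tan (2 * π * a)| ^ 2 := (sq_abs _).symm
      _ ≤ (8 / 1000 * t) ^ 2 := pow_le_pow_left₀ (abs_nonneg _) h3 2
      _ ≤ 1 / 1000 * t := by nlinarith
  calc ∑ i ∈ F, tan (2 * π * (UU t2 * sb2 ^ i)) ^ 2
      ≤ ∑ i ∈ F, 1 / 1000 * sb2 ^ (i + 130) := Finset.sum_le_sum key
    _ = 1 / 1000 * ∑ i ∈ F.image (fun i => i + 130), sb2 ^ i := by
        rw [Finset.mul_sum, Finset.sum_image]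
        intro i _ j _ hij
        simpa using hij
    _ ≤ 1 / 1000 * 3 := by
        apply mul_le_mul_of_nonneg_left _ (by norm_num)
        apply sum_zpow_le hb
        intro i hi
        obtain ⟨k, hk, rfl⟩ := Finset.mem_image.1 hi
        have := hF k hk
        omega
    _ ≤ 1 := by norm_num

end Base2

open Base Base2 in
/-- The initial state for the second number. -/
theorem base2 : ∃ Q0 : ℝ, 1 ≤ Q0 ∧ Q0 ≤ (90:ℝ)^(3:ℝ) ∧ Has sb2 sth2 90 Q0 := by
  have h := Base2.num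
  have hb0 : 0 < sb2 := sb2_pos
  refine ⟨300000, by norm_num, ?_, UU t2, 220, 220, ⟨?_, Base2.U_le_om, ?_, ?_, ?_⟩, ?_, ?_,
    by norm_num⟩
  · rw [show (3 : ℝ) = ((3 : ℕ) : ℝ) by norm_num, Real.rpow_natCast]; norm_num
  · have := h.U_pos
    rw [abs_of_pos (by linarith)]; linarith
  · refine ⟨_, _, Base2.htr, Base2.U_le_om, ?_⟩
    rw [Complex.norm_real, Real.norm_eq_abs, om_eq]
    have h1 := W_abs_le
    have h2 : (1 : ℝ) / 10000000000000000000000000 ≤ ((90 : ℝ) ^ 12)⁻¹ := by norm_num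
    linarith
  · intro i
    obtain ⟨n, hn⟩ := Base2.near i
    exact (tan_bound hn).1
  · intro F hF
    have h1 : ∑ i ∈ F.filter (fun i => i ≤ -130), tan (2 * π * (UU t2 * sb2 ^ i)) ^ 2 ≤ 1 := by
      apply Base2.tail
      intro i hi
      exact (Finset.mem_filter.1 hi).2
    have h2 : ∑ i ∈ F.filter (fun i => ¬ i ≤ -130), tan (2 * π * (UU t2 * sb2 ^ i)) ^ 2 ≤
        350 * 700 := by
      have h3 : (F.filter (fun i => ¬ i ≤ -130)) ⊆ Finset.Ico (-130 : ℤ) 220 := by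
        intro i hi
        have := (Finset.mem_filter.1 hi).2
        have := hF i (Finset.mem_filter.1 hi).1
        rw [Finset.mem_Ico]
        push_cast at this
        omega
      calc _ ≤ ∑ i ∈ Finset.Ico (-130 : ℤ) 220, tan (2 * π * (UU t2 * sb2 ^ i)) ^ 2 :=
            Finset.sum_le_sum_of_subset_of_nonneg h3 (fun _ _ _ => sq_nonneg _)
        _ ≤ ∑ i ∈ Finset.Ico (-130 : ℤ) 220, (700 : ℝ) := by
            apply Finset.sum_le_sum
            intro i _
            obtain ⟨n, hn⟩ := Base2.near i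
            exact (tan_bound hn).2
        _ = 350 * 700 := by
            have hc : (Finset.Ico (-130 : ℤ) 220).card = 350 := by rw [Int.card_Ico]; rfl
            rw [Finset.sum_const, hc]; norm_num
    rw [← Finset.sum_filter_add_sum_filter_not F (fun i => i ≤ -130)]
    linarith
  · rw [show (8 : ℝ) = ((8 : ℕ) : ℝ) by norm_num, Real.rpow_natCast]; norm_num
  · rw [show (48 : ℝ) = ((48 : ℕ) : ℝ) by norm_num, Real.rpow_natCast]
    have h1 : (1.7220 : ℝ) ^ 220 ≤ sb2 ^ 220 := pow_le_pow_left₀ (by norm_num) sb2_lb.le _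
    have h2 : (90 : ℝ) ^ 24 ≤ 1.7220 ^ 220 := by norm_num
    have h3 : (90 : ℝ) ^ 24 ≤ sb2 ^ 220 := h2.trans h1
    calc (90 : ℝ) ^ 48 = (90 : ℝ) ^ 24 * (90 : ℝ) ^ 24 := by rw [← pow_add]
      _ ≤ sb2 ^ 220 * sb2 ^ 220 := mul_le_mul h3 h3 (by positivity) (by positivity)
      _ = sb2 ^ (220 + 220) := by rw [← pow_add]

end Vale.Agent.P105
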