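import Mathlib
import Vale.Agent.P105.Defs
import Vale.Agent.P105.Core0

/-! P105, module [H]: the quartic Salem number. -/

open Real

namespace Vale.Agent.P105

/-- the Salem number `1.8832…`, root of `x⁴ - 2x³ + x² - 2x + 1` -/
noncomputable def sb : ℝ := (1 + √2 + √(2 * √2 - 1)) / 2

/-- the angle of the complex conjugates -/
noncomputable def sth : ℝ := Real.arccos ((1 - √2) / 2)

theorem sqrt2_lb : (1.41421356 : ℝ) < √2 := by
  apply Real.lt_sqrt_of_sq_lt; norm_num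

theorem sqrt2_ub : √2 < (1.41421357 : ℝ) := by
  rw [Real.sqrt_lt' (by norm_num)]; norm_num

theorem sq_sqrt2 : √2 ^ 2 = 2 := Real.sq_sqrt (by norm_num)

theorem disc_sq : √(2 * √2 - 1) ^ 2 = 2 * √2 - 1 :=
  Real.sq_sqrt (by have := sqrt2_lb; linarith)

theorem disc_lb : (1.35219 : ℝ) < √(2 * √2 - 1) := by
  apply Real.lt_sqrt_of_sq_lt
  have := sqrt2_lb; norm_num; linarith

theorem disc_ub : √(2 * √2 - 1) < (1.3522 : ℝ) := by
  rw [Real.sqrt_lt' (by norm_num)]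
  have := sqrt2_ub; norm_num; linarith

theorem sb_lb : (1.8832 : ℝ) < sb := by
  unfold sb; have := sqrt2_lb; have := disc_lb; linarith

theorem sb_ub : sb < (1.8833 : ℝ) := by
  unfold sb; have := sqrt2_ub; have := disc_ub; linarith

theorem sb_pos : 0 < sb := by have := sb_lb; linarith

theorem sb_quad : sb ^ 2 - (1 + √2) * sb + 1 = 0 := by
  unfold sb
  have h1 := sq_sqrt2
  have h2 := disc_sq
  nlinarith

theorem sb_add_inv : sb + sb⁻¹ = 1 + √2 := by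
  have h := sb_quad
  have h0 := sb_pos.ne'
  field_simp
  linarith

theorem sb_quartic : sb ^ 4 - 2 * sb ^ 3 + sb ^ 2 - 2 * sb + 1 = 0 := by
  have h := sb_quad
  have h1 := sq_sqrt2
  have e : sb ^ 2 - sb + 1 = √2 * sb := by linarith
  have : sb ^ 4 - 2 * sb ^ 3 + sb ^ 2 - 2 * sb + 1 = (sb ^ 2 - sb + 1) ^ 2 - 2 * sb ^ 2 := by ring
  rw [this, e, mul_pow, h1]; ring

theorem two_cos_sth : 2 * cos sth = 1 - √2 := by
  unfold sth
  have := sqrt2_lb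
  have := sqrt2_ub
  rw [Real.cos_arccos (by linarith) (by linarith)]
  ring

/-- `b^i + b^{-i}` -/
theorem x_rec (i : ℤ) : sb ^ (i + 1) + sb ^ (-(i + 1)) =
    (1 + √2) * (sb ^ i + sb ^ (-i)) - (sb ^ (i - 1) + sb ^ (-(i - 1))) := by
  have h0 := sb_pos.ne'
  rw [← sb_add_inv]
  have e1 : sb ^ (i + 1) = sb ^ i * sb := by rw [zpow_add₀ h0, zpow_one]
  have e2 : sb ^ (i - 1) = sb ^ i * sb⁻¹ := by rw [zpow_sub₀ h0, zpow_one, div_eq_mul_inv]
  have e3 : sb ^ (-(i + 1)) = sb ^ (-i) * sb⁻¹ := by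
    rw [neg_add, zpow_add₀ h0, zpow_neg_one]
  have e4 : sb ^ (-(i - 1)) = sb ^ (-i) * sb := by
    have : -(i - 1) = -i + 1 := by ring
    rw [this, zpow_add₀ h0, zpow_one]
  rw [e1, e2, e3, e4]
  ring

theorem y_rec (i : ℤ) : 2 * cos (sth * ((i + 1 : ℤ) : ℝ)) =
    (1 - √2) * (2 * cos (sth * (i : ℝ))) - 2 * cos (sth * ((i - 1 : ℤ) : ℝ)) := by
  rw [← two_cos_sth]
  have e1 : sth * ((i + 1 : ℤ) : ℝ) = sth * i + sth := by push_cast; ring
  have e2 : sth * ((i - 1 : ℤ) : ℝ) = sth * i - sth := by push_cast; ring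
  rw [e1, e2, Real.cos_add, Real.cos_sub]
  ring

/-- integrality of `η^k + η'^k`. -/
theorem s_int (k : ℕ) : ∃ c : ℤ, (1 + √2) ^ k + (1 - √2) ^ k = (c : ℝ) := by
  have h : ∀ k : ℕ, (∃ c : ℤ, (1 + √2) ^ k + (1 - √2) ^ k = (c : ℝ)) ∧
      (∃ c : ℤ, (1 + √2) ^ (k + 1) + (1 - √2) ^ (k + 1) = (c : ℝ)) := by
    intro k
    induction k with
    | zero => exact ⟨⟨2, by norm_num⟩, ⟨2, by norm_num⟩⟩
    | succ k ih =>
      obtain ⟨⟨c1, h1⟩, ⟨c2, h2⟩⟩ := ih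
      refine ⟨⟨c2, h2⟩, ⟨2 * c2 + c1, ?_⟩⟩
      have hs := sq_sqrt2
      have e1 : (1 + √2) ^ (k + 1 + 1) = 2 * (1 + √2) ^ (k + 1) + (1 + √2) ^ k := by
        have : (1 + √2) ^ 2 = 2 * (1 + √2) + 1 := by nlinarith
        calc (1 + √2) ^ (k + 1 + 1) = (1 + √2) ^ k * (1 + √2) ^ 2 := by ring
          _ = _ := by rw [this]; ring
      have e2 : (1 - √2) ^ (k + 1 + 1) = 2 * (1 - √2) ^ (k + 1) + (1 - √2) ^ k := by
        have : (1 - √2) ^ 2 = 2 * (1 - √2) + 1 := by nlinarith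
        calc (1 - √2) ^ (k + 1 + 1) = (1 - √2) ^ k * (1 - √2) ^ 2 := by ring
          _ = _ := by rw [this]; ring
      rw [e1, e2]
      push_cast
      rw [← h1, ← h2]
      ring
  exact (h k).1

theorem c_int_nat (i : ℕ) : ∀ k : ℕ, ∃ c : ℤ,
    (1 + √2) ^ k * (sb ^ (i : ℤ) + sb ^ (-(i : ℤ))) + (1 - √2) ^ k * (2 * cos (sth * ((i : ℤ) : ℝ)))
      = (c : ℝ) := by
  have h : ∀ i : ℕ, (∀ k : ℕ, ∃ c : ℤ,
    (1 + √2) ^ k * (sb ^ (i : ℤ) + sb ^ (-(i : ℤ))) + (1 - √2) ^ k * (2 * cos (sth * ((i : ℤ) : ℝ)))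
      = (c : ℝ)) ∧ (∀ k : ℕ, ∃ c : ℤ,
    (1 + √2) ^ k * (sb ^ ((i : ℤ) + 1) + sb ^ (-((i : ℤ) + 1))) +
      (1 - √2) ^ k * (2 * cos (sth * (((i : ℤ) + 1 : ℤ) : ℝ)))
      = (c : ℝ)) := by
    intro i
    induction i with
    | zero =>
      refine ⟨fun k => ?_, fun k => ?_⟩
      · obtain ⟨c, hc⟩ := s_int k
        refine ⟨2 * c, ?_⟩
        push_cast
        rw [← hc]
        simp
        ring
      · obtain ⟨c, hc⟩ := s_int (k + 1)
        refine ⟨c, ?_⟩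
        rw [← hc]
        have e1 : sb ^ (((0:ℕ) : ℤ) + 1) + sb ^ (-(((0:ℕ) : ℤ) + 1)) = 1 + √2 := by
          rw [← sb_add_inv]; simp
        have e2 : 2 * cos (sth * ((((0:ℕ) : ℤ) + 1 : ℤ) : ℝ)) = 1 - √2 := by
          rw [← two_cos_sth]; simp
        rw [e1, e2]
        ring
    | succ i ih =>
      obtain ⟨h1, h2⟩ := ih
      refine ⟨fun k => ?_, fun k => ?_⟩
      · obtain ⟨c, hc⟩ := h2 k
        refine ⟨c, ?_⟩
        push_cast at hc ⊢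
        exact hc
      · obtain ⟨c1, hc1⟩ := h1 k
        obtain ⟨c2, hc2⟩ := h2 (k + 1)
        refine ⟨c2 - c1, ?_⟩
        have hx := x_rec ((i : ℤ) + 1)
        have hy := y_rec ((i : ℤ) + 1)
        rw [add_sub_cancel_right] at hx hy
        have e : (((i + 1 : ℕ) : ℤ)) = (i : ℤ) + 1 := by push_cast; ring
        rw [e, hx, hy, Int.cast_sub, ← hc1, ← hc2]
        ring
  exact (h i).1

theorem traceInt_eta (k : ℕ) : TraceInt sb sth ((1 + √2) ^ k) ((1 + √2) ^ k)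
    (((1 - √2) ^ k : ℝ) : ℂ) := by
  intro i
  have hre : 2 * ((((1 - √2) ^ k : ℝ) : ℂ) *
      Complex.exp (Complex.I * ((sth * (i : ℝ) : ℝ) : ℂ))).re =
      (1 - √2) ^ k * (2 * cos (sth * (i : ℝ))) := by
    rw [Complex.re_ofReal_mul, mul_comm Complex.I, Complex.exp_ofReal_mul_I_re]
    ring
  rw [hre]
  obtain ⟨j, rfl | rfl⟩ := Int.eq_nat_or_neg i
  · obtain ⟨c, hc⟩ := c_int_nat j k
    exact ⟨c, by rw [← hc]; ring⟩
  · obtain ⟨c, hc⟩ := c_int_nat j k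
    refine ⟨c, ?_⟩
    rw [← hc, neg_neg]
    have : sth * ((-(j : ℤ) : ℤ) : ℝ) = -(sth * ((j : ℤ) : ℝ)) := by push_cast; ring
    rw [this, Real.cos_neg]
    ring

/-! ### not Pisot -/

theorem lin_indep_sqrt2 {x y : ℚ} (h : (x : ℝ) + y * √2 = 0) : x = 0 ∧ y = 0 := by
  have hirr := irrational_sqrt_two
  by_cases hy : y = 0
  · subst hy
    simp at h
    exact ⟨h, rfl⟩
  · exfalso
    apply hirr
    refine ⟨-x / y, ?_⟩
    have hy' : (y : ℝ) ≠ 0 := by exact_mod_cast hy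
    push_cast
    field_simp
    linarith

theorem lin_indep_sb {p0 p1 s0 s1 : ℚ}
    (h : ((p0 : ℝ) + p1 * √2) + ((s0 : ℝ) + s1 * √2) * sb = 0) : s0 = 0 ∧ s1 = 0 := by
  have hs := sq_sqrt2
  by_contra hne
  have hn : s0 ^ 2 - 2 * s1 ^ 2 ≠ 0 := by
    intro h0
    apply hne
    have h1 : ((s0 : ℝ) + s1 * √2) * ((s0 : ℝ) - s1 * √2) = 0 := by
      have : ((s0 ^ 2 - 2 * s1 ^ 2 : ℚ) : ℝ) = 0 := by rw [h0]; simp
      push_cast at this
      nlinarith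
    rcases mul_eq_zero.1 h1 with h2 | h2
    · exact lin_indep_sqrt2 h2
    · have h3 : ((s0 : ℚ) : ℝ) + ((-s1 : ℚ) : ℝ) * √2 = 0 := by push_cast; linarith
      obtain ⟨h4, h5⟩ := lin_indep_sqrt2 h3
      exact ⟨h4, by linarith [neg_eq_zero.1 h5]⟩
  -- `sb` would be in `ℚ(√2)`
  set n : ℚ := s0 ^ 2 - 2 * s1 ^ 2 with hnd
  have hnR : (n : ℝ) ≠ 0 := by exact_mod_cast hn
  have hb : (n : ℝ) * sb = -(((p0 * s0 - 2 * p1 * s1 : ℚ) : ℝ) +
      ((p1 * s0 - p0 * s1 : ℚ) : ℝ) * √2) := by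
    have h1 : (((p0 : ℝ) + p1 * √2) + ((s0 : ℝ) + s1 * √2) * sb) * ((s0 : ℝ) - s1 * √2) = 0 := by
      rw [h]; ring
    rw [hnd]
    push_cast
    have h2 : (((p0 : ℝ) + p1 * √2) + ((s0 : ℝ) + s1 * √2) * sb) * ((s0 : ℝ) - s1 * √2) =
      (p0 * s0 - p1 * s1 * √2 ^ 2) + (p1 * s0 - p0 * s1) * √2 + (s0 ^ 2 - s1 ^ 2 * √2 ^ 2) * sb := by
      ring
    rw [h2, hs] at h1
    linarith
  have hbb : sb = ((-(p0 * s0 - 2 * p1 * s1) / n : ℚ) : ℝ) + ((-(p1 * s0 - p0 * s1) / n : ℚ) : ℝ) * √2 := by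
    push_cast at hb ⊢
    field_simp
    linarith
  set α : ℚ := -(p0 * s0 - 2 * p1 * s1) / n
  set γ : ℚ := -(p1 * s0 - p0 * s1) / n
  have hq := sb_quad
  have hx : (((2 * α - 1) ^ 2 + 2 * (2 * γ - 1) ^ 2 + 1 : ℚ) : ℝ) +
      ((2 * (2 * α - 1) * (2 * γ - 1) - 2 : ℚ) : ℝ) * √2 = 0 := by
    have h1 : (2 * sb - (1 + √2)) ^ 2 = 2 * √2 - 1 := by nlinarith
    rw [hbb] at h1
    push_cast
    have h2 : (2 * ((α : ℝ) + γ * √2) - (1 + √2)) ^ 2 =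
      (2 * α - 1) ^ 2 + (2 * γ - 1) ^ 2 * √2 ^ 2 + 2 * (2 * α - 1) * (2 * γ - 1) * √2 := by ring
    rw [h2, hs] at h1
    linarith
  have h3 := (lin_indep_sqrt2 hx).1
  nlinarith [sq_nonneg (2 * α - 1), sq_nonneg (2 * γ - 1)]

/-- a rational polynomial of degree `≤ 3` vanishing at `sb` is zero -/
theorem cubic_indep {a0 a1 a2 a3 : ℚ}
    (h : (a0 : ℝ) + a1 * sb + a2 * sb ^ 2 + a3 * sb ^ 3 = 0) :
    a0 = 0 ∧ a1 = 0 ∧ a2 = 0 ∧ a3 = 0 := by
  have hs := sq_sqrt2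
  have hq := sb_quad
  have e2 : sb ^ 2 = (1 + √2) * sb - 1 := by linarith
  have e3 : sb ^ 3 = (2 + 2 * √2) * sb - (1 + √2) := by
    have : sb ^ 3 = sb * sb ^ 2 := by ring
    rw [this, e2]
    have : sb * ((1 + √2) * sb - 1) = (1 + √2) * sb ^ 2 - sb := by ring
    rw [this, e2]
    linear_combination sb * hs
  rw [e2, e3] at h
  have h1 : (((a0 - a2 - a3 : ℚ) : ℝ) + ((-a3 : ℚ) : ℝ) * √2) +
      (((a1 + a2 + 2 * a3 : ℚ) : ℝ) + ((a2 + 2 * a3 : ℚ) : ℝ) * √2) * sb = 0 := by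
    push_cast; linarith
  obtain ⟨h2, h3⟩ := lin_indep_sb h1
  rw [h2, h3] at h1
  have h4 : ((a0 - a2 - a3 : ℚ) : ℝ) + ((-a3 : ℚ) : ℝ) * √2 = 0 := by
    simpa using h1
  obtain ⟨h5, h6⟩ := lin_indep_sqrt2 h4
  refine ⟨?_, ?_, ?_, ?_⟩ <;> linarith

open Polynomial in
theorem sb_not_pisot : ¬ IsPisot sb := by
  rintro ⟨_, hint, hroots⟩
  set P : ℚ[X] := X ^ 4 - 2 * X ^ 3 + X ^ 2 - 2 * X + 1 with hP
  have hPd : P.natDegree = 4 := by rw [hP]; compute_degree!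
  have hPm : P.Monic := by rw [hP]; monicity!
  have hPb : aeval sb P = 0 := by
    rw [hP]
    simp only [map_sub, map_add, map_mul, map_pow, aeval_X, map_one, map_ofNat]
    exact sb_quartic
  have hintQ : IsIntegral ℚ sb := ⟨P, hPm, by simpa [aeval_def] using hPb⟩
  have hdvd : minpoly ℚ sb ∣ P := minpoly.dvd ℚ sb hPb
  have hdeg : 4 ≤ (minpoly ℚ sb).natDegree := by
    by_contra hlt
    push_neg at hlt
    have h0 : aeval sb (minpoly ℚ sb) = 0 := minpoly.aeval ℚ sb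
    rw [aeval_eq_sum_range' hlt] at h0
    simp only [Finset.sum_range_succ, Finset.sum_range_zero, zero_add, pow_zero, pow_one,
      Algebra.smul_def, eq_ratCast, mul_one] at h0
    obtain ⟨c0, c1, c2, c3⟩ := cubic_indep h0
    apply minpoly.ne_zero hintQ
    ext n
    rcases lt_or_ge n 4 with hn | hn
    · interval_cases n <;> simp [c0, c1, c2, c3]
    · rw [coeff_eq_zero_of_natDegree_lt (by omega)]; simp
  have heq : minpoly ℚ sb = P :=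
    (Polynomial.eq_of_monic_of_dvd_of_natDegree_le (minpoly.monic hintQ) hPm hdvd (by omega)).symm
  set z : ℂ := Complex.exp ((sth : ℂ) * Complex.I) with hz
  have hzn : ‖z‖ = 1 := by rw [hz]; exact Complex.norm_exp_ofReal_mul_I sth
  have hz0 : z ≠ 0 := by intro h; rw [h] at hzn; simp at hzn
  have hzq : z ^ 2 - z + 1 = -((√2 : ℝ) : ℂ) * z := by
    have h1 : z + z⁻¹ = ((2 * cos sth : ℝ) : ℂ) := by
      rw [hz, ← Complex.exp_neg, ← neg_mul]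
      push_cast
      rw [Complex.two_cos]
    rw [two_cos_sth] at h1
    have h2 : z ^ 2 + 1 = ((1 - √2 : ℝ) : ℂ) * z := by
      rw [← h1]; field_simp
    push_cast at h2 ⊢
    linear_combination h2
  have hzP : aeval z P = 0 := by
    rw [hP]
    simp only [map_sub, map_add, map_mul, map_pow, aeval_X, map_one, map_ofNat]
    have h3 : z ^ 4 - 2 * z ^ 3 + z ^ 2 - 2 * z + 1 = (z ^ 2 - z + 1) ^ 2 - 2 * z ^ 2 := by ring
    have h4 : (((√2 : ℝ) : ℂ)) ^ 2 = 2 := by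
      rw [← Complex.ofReal_pow, sq_sqrt2]; norm_num
    rw [h3, hzq, mul_pow, neg_sq, h4]
    ring
  have hzb : z ≠ (sb : ℂ) := by
    intro h
    rw [h, Complex.norm_real, Real.norm_eq_abs, abs_of_pos sb_pos] at hzn
    have := sb_lb
    linarith
  have := hroots z hzb (by rw [heq]; exact hzP)
  linarith

end Vale.Agent.P105
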