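import Vale.Agent.P105.Defs

/-! P105, module [A]: the Fourier transform of the Bernoulli convolution. -/

open MeasureTheory ProbabilityTheory Filter Topology

namespace Vale.Agent.P105

instance : IsProbabilityMeasure fairSign := by
  constructor
  simp only [fairSign, Measure.coe_add, Measure.coe_smul, Pi.add_apply, Pi.smul_apply,
    measure_univ, smul_eq_mul, mul_one]
  exact ENNReal.inv_two_add_inv_two

/-- the law of the sequence of signs -/
noncomputable def signs : Measure (ℕ → ℝ) := Measure.infinitePi (fun _ : ℕ => fairSign)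

instance : IsProbabilityMeasure signs := by unfold signs; infer_instance

lemma integral_fairSign {E : Type*} [NormedAddCommGroup E] [NormedSpace ℝ E] [CompleteSpace E]
    (g : ℝ → E) :
    ∫ y, g y ∂fairSign = (2⁻¹ : ℝ) • (g 1 + g (-1)) := by
  rw [fairSign, integral_add_measure, integral_smul_measure, integral_smul_measure,
    integral_dirac, integral_dirac, smul_add]
  · simp
  · exact (integrable_dirac enorm_lt_top).smul_measure (by simp)
  · exact (integrable_dirac enorm_lt_top).smul_measure (by simp)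

lemma ae_signs : ∀ᵐ w ∂signs, ∀ n : ℕ, |w n| = 1 := by
  rw [ae_all_iff]
  intro n
  have h1 := measurePreserving_eval_infinitePi (fun _ : ℕ => fairSign) n
  have h2 : ∀ᵐ y ∂fairSign, |y| = 1 := by
    rw [fairSign, ae_iff]
    simp
  exact h1.quasiMeasurePreserving.ae h2

/-- measurability of the coding map -/
lemma measurable_tsum_map (l : ℝ) : Measurable fun w : ℕ → ℝ => ∑' n : ℕ, w n * l ^ n := by
  have hS : MeasurableSet {w : ℕ → ℝ | Summable fun n : ℕ => w n * l ^ n} := by
    have h1 : {w : ℕ → ℝ | Summable fun n : ℕ => w n * l ^ n} =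
        {w | ∑' n : ℕ, ENNReal.ofReal ‖w n * l ^ n‖ < ⊤} := by
      ext w
      simp only [Set.mem_ofPred_eq]
      rw [← summable_norm_iff]
      constructor
      · intro h
        rw [← ENNReal.ofReal_tsum_of_nonneg (fun n => norm_nonneg _) h]
        exact ENNReal.ofReal_lt_top
      · intro h
        have h2 : ∀ n, ENNReal.ofReal ‖w n * l ^ n‖ ≠ ⊤ := fun n => ENNReal.ofReal_ne_top
        have h3 := ENNReal.summable_toReal h.ne
        simpa [ENNReal.toReal_ofReal (norm_nonneg _)] using h3
    rw [h1]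
    refine measurableSet_lt (Measurable.ennreal_tsum fun n => ?_) measurable_const
    fun_prop
  classical
  refine measurable_of_tendsto_metrizable (f := fun (N : ℕ) (w : ℕ → ℝ) =>
    if Summable fun n : ℕ => w n * l ^ n then ∑ n ∈ Finset.range N, w n * l ^ n else 0)
    (fun N => ?_) ?_
  · refine Measurable.ite hS ?_ measurable_const
    fun_prop
  · rw [tendsto_pi_nhds]
    intro w
    by_cases h : Summable fun n : ℕ => w n * l ^ n
    · simp only [h, if_true]
      exact h.hasSum.tendsto_sum_nat
    · simp only [h, if_false]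
      rw [tsum_eq_zero_of_not_summable h]
      exact tendsto_const_nhds

theorem bernoulliConv_prob (l : ℝ) : IsProbabilityMeasure (bernoulliConv l) := by
  unfold bernoulliConv
  exact Measure.isProbabilityMeasure_map (measurable_tsum_map l).aemeasurable

/-- the Fourier transform -/
noncomputable def phi (l x : ℝ) : ℝ := ∫ y, Real.cos (x * y) ∂(bernoulliConv l)

lemma summable_sign {l : ℝ} (h0 : 0 < l) (h1 : l < 1) {w : ℕ → ℝ} (hw : ∀ n, |w n| = 1) :
    Summable fun n : ℕ => w n * l ^ n := by
  rw [← summable_norm_iff]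
  have : (fun n : ℕ => ‖w n * l ^ n‖) = fun n : ℕ => l ^ n := by
    ext n
    rw [norm_mul, Real.norm_eq_abs, hw n, one_mul, norm_pow, Real.norm_eq_abs, abs_of_pos h0]
  rw [this]
  exact summable_geometric_of_lt_one h0.le h1

theorem bernoulliConv_supp {l : ℝ} (h0 : 0 < l) (h1 : l < 1) :
    bernoulliConv l (Set.Icc (-(1 - l)⁻¹) (1 - l)⁻¹)ᶜ = 0 := by
  unfold bernoulliConv
  rw [Measure.map_apply (measurable_tsum_map l) measurableSet_Icc.compl]
  have h2 : ∀ᵐ w ∂signs, (∑' n : ℕ, w n * l ^ n) ∈ Set.Icc (-(1 - l)⁻¹) (1 - l)⁻¹ := by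
    filter_upwards [ae_signs] with w hw
    have h3 : ‖∑' n : ℕ, w n * l ^ n‖ ≤ (1 - l)⁻¹ := by
      refine tsum_of_norm_bounded (hasSum_geometric_of_lt_one h0.le h1) fun n => ?_
      rw [norm_mul, Real.norm_eq_abs, hw n, one_mul, norm_pow, Real.norm_eq_abs, abs_of_pos h0]
    rw [Real.norm_eq_abs, abs_le] at h3
    exact h3
  rw [ae_iff] at h2
  exact h2

lemma integral_signs_eval {E : Type*} [NormedAddCommGroup E] [NormedSpace ℝ E] [CompleteSpace E]
    (g : ℝ → E)
    (hg : StronglyMeasurable g) (n : ℕ) :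
    ∫ w, g (w n) ∂signs = (2⁻¹ : ℝ) • (g 1 + g (-1)) := by
  rw [← integral_fairSign g]
  have h1 := measurePreserving_eval_infinitePi (fun _ : ℕ => fairSign) n
  rw [← h1.map_eq, integral_map h1.measurable.aemeasurable hg.aestronglyMeasurable]
  rfl

lemma integral_exp_partial (l x : ℝ) (N : ℕ) :
    ∫ w, Complex.exp (Complex.I * ((x * ∑ n ∈ Finset.range N, w n * l ^ n : ℝ) : ℂ)) ∂signs =
      ∏ n ∈ Finset.range N, ((Real.cos (x * l ^ n) : ℝ) : ℂ) := by
  have hX : iIndepFun (fun (i : ℕ) (w : ℕ → ℝ) => w i) signs :=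
    iIndepFun_infinitePi (X := fun _ y => y) (fun _ => measurable_id)
  have hX' := hX.precomp (g := fun i : Fin N => (i : ℕ)) Fin.val_injective
  have h1 := hX'.integral_fun_prod_comp (𝕜 := ℂ)
    (f := fun (i : Fin N) (y : ℝ) => Complex.exp (Complex.I * ((x * (y * l ^ (i : ℕ)) : ℝ) : ℂ)))
    (fun i => (measurable_pi_apply _).aemeasurable)
    (fun i => by
      have : Continuous fun y : ℝ => Complex.exp (Complex.I * ((x * (y * l ^ (i : ℕ)) : ℝ) : ℂ)) := by
        fun_prop
      exact this.aestronglyMeasurable)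
  have h2 : ∀ w : ℕ → ℝ,
      Complex.exp (Complex.I * ((x * ∑ n ∈ Finset.range N, w n * l ^ n : ℝ) : ℂ)) =
      ∏ i : Fin N, Complex.exp (Complex.I * ((x * (w i * l ^ (i : ℕ)) : ℝ) : ℂ)) := by
    intro w
    rw [← Complex.exp_sum, Finset.mul_sum, ← Fin.sum_univ_eq_sum_range
      (fun n => x * (w n * l ^ n)), Complex.ofReal_sum, Finset.mul_sum]
  simp_rw [h2]
  rw [h1, ← Fin.prod_univ_eq_prod_range (fun n => ((Real.cos (x * l ^ n) : ℝ) : ℂ))]
  refine Finset.prod_congr rfl fun i _ => ?_
  have h3 := integral_signs_eval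
    (fun y : ℝ => Complex.exp (Complex.I * ((x * (y * l ^ (i : ℕ)) : ℝ) : ℂ)))
    (by
      have : Continuous fun y : ℝ => Complex.exp (Complex.I * ((x * (y * l ^ (i : ℕ)) : ℝ) : ℂ)) := by
        fun_prop
      exact this.stronglyMeasurable) (i : ℕ)
  rw [h3, Complex.ofReal_cos, Complex.cos, Complex.real_smul]
  push_cast
  rw [one_mul, neg_one_mul, mul_neg, mul_comm Complex.I, mul_comm Complex.I]
  ring_nf

lemma integral_cos_partial (l x : ℝ) (N : ℕ) :
    ∫ w, Real.cos (x * ∑ n ∈ Finset.range N, w n * l ^ n) ∂signs =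
      ∏ n ∈ Finset.range N, Real.cos (x * l ^ n) := by
  have h1 := congrArg Complex.re (integral_exp_partial l x N)
  rw [← Complex.ofReal_prod, Complex.ofReal_re] at h1
  rw [← h1]
  have hint : Integrable (fun w : ℕ → ℝ =>
      Complex.exp (Complex.I * ((x * ∑ n ∈ Finset.range N, w n * l ^ n : ℝ) : ℂ))) signs := by
    refine Integrable.of_bound ?_ 1 (Eventually.of_forall fun w => ?_)
    · have : Measurable fun w : ℕ → ℝ =>
        Complex.exp (Complex.I * ((x * ∑ n ∈ Finset.range N, w n * l ^ n : ℝ) : ℂ)) := by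
        fun_prop
      exact this.aestronglyMeasurable
    · rw [mul_comm, Complex.norm_exp_ofReal_mul_I]
  have h2 := integral_re hint
  simp only [RCLike.re_eq_complex_re] at h2
  rw [← h2]
  congr 1
  ext w
  rw [mul_comm Complex.I, Complex.exp_ofReal_mul_I_re]

/-- `phi` as an infinite product -/
theorem phi_tendsto_prod {l : ℝ} (h0 : 0 < l) (h1 : l < 1) (x : ℝ) :
    Tendsto (fun N : ℕ => ∏ n ∈ Finset.range N, Real.cos (x * l ^ n)) atTop (𝓝 (phi l x)) := by
  have h2 : phi l x = ∫ w, Real.cos (x * ∑' n : ℕ, w n * l ^ n) ∂signs := by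
    rw [phi, bernoulliConv, integral_map (measurable_tsum_map l).aemeasurable]
    · rfl
    · have : Continuous fun y : ℝ => Real.cos (x * y) := by fun_prop
      exact this.aestronglyMeasurable
  rw [h2]
  simp_rw [← integral_cos_partial l x]
  refine tendsto_integral_of_dominated_convergence (fun _ => 1) (fun N => ?_)
    (integrable_const _) (fun N => Eventually.of_forall fun w => ?_) ?_
  · have : Measurable fun w : ℕ → ℝ => Real.cos (x * ∑ n ∈ Finset.range N, w n * l ^ n) := by
      fun_prop
    exact this.aestronglyMeasurable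
  · rw [Real.norm_eq_abs]
    exact Real.abs_cos_le_one _
  · filter_upwards [ae_signs] with w hw
    have h3 := (summable_sign h0 h1 hw).hasSum.tendsto_sum_nat
    exact (Real.continuous_cos.tendsto _).comp (h3.const_mul x)

theorem phi_rec {l : ℝ} (h0 : 0 < l) (h1 : l < 1) (x : ℝ) :
    phi l x = Real.cos x * phi l (l * x) := by
  have h2 := (phi_tendsto_prod h0 h1 x).comp (tendsto_add_atTop_nat 1)
  have h3 := (phi_tendsto_prod h0 h1 (l * x)).const_mul (Real.cos x)
  refine tendsto_nhds_unique h2 (h3.congr fun N => ?_)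
  simp only [Function.comp_apply]
  rw [Finset.prod_range_succ', pow_zero, mul_one, mul_comm]
  congr 1
  refine Finset.prod_congr rfl fun n _ => ?_
  rw [pow_succ]
  ring_nf

theorem abs_phi_le (l x : ℝ) : |phi l x| ≤ 1 := by
  have := bernoulliConv_prob l
  rw [← Real.norm_eq_abs]
  refine (norm_integral_le_of_norm_le_const (C := 1)
    (Eventually.of_forall fun y => ?_)).trans (by simp)
  rw [Real.norm_eq_abs]
  exact Real.abs_cos_le_one _

theorem continuous_phi (l : ℝ) : Continuous (phi l) := by
  have := bernoulliConv_prob l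
  refine continuous_of_dominated (bound := fun _ => 1) (fun x => ?_)
    (fun x => Eventually.of_forall fun y => ?_) (integrable_const _)
    (Eventually.of_forall fun y => by fun_prop)
  · have : Continuous fun y : ℝ => Real.cos (x * y) := by fun_prop
    exact this.aestronglyMeasurable
  · rw [Real.norm_eq_abs]
    exact Real.abs_cos_le_one _

theorem phi_zero (l : ℝ) : phi l 0 = 1 := by
  have := bernoulliConv_prob l
  simp [phi]

theorem phi_tendsto {l : ℝ} (_h0 : 0 < l) (_h1 : l < 1) :
    Filter.Tendsto (phi l) (nhds 0) (nhds 1) := by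
  have h := (continuous_phi l).tendsto 0
  rwa [phi_zero] at h

theorem integral_cos_mul_cos (l a c : ℝ) :
    ∫ y, Real.cos (a * y) * Real.cos (c * y) ∂(bernoulliConv l) =
      (phi l (a - c) + phi l (a + c)) / 2 := by
  have := bernoulliConv_prob l
  have hint : ∀ x : ℝ, Integrable (fun y : ℝ => Real.cos (x * y)) (bernoulliConv l) := by
    intro x
    refine Integrable.of_bound ?_ 1 (Eventually.of_forall fun y => ?_)
    · have : Continuous fun y : ℝ => Real.cos (x * y) := by fun_prop
      exact this.aestronglyMeasurable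
    · rw [Real.norm_eq_abs]
      exact Real.abs_cos_le_one _
  rw [phi, phi, ← integral_add (hint _) (hint _), ← integral_div]
  congr 1
  ext y
  rw [sub_mul, add_mul, Real.cos_sub, Real.cos_add]
  ring

end Vale.Agent.P105
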