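import Mathlib
import Vale.Agent.P105.Defs

/-! Salem numbers (P105). -/

namespace Vale.Agent.P105

/-- `b` is a Salem number: a real algebraic integer `> 1` all of whose other Galois conjugates
(complex roots of its minimal polynomial over `ℚ`) have modulus `≤ 1`, at least one of them having
modulus exactly `1`. -/
def IsSalem (b : ℝ) : Prop :=
  1 < b ∧ IsIntegral ℤ b ∧
    (∀ z : ℂ, z ≠ (b : ℂ) → Polynomial.aeval z (minpoly ℚ b) = 0 → ‖z‖ ≤ 1) ∧
    ∃ z : ℂ, Polynomial.aeval z (minpoly ℚ b) = 0 ∧ ‖z‖ = 1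

end Vale.Agent.P105
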