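import Mathlib
import Vale.Agent.P105.SalemDef

/-! Classification of the Salem numbers of degree 4 below 2 (P105). -/

open Polynomial

namespace Vale.Agent.P105

theorem aeval_reverse_iff {K : Type*} [Field K] [Algebra ℚ K] {x : K} (hx : x ≠ 0) (f : ℚ[X]) :
    aeval x⁻¹ f.reverse = 0 ↔ aeval x f = 0 := by
  haveI := invertibleOfNonzero hx
  have h := Polynomial.eval₂_reverse_eq_zero_iff (algebraMap ℚ K) x f
  rw [invOf_eq_inv] at h
  exact h

/-- Trace and norm data of a quartic Salem number. -/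
theorem quartic_salem_data {b : ℝ} (hb : IsSalem b) (hd : (minpoly ℚ b).natDegree = 4) :
    ∃ (t' : ℝ) (s p : ℤ), -2 < t' ∧ t' < 2 ∧ b + b⁻¹ + t' = s ∧ (b + b⁻¹) * t' = p := by
  obtain ⟨hb1, hint, -, z, hz, hzn⟩ := hb
  have hb0 : 0 < b := by linarith
  have hintQ : IsIntegral ℚ b := hint.tower_top
  set f := minpoly ℚ b with hf
  have hirr : Irreducible f := minpoly.irreducible hintQ
  have hmon : f.Monic := minpoly.monic hintQ
  have hz0 : z ≠ 0 := by intro h; rw [h] at hzn; simp at hzn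
  -- the conjugate of `z` is `z⁻¹`
  have hconj : (starRingEnd ℂ) z = z⁻¹ := by
    have := Complex.mul_conj z
    rw [Complex.normSq_eq_norm_sq, hzn] at this
    field_simp
    simpa [mul_comm] using this
  have hzi : aeval z⁻¹ f = 0 := by
    rw [← hconj]
    have h1 := Polynomial.aeval_conj (f.map (algebraMap ℚ ℝ)) z
    rw [Polynomial.aeval_map_algebraMap, Polynomial.aeval_map_algebraMap, hz] at h1
    simpa using h1
  -- the reciprocal polynomial
  have hrev : aeval z f.reverse = 0 := by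
    have h2 := (aeval_reverse_iff (inv_ne_zero hz0) f).2 hzi
    rwa [inv_inv] at h2
  have hminz : f = minpoly ℚ z := minpoly.eq_of_irreducible_of_monic hirr hz hmon
  have hdvd : f ∣ f.reverse := by
    rw [hminz]
    rw [← hminz]
    conv_lhs => rw [hminz]
    exact minpoly.dvd ℚ z hrev
  have hbrev : aeval b f.reverse = 0 := by
    obtain ⟨g, hg⟩ := hdvd
    rw [hg, map_mul, hf, minpoly.aeval, zero_mul]
  have hbi : aeval b⁻¹ f = 0 := by
    exact (aeval_reverse_iff (inv_ne_zero hb0.ne') f).1 (by rw [inv_inv]; exact hbrev)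
  -- z is not real
  have hzim : z.im ≠ 0 := by
    intro him
    have hzr : z = (z.re : ℂ) := by
      apply Complex.ext <;> simp [him]
    have hre : z.re = 1 ∨ z.re = -1 := by
      have h3 : |z.re| = 1 := by
        rw [hzr, Complex.norm_real, Real.norm_eq_abs] at hzn
        exact hzn
      exact (abs_eq (by norm_num)).1 h3
    have hrat : ∃ q : ℚ, (algebraMap ℚ ℂ q) = z := by
      rcases hre with h3 | h3
      · exact ⟨1, by rw [hzr, h3]; simp⟩
      · exact ⟨-1, by rw [hzr, h3]; simp⟩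
    obtain ⟨q, hq⟩ := hrat
    have h4 : f.natDegree = 1 := by
      rw [hminz, ← hq, minpoly.eq_X_sub_C]
      exact natDegree_X_sub_C q
    omega
  set t : ℝ := b + b⁻¹ with ht
  set t' : ℝ := 2 * z.re with ht'
  -- the polynomial identity over ℂ
  set F : ℂ[X] := f.map (algebraMap ℚ ℂ) with hF
  have hFmon : F.Monic := hmon.map _
  have hFdeg : F.natDegree = 4 := by rw [hF, natDegree_map, hd]
  set G : ℂ[X] := (X ^ 2 - C (t : ℂ) * X + 1) * (X ^ 2 - C (t' : ℂ) * X + 1) with hG
  have hq1 : (X ^ 2 - C (t : ℂ) * X + 1 : ℂ[X]).Monic := by monicity!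
  have hq2 : (X ^ 2 - C (t' : ℂ) * X + 1 : ℂ[X]).Monic := by monicity!
  have hd1 : (X ^ 2 - C (t : ℂ) * X + 1 : ℂ[X]).natDegree = 2 := by compute_degree!
  have hd2 : (X ^ 2 - C (t' : ℂ) * X + 1 : ℂ[X]).natDegree = 2 := by compute_degree!
  have hGmon : G.Monic := hq1.mul hq2
  have hGdeg : G.natDegree = 4 := by rw [hG, hq1.natDegree_mul hq2, hd1, hd2]
  have hFG : F = G := by
    rw [← sub_eq_zero]
    have hlt : (F - G).natDegree < 4 := by
      have h5 : (F - G).degree < F.degree := by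
        apply degree_sub_lt
        · rw [degree_eq_natDegree hFmon.ne_zero, degree_eq_natDegree hGmon.ne_zero, hFdeg, hGdeg]
        · exact hFmon.ne_zero
        · rw [hFmon.leadingCoeff, hGmon.leadingCoeff]
      rw [degree_eq_natDegree hFmon.ne_zero, hFdeg] at h5
      rcases eq_or_ne (F - G) 0 with h6 | h6
      · rw [h6]; simp
      · rw [degree_eq_natDegree h6] at h5
        exact_mod_cast h5
    have hbC : (b : ℂ) ≠ 0 := by exact_mod_cast hb0.ne'
    have hzz : z + z⁻¹ = (t' : ℂ) := by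
      rw [← hconj, Complex.add_conj, ht']
    have hz2 : z ^ 2 - (t' : ℂ) * z + 1 = 0 := by
      rw [← hzz]; field_simp; ring
    have hz2' : (z⁻¹) ^ 2 - (t' : ℂ) * z⁻¹ + 1 = 0 := by
      rw [← hzz]; field_simp; ring
    have hb2 : (b : ℂ) ^ 2 - (t : ℂ) * b + 1 = 0 := by
      rw [ht]; push_cast; field_simp; ring
    have hb2' : ((b : ℂ)⁻¹) ^ 2 - (t : ℂ) * (b : ℂ)⁻¹ + 1 = 0 := by
      rw [ht]; push_cast; field_simp; ring
    have hFb : F.eval (b : ℂ) = 0 := by
      rw [hF, eval_map_algebraMap]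
      have : aeval ((algebraMap ℝ ℂ) b) f = (algebraMap ℝ ℂ) (aeval b f) := aeval_algebraMap_apply ℂ b f
      rw [hf, minpoly.aeval, map_zero] at this
      exact this
    have hFbi : F.eval ((b : ℂ)⁻¹) = 0 := by
      rw [hF, eval_map_algebraMap]
      have : aeval ((algebraMap ℝ ℂ) b⁻¹) f = (algebraMap ℝ ℂ) (aeval b⁻¹ f) :=
        aeval_algebraMap_apply ℂ b⁻¹ f
      rw [hbi, map_zero] at this
      simpa using this
    have hFz : F.eval z = 0 := by rw [hF, eval_map_algebraMap]; exact hz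
    have hFzi : F.eval z⁻¹ = 0 := by rw [hF, eval_map_algebraMap]; exact hzi
    have hnb : ‖(b : ℂ)‖ = b := by
      rw [Complex.norm_real, Real.norm_eq_abs, abs_of_pos hb0]
    have hnbi : ‖(b : ℂ)⁻¹‖ = b⁻¹ := by rw [norm_inv, hnb]
    have hnzi : ‖z⁻¹‖ = 1 := by rw [norm_inv, hzn, inv_one]
    have hbi1 : b⁻¹ < 1 := inv_lt_one_of_one_lt₀ hb1
    have n1 : (b : ℂ) ≠ (b : ℂ)⁻¹ := by intro h; rw [h] at hnb; linarith
    have n2 : (b : ℂ) ≠ z := by intro h; rw [h] at hnb; linarith
    have n3 : (b : ℂ) ≠ z⁻¹ := by intro h; rw [h] at hnb; linarith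
    have n4 : (b : ℂ)⁻¹ ≠ z := by intro h; rw [h] at hnbi; linarith
    have n5 : (b : ℂ)⁻¹ ≠ z⁻¹ := by intro h; rw [h] at hnbi; linarith
    have n6 : z ≠ z⁻¹ := by
      intro h
      rw [← hconj] at h
      have := congrArg Complex.im h
      rw [Complex.conj_im] at this
      apply hzim
      linarith
    apply Polynomial.eq_zero_of_natDegree_lt_card_of_eval_eq_zero' (F - G)
      ({(b : ℂ), (b : ℂ)⁻¹, z, z⁻¹} : Finset ℂ)
    · intro x hx
      simp only [Finset.mem_insert, Finset.mem_singleton] at hx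
      rcases hx with rfl | rfl | rfl | rfl
      · rw [eval_sub, hFb, hG]; simp [hb2]
      · rw [eval_sub, hFbi, hG]
        simp only [eval_mul, eval_add, eval_sub, eval_pow, eval_X, eval_C, eval_one]
        rw [hb2']; ring
      · rw [eval_sub, hFz, hG]
        simp only [eval_mul, eval_add, eval_sub, eval_pow, eval_X, eval_C, eval_one]
        rw [hz2]; ring
      · rw [eval_sub, hFzi, hG]
        simp only [eval_mul, eval_add, eval_sub, eval_pow, eval_X, eval_C, eval_one]
        rw [hz2']; ring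
    · have hcard : ({(b : ℂ), (b : ℂ)⁻¹, z, z⁻¹} : Finset ℂ).card = 4 := by
        rw [Finset.card_insert_of_notMem, Finset.card_insert_of_notMem,
          Finset.card_insert_of_notMem, Finset.card_singleton]
        · simpa using n6
        · simp only [Finset.mem_insert, Finset.mem_singleton, not_or]; exact ⟨n4, n5⟩
        · simp only [Finset.mem_insert, Finset.mem_singleton, not_or]; exact ⟨n1, n2, n3⟩
      rw [hcard]; exact hlt
  -- integrality of the coefficients
  have hZ : f = (minpoly ℤ b).map (algebraMap ℤ ℚ) :=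
    minpoly.isIntegrallyClosed_eq_field_fractions' ℚ hint
  have hGexp : G = X ^ 4 - C ((t + t' : ℝ) : ℂ) * X ^ 3 + C ((t * t' + 2 : ℝ) : ℂ) * X ^ 2
      - C ((t + t' : ℝ) : ℂ) * X + 1 := by
    rw [hG]
    push_cast
    simp only [map_add, map_mul, map_ofNat]
    ring
  have hc3 : F.coeff 3 = -((t + t' : ℝ) : ℂ) := by
    rw [hFG, hGexp]
    generalize ((t + t' : ℝ) : ℂ) = A1
    generalize ((t * t' + 2 : ℝ) : ℂ) = A2
    simp [coeff_X, coeff_one]
  have hc2 : F.coeff 2 = ((t * t' + 2 : ℝ) : ℂ) := by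
    rw [hFG, hGexp]
    generalize ((t + t' : ℝ) : ℂ) = A1
    generalize ((t * t' + 2 : ℝ) : ℂ) = A2
    simp [coeff_X, coeff_one]
  have hcZ : ∀ n, F.coeff n = (((minpoly ℤ b).coeff n : ℤ) : ℂ) := by
    intro n
    rw [hF, coeff_map, hZ, coeff_map]
    simp
  have hnorm : z.re ^ 2 + z.im ^ 2 = 1 := by
    have h7 := Complex.normSq_eq_norm_sq z
    rw [hzn, Complex.normSq_apply] at h7
    nlinarith
  have him2 : 0 < z.im ^ 2 := by positivity
  have hre2 : z.re ^ 2 < 1 := by linarith
  have habs := (sq_lt_one_iff_abs_lt_one z.re).1 hre2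
  rw [abs_lt] at habs
  refine ⟨t', -(minpoly ℤ b).coeff 3, (minpoly ℤ b).coeff 2 - 2, ?_, ?_, ?_, ?_⟩
  · rw [ht']; linarith
  · rw [ht']; linarith
  · have h8 := hcZ 3
    rw [hc3] at h8
    have h9 : -(t + t') = (((minpoly ℤ b).coeff 3 : ℤ) : ℝ) := by exact_mod_cast h8
    push_cast
    linarith
  · have h8 := hcZ 2
    rw [hc2] at h8
    have h9 : (t * t' + 2) = (((minpoly ℤ b).coeff 2 : ℤ) : ℝ) := by exact_mod_cast h8
    push_cast
    linarith

/-- There are exactly two possibilities. -/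
theorem quartic_salem_lt_two {b : ℝ} (hb : IsSalem b) (hd : (minpoly ℚ b).natDegree = 4)
    (hb2 : b < 2) : b + b⁻¹ = 1 + √2 ∨ b + b⁻¹ = (1 + √13) / 2 := by
  obtain ⟨t', s, p, h1, h2, hs, hp⟩ := quartic_salem_data hb hd
  have hb1 := hb.1
  have hb0 : 0 < b := by linarith
  set t := b + b⁻¹ with ht
  have hinv : b * b⁻¹ = 1 := mul_inv_cancel₀ hb0.ne'
  have ht2 : 2 < t := by
    rw [ht]
    have : 0 < (b - 1) ^ 2 * b⁻¹ := by
      have : b - 1 ≠ 0 := by linarith
      positivity
    nlinarith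
  have ht5 : t < 5 / 2 := by
    rw [ht]
    have h3 : b⁻¹ * (b - 1 / 2) * (2 - b) > 0 := by
      have : 0 < b⁻¹ := by positivity
      have : 0 < b - 1 / 2 := by linarith
      have : 0 < 2 - b := by linarith
      positivity
    have h4 : b⁻¹ * (b - 1 / 2) * (2 - b) = 5 / 2 - b - b⁻¹ := by
      field_simp; ring
    linarith
  have hst : t' = s - t := by linarith
  rw [hst] at hp h1 h2
  have hs0 : (0:ℝ) < s := by linarith
  have hs5 : (s:ℝ) < 9 / 2 := by linarith
  have hs0' : 0 < s := by exact_mod_cast hs0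
  have hs5' : s < 5 := by
    have : (s:ℝ) < 5 := by linarith
    exact_mod_cast this
  interval_cases s
  · -- s = 1
    right
    have hp1 : (-4 : ℝ) < p := by push_cast at hp; nlinarith
    have hp2 : (p : ℝ) < -2 := by push_cast at hp; nlinarith
    have hp3 : p = -3 := by
      have a1 : -4 < p := by exact_mod_cast hp1
      have a2 : p < -2 := by exact_mod_cast hp2
      omega
    rw [hp3] at hp
    push_cast at hp
    have h5 : (2 * t - 1) ^ 2 = 13 := by nlinarith
    have h6 : √13 = 2 * t - 1 := by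
      rw [← h5, Real.sqrt_sq (by linarith)]
    linarith
  · -- s = 2
    left
    have hp1 : (-2 : ℝ) < p := by push_cast at hp; nlinarith
    have hp2 : (p : ℝ) < 0 := by push_cast at hp; nlinarith
    have hp3 : p = -1 := by
      have a1 : -2 < p := by exact_mod_cast hp1
      have a2 : p < 0 := by exact_mod_cast hp2
      omega
    rw [hp3] at hp
    push_cast at hp
    have h5 : (t - 1) ^ 2 = 2 := by nlinarith
    have h6 : √2 = t - 1 := by
      rw [← h5, Real.sqrt_sq (by linarith)]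
    linarith
  · -- s = 3
    exfalso
    have hp1 : (1 : ℝ) < p := by push_cast at hp; nlinarith
    have hp2 : (p : ℝ) < 2 := by push_cast at hp; nlinarith
    have a1 : 1 < p := by exact_mod_cast hp1
    have a2 : p < 2 := by exact_mod_cast hp2
    omega
  · -- s = 4
    exfalso
    have hp1 : (3 : ℝ) < p := by push_cast at hp; nlinarith
    have hp2 : (p : ℝ) < 4 := by push_cast at hp; nlinarith
    have a1 : 3 < p := by exact_mod_cast hp1
    have a2 : p < 4 := by exact_mod_cast hp2
    omega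

theorem eq_of_add_inv_eq {b c : ℝ} (hb : 1 < b) (hc : 1 < c) (h : b + b⁻¹ = c + c⁻¹) : b = c := by
  have hb0 : 0 < b := by linarith
  have hc0 : 0 < c := by linarith
  field_simp at h
  have h1 : (b - c) * (b * c - 1) = 0 := by linarith
  rcases mul_eq_zero.1 h1 with h2 | h2
  · linarith
  · nlinarith

end Vale.Agent.P105
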