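import Mathlib
import Vale.Agent.P105.Core0

/-! The doubling lemma (P105). -/

open Real Finset

namespace Vale.Agent.P105

theorem abs_tan_le_of_small {x : ℝ} (hx : |x| ≤ 1 / 100) : |tan (2 * π * x)| ≤ 8 * |x| := by
  have hpi : π ≤ 3.15 := by have := Real.pi_lt_d2; linarith
  have hpi0 : 0 < π := Real.pi_pos
  have h1 : |2 * π * x| ≤ 6.3 * |x| := by
    rw [abs_mul, abs_of_pos (by positivity : (0:ℝ) < 2 * π)]
    nlinarith [abs_nonneg x]
  have h2 : |sin (2 * π * x)| ≤ |2 * π * x| := Real.abs_sin_le_abs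
  have h3 : 1 - (2 * π * x) ^ 2 / 2 ≤ cos (2 * π * x) := Real.one_sub_sq_div_two_le_cos
  have h4 : (2 * π * x) ^ 2 ≤ (0.063) ^ 2 := by
    rw [← sq_abs]
    have : |2 * π * x| ≤ 0.063 := by linarith
    exact pow_le_pow_left₀ (abs_nonneg _) this 2
  have h5 : 0.9 ≤ cos (2 * π * x) := by nlinarith
  rw [tan_eq_sin_div_cos, abs_div, abs_of_pos (by linarith : 0 < cos (2 * π * x)),
    div_le_iff₀ (by linarith)]
  nlinarith [abs_nonneg x, abs_nonneg (sin (2 * π * x))]

theorem cos_sub_tan {x y : ℝ} (hx : cos x ≠ 0) (hy : cos y ≠ 0) :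
    cos (x - y) = cos x * cos y * (1 + tan x * tan y) := by
  rw [Real.cos_sub, tan_eq_sin_div_cos, tan_eq_sin_div_cos]
  field_simp

theorem cos_add_tan {x y : ℝ} (hx : cos x ≠ 0) (hy : cos y ≠ 0) :
    cos (x + y) = cos x * cos y * (1 - tan x * tan y) := by
  rw [Real.cos_add, tan_eq_sin_div_cos, tan_eq_sin_div_cos]
  field_simp

theorem tan_sub_tan {x y : ℝ} (hx : cos x ≠ 0) (hy : cos y ≠ 0) (h : 1 + tan x * tan y ≠ 0) :
    tan (x - y) = (tan x - tan y) / (1 + tan x * tan y) := by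
  rw [tan_eq_sin_div_cos (x - y), cos_sub_tan hx hy, Real.sin_sub,
    div_eq_div_iff (mul_ne_zero (mul_ne_zero hx hy) h) h, tan_eq_sin_div_cos x,
    tan_eq_sin_div_cos y]
  field_simp

theorem tan_eq_of_sub_int (x : ℝ) (c : ℤ) : tan (2 * π * (x - c)) = tan (2 * π * x) := by
  have : 2 * π * (x - c) = 2 * π * x - ((2 * c : ℤ) : ℝ) * π := by push_cast; ring
  rw [this, Real.tan_sub_int_mul_pi]

section
variable {b th U : ℝ} {M N : ℕ} {om Q : ℝ}

theorem St.t_neg (hb : 3 / 2 ≤ b) (h : St b th U M N om Q) (h0 : 0 < om) (hom : om ≤ 1 / 1000)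
    {i : ℤ} (hi : i ≤ -(M : ℤ)) : |tan (2 * π * (U * b ^ i))| ≤ 8 * om * b ^ (i + M) := by
  have hb0 : 0 < b := by linarith
  have h1 : |U * b ^ i| ≤ om * b ^ (i + M) := by
    rw [abs_mul, abs_of_pos (zpow_pos hb0 i), zpow_add₀ hb0.ne', zpow_natCast]
    have := h.hU
    have h2 := zpow_pos hb0 i
    nlinarith [mul_le_mul_of_nonneg_right this h2.le]
  have h2 : b ^ (i + M) ≤ 1 := by
    apply zpow_le_one_of_nonpos₀ (by linarith) (by omega)
  have h3 : |U * b ^ i| ≤ 1 / 100 := by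
    have : om * b ^ (i + M) ≤ om * 1 := by gcongr
    linarith
  have := abs_tan_le_of_small h3
  linarith

theorem St.t_pos (hb : 3 / 2 ≤ b) (h : St b th U M N om Q) (h0 : 0 < om) (hom : om ≤ 1 / 1000)
    {i : ℤ} (hi : (N : ℤ) ≤ i) : |tan (2 * π * (U * b ^ i))| ≤ 24 * om := by
  have hb0 : 0 < b := by linarith
  obtain ⟨S, w, htr, hS, hw⟩ := h.tr
  obtain ⟨c, hc⟩ := htr i
  have h1 : |U * b ^ i - c| ≤ 3 * om := by
    have e : U * b ^ i - c = -(S * b ^ (-i)) -
        2 * (w * Complex.exp (Complex.I * ((th * (i : ℝ) : ℝ) : ℂ))).re := by linarith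
    have h2 : |S * b ^ (-i)| ≤ om := by
      rw [abs_mul, abs_of_pos (zpow_pos hb0 _)]
      have h3 : b ^ (-i) * b ^ N ≤ 1 := by
        rw [← zpow_natCast, ← zpow_add₀ hb0.ne']
        apply zpow_le_one_of_nonpos₀ (by linarith) (by omega)
      have h4 := zpow_pos hb0 (-i)
      calc |S| * b ^ (-i) ≤ om * b ^ N * b ^ (-i) := by gcongr
        _ = om * (b ^ (-i) * b ^ N) := by ring
        _ ≤ om * 1 := by gcongr
        _ = om := by ring
    have h3 : |2 * (w * Complex.exp (Complex.I * ((th * (i : ℝ) : ℝ) : ℂ))).re| ≤ 2 * om := by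
      rw [abs_mul, abs_of_pos (by norm_num : (0:ℝ) < 2)]
      have h4 := Complex.abs_re_le_norm (w * Complex.exp (Complex.I * ((th * (i : ℝ) : ℝ) : ℂ)))
      rw [norm_mul, Complex.norm_exp_I_mul_ofReal, mul_one] at h4
      linarith
    rw [e]
    have h5 := abs_sub (-(S * b ^ (-i)))
        (2 * (w * Complex.exp (Complex.I * ((th * (i : ℝ) : ℝ) : ℂ))).re)
    rw [abs_neg] at h5
    linarith
  have h2 := abs_tan_le_of_small (x := U * b ^ i - c) (by linarith)
  rw [tan_eq_of_sub_int] at h2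
  linarith

theorem St.Q_nonneg (h : St b th U M N om Q) : 0 ≤ Q := by
  have := h.sum_le ∅ (by simp)
  simpa using this

theorem St.t_le_sqrt (hb : 3 / 2 ≤ b) (h : St b th U M N om Q) (h0 : 0 < om) (hom : om ≤ 1 / 1000)
    (hQ : 1 ≤ Q) (i : ℤ) : |tan (2 * π * (U * b ^ i))| ≤ √Q := by
  rcases lt_or_ge i (N : ℤ) with hi | hi
  · have := h.sum_le {i} (by simpa using hi)
    rw [sum_singleton] at this
    exact Real.abs_le_sqrt this
  · have h1 := h.t_pos hb h0 hom hi
    have h2 : (1:ℝ) ≤ √Q := by rw [Real.one_le_sqrt]; exact hQ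
    linarith

/-- product of two tangents at distance `≥ M+N` is small. -/
theorem St.pq_le (hb : 3 / 2 ≤ b) (h : St b th U M N om Q) (h0 : 0 < om) (hom : om ≤ 1 / 1000)
    (hQ : 1 ≤ Q) {T : ℕ} (hT : M + N ≤ T) (i : ℤ) :
    |tan (2 * π * (U * b ^ i)) * tan (2 * π * (U * b ^ (i + T)))| ≤ 24 * om * √Q := by
  have hs : (0:ℝ) ≤ √Q := Real.sqrt_nonneg Q
  rw [abs_mul]
  rcases le_or_gt i (-(M : ℤ)) with hi | hi
  · have h1 := h.t_neg hb h0 hom hi
    have h2 : b ^ (i + M) ≤ 1 := by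
      apply zpow_le_one_of_nonpos₀ (by linarith) (by omega)
    have h3 : |tan (2 * π * (U * b ^ i))| ≤ 8 * om := by
      have : 8 * om * b ^ (i + M) ≤ 8 * om * 1 := by gcongr
      linarith
    have h4 := h.t_le_sqrt hb h0 hom hQ (i + T)
    calc _ ≤ 8 * om * √Q := mul_le_mul h3 h4 (abs_nonneg _) (by positivity)
      _ ≤ 24 * om * √Q := by gcongr; norm_num
  · have h1 := h.t_pos hb h0 hom (i := i + T) (by omega)
    have h2 := h.t_le_sqrt hb h0 hom hQ i
    calc _ ≤ √Q * (24 * om) := mul_le_mul h2 h1 (abs_nonneg _) hs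
      _ = 24 * om * √Q := by ring

theorem sum_zpow_le (hb : 3 / 2 ≤ b) (F : Finset ℤ) (hF : ∀ i ∈ F, i ≤ 0) :
    ∑ i ∈ F, b ^ i ≤ 3 := by
  have hb0 : 0 < b := by linarith
  have hinv : b⁻¹ ≤ 2 / 3 := by
    rw [inv_le_comm₀ hb0 (by norm_num)]; norm_num; linarith
  have hinv0 : 0 ≤ b⁻¹ := by positivity
  have e : ∑ i ∈ F, b ^ i = ∑ k ∈ F.image (fun i : ℤ => (-i).toNat), b⁻¹ ^ k := by
    rw [sum_image]
    · apply sum_congr rfl
      intro i hi
      have h1 := hF i hi
      have : i = -(((-i).toNat : ℕ) : ℤ) := by omega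
      conv_lhs => rw [this]
      rw [zpow_neg, zpow_natCast, inv_pow]
    · intro i hi j hj hij
      have h1 := hF i hi
      have h2 := hF j hj
      simp only at hij
      omega
  rw [e]
  have hs : Summable (fun k : ℕ => b⁻¹ ^ k) :=
    summable_geometric_of_lt_one hinv0 (by linarith)
  have h1 := hs.sum_le_tsum (F.image (fun i : ℤ => (-i).toNat)) (fun k _ => by positivity)
  rw [tsum_geometric_of_lt_one hinv0 (by linarith)] at h1
  have h2 : (1 - b⁻¹)⁻¹ ≤ 3 := by
    rw [inv_le_comm₀ (by linarith) (by norm_num)]; linarith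
  linarith

/-- The sum of squares of tangents over a set below `N + e`. -/
theorem St.sum_le' (hb : 3 / 2 ≤ b) (h : St b th U M N om Q) (h0 : 0 < om) (hom : om ≤ 1 / 1000)
    (e : ℕ) (F : Finset ℤ) (hF : ∀ i ∈ F, i < (N : ℤ) + e) :
    ∑ i ∈ F, tan (2 * π * (U * b ^ i)) ^ 2 ≤ Q + 576 * om ^ 2 * e := by
  rw [← sum_filter_add_sum_filter_not F (fun i => i < (N : ℤ))]
  have h1 := h.sum_le (F.filter (fun i => i < (N : ℤ))) (by intro i hi; exact (mem_filter.1 hi).2)
  have h2 : ∑ i ∈ F.filter (fun i => ¬ i < (N : ℤ)), tan (2 * π * (U * b ^ i)) ^ 2 ≤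
      576 * om ^ 2 * e := by
    calc _ ≤ ∑ i ∈ F.filter (fun i => ¬ i < (N : ℤ)), (576 * om ^ 2) := by
          apply sum_le_sum
          intro i hi
          have h3 := h.t_pos hb h0 hom (i := i) (by have := (mem_filter.1 hi).2; omega)
          rw [← sq_abs]
          calc |tan (2 * π * (U * b ^ i))| ^ 2 ≤ (24 * om) ^ 2 := by gcongr
            _ = 576 * om ^ 2 := by ring
      _ = (F.filter (fun i => ¬ i < (N : ℤ))).card * (576 * om ^ 2) := by
          rw [sum_const, nsmul_eq_mul]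
      _ ≤ e * (576 * om ^ 2) := by
          gcongr
          have h4 : F.filter (fun i => ¬ i < (N : ℤ)) ⊆ Finset.Ico (N : ℤ) (N + e) := by
            intro i hi
            rw [mem_filter] at hi
            rw [Finset.mem_Ico]
            exact ⟨by omega, hF i hi.1⟩
          have := card_le_card h4
          simpa using this
      _ = 576 * om ^ 2 * e := by ring
  linarith

/-- The cross sum. -/
theorem St.cross_le (hb : 3 / 2 ≤ b) (h : St b th U M N om Q) (h0 : 0 < om) (hom : om ≤ 1 / 1000)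
    (hQ : 1 ≤ Q) (hMN : 1 ≤ M + N) {T : ℕ} (hT : M + N ≤ T)
    (e : ℕ) (F : Finset ℤ) (hF : ∀ i ∈ F, i < (N : ℤ) + e) :
    ∑ i ∈ F, |tan (2 * π * (U * b ^ i)) * tan (2 * π * (U * b ^ (i + T)))| ≤
      48 * om * √((M + N : ℕ) * Q) + 576 * om ^ 2 * e := by
  have hs : (0:ℝ) ≤ √Q := Real.sqrt_nonneg Q
  rw [← sum_filter_add_sum_filter_not F (fun i => i ≤ -(M : ℤ))]
  rw [← sum_filter_add_sum_filter_not (F.filter (fun i => ¬ i ≤ -(M : ℤ))) (fun i => i < (N : ℤ))]
  have hsq : √Q ≤ √((M + N : ℕ) * Q) := by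
    apply Real.sqrt_le_sqrt
    have : (1:ℝ) ≤ ((M + N : ℕ) : ℝ) := by exact_mod_cast hMN
    nlinarith
  -- far left
  have h1 : ∑ i ∈ F.filter (fun i => i ≤ -(M : ℤ)),
      |tan (2 * π * (U * b ^ i)) * tan (2 * π * (U * b ^ (i + T)))| ≤ 24 * om * √Q := by
    calc _ ≤ ∑ i ∈ F.filter (fun i => i ≤ -(M : ℤ)), (8 * om * √Q) * b ^ (i + M) := by
          apply sum_le_sum
          intro i hi
          have hi' := (mem_filter.1 hi).2
          have h3 := h.t_neg hb h0 hom hi'
          have h4 := h.t_le_sqrt hb h0 hom hQ (i + T)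
          rw [abs_mul]
          have hb0 : 0 < b := by linarith
          have := zpow_pos hb0 (i + M)
          calc _ ≤ (8 * om * b ^ (i + M)) * √Q := mul_le_mul h3 h4 (abs_nonneg _) (by positivity)
            _ = _ := by ring
      _ = (8 * om * √Q) * ∑ i ∈ F.filter (fun i => i ≤ -(M : ℤ)), b ^ (i + M) := by
          rw [mul_sum]
      _ ≤ (8 * om * √Q) * 3 := by
          gcongr
          have h5 : ∑ i ∈ F.filter (fun i => i ≤ -(M : ℤ)), b ^ (i + (M:ℤ)) =
              ∑ j ∈ (F.filter (fun i => i ≤ -(M : ℤ))).image (fun i => i + (M:ℤ)), b ^ j := by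
            rw [sum_image]
            intro i _ j _ hij
            simpa using hij
          rw [h5]
          apply sum_zpow_le hb
          intro j hj
          rw [mem_image] at hj
          obtain ⟨i, hi, rfl⟩ := hj
          have := (mem_filter.1 hi).2
          omega
      _ = 24 * om * √Q := by ring
  -- middle
  have h2 : ∑ i ∈ (F.filter (fun i => ¬ i ≤ -(M : ℤ))).filter (fun i => i < (N : ℤ)),
      |tan (2 * π * (U * b ^ i)) * tan (2 * π * (U * b ^ (i + T)))| ≤
      24 * om * √((M + N : ℕ) * Q) := by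
    set G := (F.filter (fun i => ¬ i ≤ -(M : ℤ))).filter (fun i => i < (N : ℤ)) with hG
    calc _ ≤ ∑ i ∈ G, |tan (2 * π * (U * b ^ i))| * (24 * om) := by
          apply sum_le_sum
          intro i hi
          rw [hG, mem_filter, mem_filter] at hi
          have h3 := h.t_pos hb h0 hom (i := i + T) (by omega)
          rw [abs_mul]
          gcongr
      _ = (∑ i ∈ G, |tan (2 * π * (U * b ^ i))|) * (24 * om) := by rw [sum_mul]
      _ ≤ √((M + N : ℕ) * Q) * (24 * om) := by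
          gcongr
          apply Real.le_sqrt_of_sq_le
          have h6 := sq_sum_le_card_mul_sum_sq (s := G) (f := fun i => |tan (2 * π * (U * b ^ i))|)
          have h7 : (G.card : ℝ) ≤ ((M + N : ℕ) : ℝ) := by
            have h8 : G ⊆ Finset.Ioo (-(M:ℤ)) (N : ℤ) := by
              intro i hi
              rw [hG, mem_filter, mem_filter] at hi
              rw [Finset.mem_Ioo]; omega
            have h9 := card_le_card h8
            rw [Int.card_Ioo] at h9
            have : G.card ≤ M + N := by omega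
            exact_mod_cast this
          have h8 : ∑ i ∈ G, |tan (2 * π * (U * b ^ i))| ^ 2 ≤ Q := by
            simp_rw [sq_abs]
            apply h.sum_le
            intro i hi
            rw [hG, mem_filter] at hi
            exact hi.2
          have h9 : 0 ≤ ∑ i ∈ G, |tan (2 * π * (U * b ^ i))| ^ 2 :=
            sum_nonneg (fun i _ => by positivity)
          calc _ ≤ (G.card : ℝ) * ∑ i ∈ G, |tan (2 * π * (U * b ^ i))| ^ 2 := h6
            _ ≤ ((M + N : ℕ) : ℝ) * Q := mul_le_mul h7 h8 h9 (by positivity)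
      _ = 24 * om * √((M + N : ℕ) * Q) := by ring
  -- right
  have h3 : ∑ i ∈ (F.filter (fun i => ¬ i ≤ -(M : ℤ))).filter (fun i => ¬ i < (N : ℤ)),
      |tan (2 * π * (U * b ^ i)) * tan (2 * π * (U * b ^ (i + T)))| ≤ 576 * om ^ 2 * e := by
    set G := (F.filter (fun i => ¬ i ≤ -(M : ℤ))).filter (fun i => ¬ i < (N : ℤ)) with hG
    calc _ ≤ ∑ i ∈ G, (576 * om ^ 2) := by
          apply sum_le_sum
          intro i hi
          rw [hG, mem_filter, mem_filter] at hi
          have h3 := h.t_pos hb h0 hom (i := i + T) (by omega)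
          have h4 := h.t_pos hb h0 hom (i := i) (by omega)
          rw [abs_mul]
          calc _ ≤ (24 * om) * (24 * om) := mul_le_mul h4 h3 (abs_nonneg _) (by positivity)
            _ = _ := by ring
      _ = G.card * (576 * om ^ 2) := by rw [sum_const, nsmul_eq_mul]
      _ ≤ e * (576 * om ^ 2) := by
          gcongr
          have h4 : G ⊆ Finset.Ico (N : ℤ) (N + e) := by
            intro i hi
            rw [hG, mem_filter, mem_filter] at hi
            rw [Finset.mem_Ico]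
            exact ⟨by omega, hF i hi.1.1⟩
          have := card_le_card h4
          simpa using this
      _ = 576 * om ^ 2 * e := by ring
  have h4 : 24 * om * √Q ≤ 24 * om * √((M + N : ℕ) * Q) := by gcongr
  linarith

end

theorem St.double {b th U : ℝ} {M N : ℕ} {om Q : ℝ} (hb : 3 / 2 ≤ b) (h : St b th U M N om Q)
    (h0 : 0 < om) (hQ : 1 ≤ Q) (hsm : 24 * om * √Q ≤ 1 / 100) (hMN : 2 ≤ M + N) {T e : ℕ}
    (hT : M + N ≤ T) {om' eta : ℝ}
    (heta : ‖1 - Complex.exp (Complex.I * ((th * (T : ℝ) : ℝ) : ℂ))‖ ≤ eta)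
    (h1 : eta * om ≤ om') (h2 : om ≤ om' * b ^ e) :
    St b th (U * (1 - b ^ T)) (M + T + e) (N + e) om'
      ((1 - 24 * om * √Q)⁻¹ ^ 2 *
        (2 * Q + 576 * om ^ 2 * (4 * e + T) + 96 * om * √((M + N : ℕ) * Q))) := by
  have hb0 : 0 < b := by linarith
  have hb1 : 1 < b := by linarith
  have hsq : (1:ℝ) ≤ √Q := by rw [Real.one_le_sqrt]; exact hQ
  have hom : om ≤ 1 / 1000 := by nlinarith
  have hom' : 0 < om' := by
    by_contra hneg
    push_neg at hneg
    have : om' * b ^ e ≤ 0 := mul_nonpos_of_nonpos_of_nonneg hneg (by positivity)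
    linarith
  have hbT2 : 2 ≤ b ^ T := by
    have h3 : b ^ 2 ≤ b ^ T := pow_le_pow_right₀ hb1.le (by omega)
    nlinarith
  have hbT : 1 < b ^ T := by linarith
  have key : ∀ i : ℤ, U * (1 - b ^ T) * b ^ i = U * b ^ i - U * b ^ (i + T) := by
    intro i
    rw [zpow_add₀ hb0.ne', zpow_natCast]; ring
  have hpq := h.pq_le hb h0 hom hQ hT
  have hcos : ∀ i : ℤ, cos (2 * π * (U * (1 - b ^ T) * b ^ i)) =
      cos (2 * π * (U * b ^ i)) * cos (2 * π * (U * b ^ (i + T))) *
      (1 + tan (2 * π * (U * b ^ i)) * tan (2 * π * (U * b ^ (i + T)))) := by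
    intro i
    have e1 : 2 * π * (U * (1 - b ^ T) * b ^ i) = 2 * π * (U * b ^ i) - 2 * π * (U * b ^ (i + T)) := by
      rw [key]; ring
    rw [e1, cos_sub_tan (h.cos_ne i) (h.cos_ne (i + T))]
  have htan : ∀ i : ℤ, tan (2 * π * (U * (1 - b ^ T) * b ^ i)) =
      (tan (2 * π * (U * b ^ i)) - tan (2 * π * (U * b ^ (i + T)))) /
      (1 + tan (2 * π * (U * b ^ i)) * tan (2 * π * (U * b ^ (i + T)))) := by
    intro i
    have hne : 1 + tan (2 * π * (U * b ^ i)) * tan (2 * π * (U * b ^ (i + T))) ≠ 0 := by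
      have := abs_le.1 (hpq i)
      linarith [this.1]
    have e1 : 2 * π * (U * (1 - b ^ T) * b ^ i) = 2 * π * (U * b ^ i) - 2 * π * (U * b ^ (i + T)) := by
      rw [key]; ring
    rw [e1, tan_sub_tan (h.cos_ne i) (h.cos_ne (i + T)) hne]
  refine ⟨?_, ?_, ?_, ?_, ?_⟩
  · rw [abs_mul]
    have h3 : 1 ≤ |1 - b ^ T| := by rw [abs_sub_comm, le_abs]; left; linarith
    nlinarith [h.hU1]
  · rw [abs_mul]
    have h3 : |1 - b ^ T| ≤ b ^ T := by rw [abs_le]; constructor <;> linarith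
    calc |U| * |1 - b ^ T| ≤ (om * b ^ M) * b ^ T := by
          apply mul_le_mul h.hU h3 (abs_nonneg _) (by positivity)
      _ ≤ (om' * b ^ e) * b ^ M * b ^ T := by gcongr
      _ = om' * b ^ (M + T + e) := by rw [pow_add, pow_add]; ring
  · obtain ⟨S, w, htr, hS, hw⟩ := h.tr
    refine ⟨S * (1 - b ^ (-(T : ℤ))), w * (1 - Complex.exp (Complex.I * ((th * (T : ℝ) : ℝ) : ℂ))),
      ?_, ?_, ?_⟩
    · intro i
      obtain ⟨c1, hc1⟩ := htr i
      obtain ⟨c2, hc2⟩ := htr (i + T)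
      refine ⟨c1 - c2, ?_⟩
      rw [Int.cast_sub, ← hc1, ← hc2, key i]
      have e2 : S * (1 - b ^ (-(T : ℤ))) * b ^ (-i) = S * b ^ (-i) - S * b ^ (-(i + (T:ℤ))) := by
        rw [neg_add, zpow_add₀ hb0.ne']; ring
      have e3 : w * (1 - Complex.exp (Complex.I * ((th * (T : ℝ) : ℝ) : ℂ))) *
          Complex.exp (Complex.I * ((th * (i : ℝ) : ℝ) : ℂ)) =
          w * Complex.exp (Complex.I * ((th * (i : ℝ) : ℝ) : ℂ)) -
          w * Complex.exp (Complex.I * ((th * ((i + (T:ℤ) : ℤ) : ℝ) : ℝ) : ℂ)) := by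
        have : Complex.exp (Complex.I * ((th * ((i + (T:ℤ) : ℤ) : ℝ) : ℝ) : ℂ)) =
            Complex.exp (Complex.I * ((th * (T : ℝ) : ℝ) : ℂ)) *
            Complex.exp (Complex.I * ((th * (i : ℝ) : ℝ) : ℂ)) := by
          rw [← Complex.exp_add]; congr 1; push_cast; ring
        rw [this]; ring
      rw [e2, e3, Complex.sub_re]
      ring
    · rw [abs_mul]
      have h3 : |1 - b ^ (-(T : ℤ))| ≤ 1 := by
        have h4 : 0 < b ^ (-(T : ℤ)) := zpow_pos hb0 _
        have h5 : b ^ (-(T : ℤ)) ≤ 1 := zpow_le_one_of_nonpos₀ hb1.le (by omega)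
        rw [abs_le]; constructor <;> linarith
      calc |S| * |1 - b ^ (-(T : ℤ))| ≤ |S| * 1 := by gcongr
        _ ≤ om * b ^ N := by linarith
        _ ≤ (om' * b ^ e) * b ^ N := by gcongr
        _ = om' * b ^ (N + e) := by rw [pow_add]; ring
    · rw [norm_mul]
      calc ‖w‖ * ‖1 - Complex.exp (Complex.I * ((th * (T : ℝ) : ℝ) : ℂ))‖ ≤ om * eta := by
            apply mul_le_mul hw heta (norm_nonneg _) h0.le
        _ ≤ om' := by linarith
  · intro i
    rw [hcos i]
    refine mul_ne_zero (mul_ne_zero (h.cos_ne i) (h.cos_ne _)) ?_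
    have := abs_le.1 (hpq i)
    linarith [this.1]
  · intro F hF
    have hF' : ∀ i ∈ F, i < (N : ℤ) + e := by
      intro i hi; have := hF i hi; push_cast at this; exact this
    set d := 24 * om * √Q with hd
    have hd0 : 0 ≤ d := by positivity
    have hterm : ∀ i ∈ F, tan (2 * π * (U * (1 - b ^ T) * b ^ i)) ^ 2 ≤
        (1 - d)⁻¹ ^ 2 * (tan (2 * π * (U * b ^ i)) ^ 2 + tan (2 * π * (U * b ^ (i + T))) ^ 2
          + 2 * |tan (2 * π * (U * b ^ i)) * tan (2 * π * (U * b ^ (i + T)))|) := by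
      intro i _
      rw [htan i, div_pow]
      set p := tan (2 * π * (U * b ^ i))
      set q := tan (2 * π * (U * b ^ (i + T)))
      have h3 : |p * q| ≤ d := hpq i
      have h4 : 1 - d ≤ 1 + p * q := by have := abs_le.1 h3; linarith [this.1]
      have h5 : 0 < 1 - d := by linarith
      rw [inv_pow, ← div_eq_inv_mul]
      have h6 : (p - q) ^ 2 ≤ p ^ 2 + q ^ 2 + 2 * |p * q| := by
        have := neg_abs_le (p * q)
        nlinarith
      have h7 : (1 - d) ^ 2 ≤ (1 + p * q) ^ 2 := by gcongr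
      calc (p - q) ^ 2 / (1 + p * q) ^ 2 ≤ (p - q) ^ 2 / (1 - d) ^ 2 := by
            gcongr
        _ ≤ (p ^ 2 + q ^ 2 + 2 * |p * q|) / (1 - d) ^ 2 := by gcongr
    have hA := h.sum_le' hb h0 hom e F hF'
    have hC := h.cross_le hb h0 hom hQ (by omega) hT e F hF'
    have hB : ∑ i ∈ F, tan (2 * π * (U * b ^ (i + T))) ^ 2 ≤ Q + 576 * om ^ 2 * (e + T : ℕ) := by
      have h8 : ∑ i ∈ F, tan (2 * π * (U * b ^ (i + T))) ^ 2 =
          ∑ j ∈ F.image (fun i => i + (T:ℤ)), tan (2 * π * (U * b ^ j)) ^ 2 := by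
        rw [sum_image]
        intro i _ j _ hij
        simpa using hij
      rw [h8]
      apply h.sum_le' hb h0 hom (e + T)
      intro j hj
      rw [mem_image] at hj
      obtain ⟨i, hi, rfl⟩ := hj
      have := hF' i hi
      push_cast
      linarith
    calc _ ≤ ∑ i ∈ F, (1 - d)⁻¹ ^ 2 * (tan (2 * π * (U * b ^ i)) ^ 2 +
          tan (2 * π * (U * b ^ (i + T))) ^ 2
          + 2 * |tan (2 * π * (U * b ^ i)) * tan (2 * π * (U * b ^ (i + T)))|) := sum_le_sum hterm
      _ = (1 - d)⁻¹ ^ 2 * (∑ i ∈ F, tan (2 * π * (U * b ^ i)) ^ 2 +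
          ∑ i ∈ F, tan (2 * π * (U * b ^ (i + T))) ^ 2
          + 2 * ∑ i ∈ F, |tan (2 * π * (U * b ^ i)) * tan (2 * π * (U * b ^ (i + T)))|) := by
          rw [← mul_sum, sum_add_distrib, sum_add_distrib, ← mul_sum]
      _ ≤ (1 - d)⁻¹ ^ 2 *
        (2 * Q + 576 * om ^ 2 * (4 * e + T) + 96 * om * √((M + N : ℕ) * Q)) := by
          apply mul_le_mul_of_nonneg_left _ (by positivity)
          push_cast at hB hC ⊢
          linarith

end Vale.Agent.P105
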