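import Mathlib

/-! A singularity criterion (P105). -/

open MeasureTheory Filter Topology Set

namespace Vale.Agent.P105

theorem one_test (nu : Measure ℝ) [IsProbabilityMeasure nu] {R : ℝ} (hR0 : 0 ≤ R)
    (hR : nu (Icc (-R) R)ᶜ = 0) {ε : ℝ} (hε : 0 < ε) {h : ℝ → ℝ} (hc : Continuous h) {m : ℝ}
    (hm : 0 < m) (h1 : (∫ x in (-R)..R, h x ^ 2) ≤ ε * m ^ 2) (h2 : ∫ x, h x ∂nu = m)
    (h3 : ∫ x, h x ^ 2 ∂nu ≤ (1 + ε) * m ^ 2) :
    ∃ E : Set ℝ, MeasurableSet E ∧ volume E ≤ ENNReal.ofReal (4 * ε) ∧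
      nu Eᶜ ≤ ENNReal.ofReal (4 * ε) := by
  have hres : nu.restrict (Icc (-R) R) = nu := by
    apply Measure.restrict_eq_self_of_ae_mem
    rw [ae_iff]
    exact hR
  have hint : ∀ g : ℝ → ℝ, Continuous g → Integrable g nu := by
    intro g hg
    have : IntegrableOn g (Icc (-R) R) nu := hg.continuousOn.integrableOn_compact isCompact_Icc
    rw [IntegrableOn, hres] at this
    exact this
  refine ⟨{x | x ∈ Icc (-R) R ∧ (m / 2) ^ 2 ≤ h x ^ 2}, ?_, ?_, ?_⟩
  · apply MeasurableSet.inter measurableSet_Icc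
    exact measurableSet_le measurable_const (hc.pow 2).measurable
  · -- Lebesgue
    have hi : IntegrableOn (fun x => h x ^ 2) (Icc (-R) R) volume :=
      (hc.pow 2).continuousOn.integrableOn_compact isCompact_Icc
    have key := mul_meas_ge_le_integral_of_nonneg (μ := volume.restrict (Icc (-R) R))
      (f := fun x => h x ^ 2) (Eventually.of_forall (fun x => sq_nonneg _)) hi ((m / 2) ^ 2)
    have e1 : ∫ x in Icc (-R) R, h x ^ 2 = ∫ x in (-R)..R, h x ^ 2 := by
      rw [intervalIntegral.integral_of_le (by linarith), integral_Icc_eq_integral_Ioc]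
    have e2 : (volume.restrict (Icc (-R) R)) {x | (m / 2) ^ 2 ≤ h x ^ 2} =
        volume {x | x ∈ Icc (-R) R ∧ (m / 2) ^ 2 ≤ h x ^ 2} := by
      have hmeas : MeasurableSet {x | (m / 2) ^ 2 ≤ h x ^ 2} :=
        measurableSet_le measurable_const (hc.pow 2).measurable
      rw [Measure.restrict_apply hmeas]
      congr 1
      ext x
      simp only [mem_inter_iff, mem_setOf_eq]
      tauto
    rw [e1, Measure.real, e2] at key
    have hfin : volume {x | x ∈ Icc (-R) R ∧ (m / 2) ^ 2 ≤ h x ^ 2} ≠ ⊤ := by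
      apply ne_top_of_le_ne_top (b := volume (Icc (-R) R))
      · rw [Real.volume_Icc]; exact ENNReal.ofReal_ne_top
      · exact measure_mono (fun x hx => hx.1)
    rw [← ENNReal.ofReal_toReal hfin]
    apply ENNReal.ofReal_le_ofReal
    have hm2 : 0 < m ^ 2 := by positivity
    by_contra hcon
    push Not at hcon
    nlinarith
  · -- nu
    have hi : Integrable (fun x => (h x - m) ^ 2) nu :=
      hint _ ((hc.sub continuous_const).pow 2)
    have key := mul_meas_ge_le_integral_of_nonneg (μ := nu)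
      (f := fun x => (h x - m) ^ 2) (Eventually.of_forall (fun x => sq_nonneg _)) hi ((m / 2) ^ 2)
    have e1 : ∫ x, (h x - m) ^ 2 ∂nu ≤ ε * m ^ 2 := by
      have e2 : ∀ x, (h x - m) ^ 2 = h x ^ 2 - (2 * m) * h x + m ^ 2 := fun x => by ring
      simp_rw [e2]
      have i1 : Integrable (fun x => h x ^ 2) nu := hint _ (hc.pow 2)
      have i2 : Integrable (fun x => (2 * m) * h x) nu := (hint _ hc).const_mul _
      have i3 : Integrable (fun x => h x ^ 2 - (2 * m) * h x) nu := i1.sub i2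
      rw [integral_add i3 (integrable_const _), integral_sub i1 i2, integral_const_mul, h2]
      simp only [integral_const, probReal_univ, smul_eq_mul, one_mul]
      nlinarith
    have hsub : {x | x ∈ Icc (-R) R ∧ (m / 2) ^ 2 ≤ h x ^ 2}ᶜ ⊆
        (Icc (-R) R)ᶜ ∪ {x | (m / 2) ^ 2 ≤ (h x - m) ^ 2} := by
      intro x hx
      simp only [mem_compl_iff, mem_setOf_eq, not_and, not_le] at hx
      by_cases hxR : x ∈ Icc (-R) R
      · right
        have h4 := hx hxR
        simp only [mem_setOf_eq]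
        have h5 : |h x| < m / 2 := by
          have := sq_lt_sq.1 h4
          rwa [abs_of_pos (by positivity : 0 < m / 2)] at this
        rw [abs_lt] at h5
        have h6 : m / 2 ≤ m - h x := by linarith [h5.2]
        have h7 : (h x - m) ^ 2 = (m - h x) ^ 2 := by ring
        rw [h7]
        gcongr
      · left; exact hxR
    calc nu {x | x ∈ Icc (-R) R ∧ (m / 2) ^ 2 ≤ h x ^ 2}ᶜ
        ≤ nu ((Icc (-R) R)ᶜ ∪ {x | (m / 2) ^ 2 ≤ (h x - m) ^ 2}) := measure_mono hsub
      _ ≤ nu (Icc (-R) R)ᶜ + nu {x | (m / 2) ^ 2 ≤ (h x - m) ^ 2} := measure_union_le _ _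
      _ = nu {x | (m / 2) ^ 2 ≤ (h x - m) ^ 2} := by rw [hR, zero_add]
      _ ≤ ENNReal.ofReal (4 * ε) := by
          rw [← ENNReal.ofReal_toReal (measure_ne_top nu {x | (m / 2) ^ 2 ≤ (h x - m) ^ 2})]
          apply ENNReal.ofReal_le_ofReal
          have hm2 : 0 < m ^ 2 := by positivity
          rw [Measure.real] at key
          by_contra hcon
          push Not at hcon
          nlinarith

theorem singular_of_tests (nu : Measure ℝ) [IsProbabilityMeasure nu] (R : ℝ)
    (hR : nu (Set.Icc (-R) R)ᶜ = 0)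
    (H : ∀ ε : ℝ, 0 < ε → ∃ h : ℝ → ℝ, Continuous h ∧ ∃ m : ℝ, 0 < m ∧
        (∫ x in (-R)..R, h x ^ 2) ≤ ε * m ^ 2 ∧ ∫ x, h x ∂nu = m ∧
        ∫ x, h x ^ 2 ∂nu ≤ (1 + ε) * m ^ 2) :
    nu.MutuallySingular volume := by
  have hR0 : 0 ≤ R := by
    by_contra hneg
    push Not at hneg
    rw [Icc_eq_empty (by linarith), compl_empty, measure_univ] at hR
    exact one_ne_zero hR
  have hE : ∀ k : ℕ, ∃ E : Set ℝ, MeasurableSet E ∧ volume E ≤ ENNReal.ofReal ((1 / 2) ^ k) ∧
      nu Eᶜ ≤ ENNReal.ofReal ((1 / 2) ^ k) := by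
    intro k
    obtain ⟨h, hc, m, hm, h1, h2, h3⟩ := H ((1 / 2) ^ k / 4) (by positivity)
    obtain ⟨E, hE1, hE2, hE3⟩ := one_test nu hR0 hR (by positivity) hc hm h1 h2 h3
    have e : 4 * ((1 / 2 : ℝ) ^ k / 4) = (1 / 2) ^ k := by ring
    rw [e] at hE2 hE3
    exact ⟨E, hE1, hE2, hE3⟩
  choose E hEm hEv hEn using hE
  have hsum : ∑' k, ENNReal.ofReal ((1 / 2 : ℝ) ^ k) ≠ ⊤ := by
    rw [← ENNReal.ofReal_tsum_of_nonneg (fun k => by positivity)
      (summable_geometric_of_lt_one (by norm_num) (by norm_num))]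
    exact ENNReal.ofReal_ne_top
  have htend : Tendsto (fun k : ℕ => ENNReal.ofReal ((1 / 2 : ℝ) ^ k)) atTop (𝓝 0) := by
    have h1 : Tendsto (fun k : ℕ => (1 / 2 : ℝ) ^ k) atTop (𝓝 0) :=
      tendsto_pow_atTop_nhds_zero_of_lt_one (by norm_num) (by norm_num)
    have := ENNReal.tendsto_ofReal h1
    simpa using this
  have hA : volume (limsup E atTop) = 0 := by
    apply measure_limsup_atTop_eq_zero
    exact ne_top_of_le_ne_top hsum (ENNReal.tsum_le_tsum hEv)
  have hB : nu (limsup E atTop)ᶜ = 0 := by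
    rw [limsup_eq_iInf_iSup_of_nat]
    simp only [iInf_eq_iInter, iSup_eq_iUnion, compl_iInter, compl_iUnion]
    rw [measure_iUnion_null_iff]
    intro n
    refine le_antisymm ?_ bot_le
    apply ge_of_tendsto htend
    filter_upwards [eventually_ge_atTop n] with k hk
    refine le_trans (measure_mono ?_) (hEn k)
    intro x hx
    simp only [mem_iInter] at hx
    exact hx k hk
  refine ⟨(limsup E atTop)ᶜ, ?_, hB, by rw [compl_compl]; exact hA⟩
  exact (MeasurableSet.measurableSet_limsup hEm).compl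

end Vale.Agent.P105
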