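import Mathlib

/-! Numerical part of the assembly (P105). -/

open Real

namespace Vale.Agent.P105

theorem exp_le_aux {x : ℝ} (h1 : x ≤ 1 / 2) (h0 : 0 ≤ x) : exp x ≤ 1 + 2 * x := by
  have h2 : 1 - x ≤ exp (-x) := by have := Real.add_one_le_exp (-x); linarith
  have h3 : exp x * exp (-x) = 1 := by rw [← Real.exp_add]; simp
  have h4 : 0 < exp x := Real.exp_pos x
  have h5 : exp x * (1 - x) ≤ 1 := by
    calc exp x * (1 - x) ≤ exp x * exp (-x) := by gcongr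
      _ = 1 := h3
  by_contra hc
  push Not at hc
  have h6 : (1 + 2 * x) * (1 - x) < exp x * (1 - x) := by
    apply mul_lt_mul_of_pos_right hc; linarith
  nlinarith

theorem num_sm {y Q : ℝ} (hy : 90 ≤ y) (hQ0 : 0 ≤ Q) (hQy : Q ≤ y) :
    24 * (y ^ 12)⁻¹ * √Q ≤ 1 / 100 := by
  have hy0 : 0 < y := by linarith
  have hsqQ : √Q ≤ y := by
    rw [Real.sqrt_le_left hy0.le]
    nlinarith
  have homy : (y ^ 12)⁻¹ * y ≤ 1 / 10000 := by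
    have h1 : (y ^ 12)⁻¹ * y = (y ^ 11)⁻¹ := by field_simp
    have h2 : (90:ℝ) ^ 11 ≤ y ^ 11 := by gcongr
    rw [h1, inv_eq_one_div]
    apply one_div_le_one_div_of_le (by norm_num)
    calc (10000:ℝ) ≤ 90 ^ 11 := by norm_num
      _ ≤ _ := h2
  have h0 : 0 ≤ (y ^ 12)⁻¹ := by positivity
  have : (y ^ 12)⁻¹ * √Q ≤ (y ^ 12)⁻¹ * y := by gcongr
  linarith

theorem num_t {y : ℝ} (hy : 90 ≤ y) : (y ^ 2)⁻¹ ≤ 1 / 8100 := by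
  rw [inv_eq_one_div]
  apply one_div_le_one_div_of_le (by norm_num)
  nlinarith

theorem num_omJ {y J : ℝ} (hy : 90 ≤ y) (hJ : J ≤ y ^ 22) :
    ((y ^ 12)⁻¹) ^ 2 * J ≤ (y ^ 2)⁻¹ := by
  have hy0 : 0 < y := by linarith
  calc ((y ^ 12)⁻¹) ^ 2 * J ≤ ((y ^ 12)⁻¹) ^ 2 * y ^ 22 := by gcongr
    _ = (y ^ 2)⁻¹ := by field_simp

theorem num_omL {y Q L : ℝ} (hy : 90 ≤ y) (hL : L ≤ y ^ 8) (hL0 : 0 ≤ L)
    (hQ0 : 0 ≤ Q) (hQy : Q ≤ y) : (y ^ 12)⁻¹ * √(L * Q) ≤ (y ^ 2)⁻¹ := by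
  have hy0 : 0 < y := by linarith
  have hy1 : 1 ≤ y := by linarith
  have h1 : √(L * Q) ≤ y ^ 5 := by
    rw [Real.sqrt_le_left (by positivity)]
    calc L * Q ≤ y ^ 8 * y := by gcongr
      _ = y ^ 9 := by ring
      _ ≤ y ^ 10 := pow_le_pow_right₀ hy1 (by norm_num)
      _ = (y ^ 5) ^ 2 := by ring
  have h2 : y ^ 5 ≤ y ^ 10 := pow_le_pow_right₀ hy1 (by norm_num)
  calc (y ^ 12)⁻¹ * √(L * Q) ≤ (y ^ 12)⁻¹ * y ^ 5 := by gcongr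
    _ ≤ (y ^ 12)⁻¹ * y ^ 10 := by gcongr
    _ = (y ^ 2)⁻¹ := by field_simp

theorem num_expE {y Q L J : ℝ} (hy : 90 ≤ y) (hL : L ≤ y ^ 8) (hL0 : 0 ≤ L)
    (hQ0 : 0 ≤ Q) (hQy : Q ≤ y) (hJ0 : 0 ≤ J) (hJ : J ≤ y ^ 22) :
    exp (48 * (y ^ 12)⁻¹ * √(L * Q) + 576 * ((y ^ 12)⁻¹) ^ 2 * J) ≤ 1 + 1248 * (y ^ 2)⁻¹ := by
  have h1 := num_omL hy hL hL0 hQ0 hQy
  have h2 := num_omJ hy hJ
  have h3 := num_t hy
  have h4 : 0 ≤ 48 * (y ^ 12)⁻¹ * √(L * Q) + 576 * ((y ^ 12)⁻¹) ^ 2 * J := by positivity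
  have h5 : 48 * (y ^ 12)⁻¹ * √(L * Q) + 576 * ((y ^ 12)⁻¹) ^ 2 * J ≤ 624 * (y ^ 2)⁻¹ := by
    linarith
  have := exp_le_aux (by linarith) h4
  linarith

theorem num_expQ {y Q J : ℝ} (hy : 90 ≤ y) (hQl : Q ≤ Real.log y) (hJ0 : 0 ≤ J) (hJ : J ≤ y ^ 22) :
    (2 * y)⁻¹ ≤ exp (-(Q + 576 * ((y ^ 12)⁻¹) ^ 2 * J)) := by
  have hy0 : 0 < y := by linarith
  rw [Real.exp_neg]
  apply inv_anti₀ (Real.exp_pos _)
  rw [Real.exp_add]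
  have h1 : exp Q ≤ y := by
    calc exp Q ≤ exp (Real.log y) := Real.exp_le_exp.2 hQl
      _ = y := Real.exp_log hy0
  have h2 : exp (576 * ((y ^ 12)⁻¹) ^ 2 * J) ≤ 2 := by
    have h3 : 0 ≤ 576 * ((y ^ 12)⁻¹) ^ 2 * J := by positivity
    have h6 := num_omJ hy hJ
    have h7 := num_t hy
    have h4 : 576 * ((y ^ 12)⁻¹) ^ 2 * J ≤ 1 / 2 := by linarith
    have := exp_le_aux h4 h3
    linarith
  calc exp Q * exp (576 * ((y ^ 12)⁻¹) ^ 2 * J) ≤ y * 2 := by gcongr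
    _ = 2 * y := by ring

theorem num_m {y Q J m : ℝ} (hy : 90 ≤ y) (hQl : Q ≤ Real.log y) (hJ10 : y ^ 10 ≤ J)
    (hJ : J ≤ y ^ 22)
    (hm : J * exp (-((Q + 576 * ((y ^ 12)⁻¹) ^ 2 * J) / 2)) ≤ m) :
    J * y ^ 9 ≤ 2 * m ^ 2 := by
  have hy0 : 0 < y := by linarith
  have hJ0 : 0 < J := lt_of_lt_of_le (by positivity) hJ10
  have h0 := num_expQ hy hQl hJ0.le hJ
  set X := Q + 576 * ((y ^ 12)⁻¹) ^ 2 * J
  have h1 : (J * exp (-(X / 2))) ^ 2 = J ^ 2 * exp (-X) := by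
    rw [mul_pow, ← Real.exp_nat_mul]
    congr 2
    push_cast; ring
  have h2 : J ^ 2 * (2 * y)⁻¹ ≤ m ^ 2 := by
    calc J ^ 2 * (2 * y)⁻¹ ≤ J ^ 2 * exp (-X) := by gcongr
      _ = (J * exp (-(X / 2))) ^ 2 := h1.symm
      _ ≤ m ^ 2 := by gcongr
  have h3 : J * y ^ 10 * (2 * y)⁻¹ ≤ J ^ 2 * (2 * y)⁻¹ := by
    rw [sq]; gcongr
  have h4 : J * y ^ 10 * (2 * y)⁻¹ = J * y ^ 9 / 2 := by field_simp
  linarith

/-- The numerical conclusion. -/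
theorem num_final {y Q L J m C ε : ℝ} (hε : 0 < ε) (hC : 0 < C) (hy : 90 ≤ y)
    (hyε : 2 * C + 3000 ≤ ε * y)
    (hQ1 : 1 ≤ Q) (hQl : Q ≤ Real.log y) (hL : L ≤ y ^ 8) (hL0 : 0 ≤ L)
    (hJ10 : y ^ 10 ≤ J) (hJ : J ≤ y ^ 22)
    (hm : J * exp (-((Q + 576 * ((y ^ 12)⁻¹) ^ 2 * J) / 2)) ≤ m) :
    C * J ≤ ε * m ^ 2 ∧
    2 * L * J + exp (48 * (y ^ 12)⁻¹ * √(L * Q) + 576 * ((y ^ 12)⁻¹) ^ 2 * J) * m ^ 2 ≤
      (1 + ε) * m ^ 2 := by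
  have hy0 : 0 < y := by linarith
  have hy1 : 1 ≤ y := by linarith
  have hJ0 : 0 < J := lt_of_lt_of_le (by positivity) hJ10
  have hQy : Q ≤ y := by
    have := Real.log_le_sub_one_of_pos hy0
    linarith
  have hJm := num_m hy hQl hJ10 hJ hm
  have hE := num_expE hy hL hL0 (by linarith : 0 ≤ Q) hQy hJ0.le hJ
  constructor
  · have h3 : 1 ≤ y ^ 8 := one_le_pow₀ hy1
    have h4 : J * y ≤ J * y ^ 9 := by
      gcongr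
      calc y = y * 1 := by ring
        _ ≤ y * y ^ 8 := by gcongr
        _ = y ^ 9 := by ring
    have h5 : 2 * C * J ≤ ε * (J * y) := by
      calc 2 * C * J ≤ (ε * y) * J := mul_le_mul_of_nonneg_right (by linarith) hJ0.le
        _ = ε * (J * y) := by ring
    have h6 : ε * (J * y) ≤ ε * (2 * m ^ 2) :=
      mul_le_mul_of_nonneg_left (by linarith) hε.le
    linarith
  · have h1 : 2 * L * J ≤ ε / 2 * m ^ 2 := by
      have h2 : 2 * L * J ≤ 2 * y ^ 8 * J := by gcongr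
      have h3 : 8 * (y ^ 8 * J) ≤ ε * (J * y ^ 9) := by
        calc 8 * (y ^ 8 * J) ≤ (ε * y) * (y ^ 8 * J) := by gcongr; linarith
          _ = ε * (J * y ^ 9) := by ring
      have h4 : ε * (J * y ^ 9) ≤ ε * (2 * m ^ 2) := by gcongr
      linarith
    have h2 : exp (48 * (y ^ 12)⁻¹ * √(L * Q) + 576 * ((y ^ 12)⁻¹) ^ 2 * J) * m ^ 2 ≤
        (1 + ε / 2) * m ^ 2 := by
      gcongr
      have h3 : 1248 * (y ^ 2)⁻¹ ≤ ε / 2 := by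
        have h4 : (y ^ 2)⁻¹ * y ≤ 1 := by
          have : (y ^ 2)⁻¹ * y = y⁻¹ := by field_simp
          rw [this]
          exact inv_le_one_of_one_le₀ hy1
        have h5 : 3000 * (y ^ 2)⁻¹ ≤ ε * ((y ^ 2)⁻¹ * y) := by
          have : 3000 * (y ^ 2)⁻¹ ≤ (ε * y) * (y ^ 2)⁻¹ := by gcongr; linarith
          linarith
        have h6 : ε * ((y ^ 2)⁻¹ * y) ≤ ε * 1 := by gcongr
        linarith
      linarith
    calc _ ≤ ε / 2 * m ^ 2 + (1 + ε / 2) * m ^ 2 := add_le_add h1 h2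
      _ = (1 + ε) * m ^ 2 := by ring

end Vale.Agent.P105
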