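import Vale.Agent.P105.Core

/-! P105, module [E]: Dirichlet's theorem and the iteration of the doubling step. -/

open Real Filter Topology

namespace Vale.Agent.P105

/-- A state at level `y`: `om = y ^ (-12)`, window length at most `y ^ 8` and at least so long that
`y ^ 48 ≤ b ^ (M + N)`. -/
def Has (b th y Q : ℝ) : Prop := ∃ (U : ℝ) (M N : ℕ), St b th U M N (y ^ (-12 : ℝ)) Q ∧
  ((M + N : ℕ) : ℝ) ≤ y ^ (8:ℝ) ∧ y ^ (48:ℝ) ≤ b ^ (M + N) ∧ 2 ≤ M + N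

lemma two_pi_le {y : ℝ} (hy : 90 ≤ y) : 2 * π ≤ y ^ (0.6 : ℝ) := by
  have h1 : (2 * π) ^ (5 : ℕ) ≤ y ^ (3 : ℕ) := by
    have h2 : 2 * π ≤ 6.3 := by linarith [Real.pi_lt_d2]
    calc (2 * π) ^ (5 : ℕ) ≤ 6.3 ^ (5 : ℕ) := by gcongr
      _ ≤ 90 ^ (3 : ℕ) := by norm_num
      _ ≤ y ^ (3 : ℕ) := by gcongr
  have h3 : 2 * π = ((2 * π) ^ (5 : ℕ)) ^ ((1 : ℝ) / 5) := by
    rw [← Real.rpow_natCast, ← Real.rpow_mul (by positivity)]
    norm_num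
  have h4 : y ^ (0.6 : ℝ) = (y ^ (3 : ℕ)) ^ ((1 : ℝ) / 5) := by
    rw [← Real.rpow_natCast, ← Real.rpow_mul (by linarith)]
    norm_num
  rw [h3, h4]
  gcongr

lemma norm_one_sub_exp_le (th : ℝ) (T : ℕ) (j : ℤ) :
    ‖1 - Complex.exp (Complex.I * ((th * (T:ℝ) : ℝ) : ℂ))‖ ≤ 2 * π * |(T : ℝ) * (th / (2 * π)) - j| := by
  have h1 : Complex.exp (Complex.I * ((th * (T:ℝ) : ℝ) : ℂ)) =
      Complex.exp (Complex.I * ((th * (T:ℝ) - 2 * π * j : ℝ) : ℂ)) := by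
    have : Complex.I * ((th * (T:ℝ) : ℝ) : ℂ) =
        Complex.I * ((th * (T:ℝ) - 2 * π * j : ℝ) : ℂ) + j * (2 * π * Complex.I) := by
      push_cast; ring
    rw [this, Complex.exp_add, Complex.exp_int_mul_two_pi_mul_I, mul_one]
  rw [h1, norm_sub_rev]
  refine (Real.norm_exp_I_mul_ofReal_sub_one_le).trans (le_of_eq ?_)
  have h2 : th * (T:ℝ) - 2 * π * j = 2 * π * ((T : ℝ) * (th / (2 * π)) - j) := by
    field_simp
  rw [h2, norm_mul, Real.norm_eq_abs, Real.norm_eq_abs, abs_of_pos (by positivity)]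

/-- the common part of the two cases of the step -/
lemma step_aux {b th y Q : ℝ} (hb : 3 / 2 ≤ b) (hy : 90 ≤ y) (hQ1 : 1 ≤ Q)
    (hQ : Q ≤ y ^ (3:ℝ)) {U : ℝ} {M N : ℕ} (h : St b th U M N (y ^ (-12 : ℝ)) Q)
    (hL : ((M + N : ℕ) : ℝ) ≤ y ^ (8:ℝ)) (hbL : y ^ (48:ℝ) ≤ b ^ (M + N)) (hMN : 2 ≤ M + N)
    {T : ℕ} (hT : M + N ≤ T) {a eta : ℝ}
    (ha0 : 0 ≤ a) (ha : a ≤ 3)
    (heta : ‖1 - Complex.exp (Complex.I * ((th * (T:ℝ) : ℝ) : ℂ))‖ ≤ eta)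
    (h1 : eta * y ^ (-12 : ℝ) ≤ y ^ (-12 * a))
    (hTy : (T : ℝ) ≤ y ^ (21:ℝ)) (hT' : 3 * ((M + N : ℕ) : ℝ) + T ≤ y ^ (8 * a)) :
    Has b th (y ^ a) (2 * Q + 1) := by
  have hy0 : 0 < y := by linarith
  have hy1 : 1 ≤ y := by linarith
  set om := y ^ (-12 : ℝ) with hom
  have hom0 : 0 < om := Real.rpow_pos_of_pos hy0 _
  have hsq : √Q ≤ y ^ (3/2 : ℝ) := by
    rw [Real.sqrt_le_left (by positivity), ← Real.rpow_natCast, ← Real.rpow_mul hy0.le]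
    have e : (3/2 : ℝ) * ((2 : ℕ) : ℝ) = 3 := by norm_num
    rw [e]
    exact hQ
  -- om * √Q ≤ y^(-10.5)
  have hd1 : om * √Q ≤ y ^ (-10.5 : ℝ) := by
    calc om * √Q ≤ y ^ (-12 : ℝ) * y ^ (3/2 : ℝ) := by rw [hom]; gcongr
      _ = y ^ (-10.5 : ℝ) := by rw [← Real.rpow_add hy0]; norm_num
  have hd2 : y ^ (-10.5 : ℝ) ≤ y ^ (-3 : ℝ) * y ^ (-3 : ℝ) * y ^ (-3 : ℝ) := by
    rw [← Real.rpow_add hy0, ← Real.rpow_add hy0]
    exact Real.rpow_le_rpow_of_exponent_le hy1 (by norm_num)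
  have hy3 : y ^ (-3 : ℝ) ≤ 1 / 729000 := by
    have e1 : y ^ (-3 : ℝ) = (y ^ 3)⁻¹ := by
      rw [show (-3 : ℝ) = -((3 : ℕ) : ℝ) by norm_num, Real.rpow_neg hy0.le, Real.rpow_natCast]
    rw [e1, one_div]
    apply inv_anti₀ (by norm_num)
    calc (729000 : ℝ) = 90 ^ 3 := by norm_num
      _ ≤ y ^ 3 := by gcongr
  have hy30 : 0 < y ^ (-3 : ℝ) := Real.rpow_pos_of_pos hy0 _
  have hd3 : y ^ (-3 : ℝ) * y ^ (-3 : ℝ) * y ^ (-3 : ℝ) ≤
      1 / 729000 * (1 / 729000) * (1 / 729000) := by gcongr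
  have hd4 : om * √Q ≤ 1 / 729000 * (1 / 729000) * (1 / 729000) := hd1.trans (hd2.trans hd3)
  have hsm : 24 * om * √Q ≤ 1 / 100 := by
    rw [mul_assoc]; linarith
  -- the second condition
  have h2 : om ≤ y ^ (-12 * a) * b ^ (M + N) := by
    calc om ≤ y ^ (-12 * a) * y ^ (48:ℝ) := by
          rw [hom, ← Real.rpow_add hy0]
          exact Real.rpow_le_rpow_of_exponent_le hy1 (by linarith)
      _ ≤ y ^ (-12 * a) * b ^ (M + N) := by gcongr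
  have hSt := St.double hb h hom0 hQ1 hsm hMN hT heta h1 h2
  refine ⟨U * (1 - b ^ T), M + T + (M + N), N + (M + N), ⟨hSt.hU1, ?_, ?_, hSt.cos_ne, fun F hF => (hSt.sum_le F hF).trans ?_⟩, ?_, ?_,
    by omega⟩
  · rw [← Real.rpow_mul hy0.le, mul_comm a]
    exact hSt.hU
  · rw [← Real.rpow_mul hy0.le, mul_comm a]
    exact hSt.tr
  · -- Q' ≤ 2 Q + 1
    set d := 24 * om * √Q with hd
    have hd0 : 0 ≤ d := by positivity
    have hom2 : om ^ 2 = y ^ (-24 : ℝ) := by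
      rw [hom, ← Real.rpow_natCast, ← Real.rpow_mul hy0.le]; norm_num
    have t1 : 576 * om ^ 2 * (4 * ((M + N : ℕ) : ℝ) + T) ≤ 1 / 100 := by
      have e1 : 4 * ((M + N : ℕ) : ℝ) + T ≤ 5 * y ^ (21:ℝ) := by
        have : y ^ (8:ℝ) ≤ y ^ (21:ℝ) := Real.rpow_le_rpow_of_exponent_le hy1 (by norm_num)
        linarith
      calc 576 * om ^ 2 * (4 * ((M + N : ℕ) : ℝ) + T) ≤ 576 * om ^ 2 * (5 * y ^ (21:ℝ)) := by gcongr
        _ = 2880 * (y ^ (-24 : ℝ) * y ^ (21:ℝ)) := by rw [hom2]; ring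
        _ = 2880 * y ^ (-3 : ℝ) := by rw [← Real.rpow_add hy0]; norm_num
        _ ≤ 1 / 100 := by linarith
    have t2 : 96 * om * √(((M + N : ℕ) : ℝ) * Q) ≤ 1 / 100 := by
      have e1 : √(((M + N : ℕ) : ℝ) * Q) ≤ y ^ (5.5 : ℝ) := by
        rw [Real.sqrt_le_left (by positivity), ← Real.rpow_natCast, ← Real.rpow_mul hy0.le]
        calc ((M + N : ℕ) : ℝ) * Q ≤ y ^ (8:ℝ) * y ^ (3:ℝ) := by gcongr
          _ = y ^ (5.5 * ((2 : ℕ) : ℝ) : ℝ) := by rw [← Real.rpow_add hy0]; norm_num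
      calc 96 * om * √(((M + N : ℕ) : ℝ) * Q) ≤ 96 * om * y ^ (5.5 : ℝ) := by gcongr
        _ = 96 * y ^ (-6.5 : ℝ) := by rw [hom, mul_assoc, ← Real.rpow_add hy0]; norm_num
        _ ≤ 96 * y ^ (-3 : ℝ) := by
            have := Real.rpow_le_rpow_of_exponent_le hy1 (show (-6.5 : ℝ) ≤ -3 by norm_num)
            linarith
        _ ≤ 1 / 100 := by linarith
    have t3 : (1 - d)⁻¹ ^ 2 ≤ 1 + 4 * d := by
      have e1 : 0 < 1 - d := by linarith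
      rw [inv_pow, inv_le_comm₀ (by positivity) (by positivity), inv_le_iff_one_le_mul₀ (by positivity)]
      have e2 : 0 ≤ d * (2 - 7 * d) := mul_nonneg hd0 (by linarith)
      have e3 : 0 ≤ d ^ 3 := pow_nonneg hd0 3
      nlinarith
    have t4 : d * Q ≤ 1 / 100 := by
      have e1 : Q ≤ y ^ (3:ℝ) := hQ
      calc d * Q = 24 * (om * √Q) * Q := by rw [hd]; ring
        _ ≤ 24 * (y ^ (-3 : ℝ) * y ^ (-3 : ℝ) * y ^ (-3 : ℝ)) * y ^ (3:ℝ) :=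
            mul_le_mul (mul_le_mul_of_nonneg_left (hd1.trans hd2) (by norm_num)) e1
              (by linarith) (by positivity)
        _ = 24 * (y ^ (-3 : ℝ) * y ^ (-3 : ℝ)) * (y ^ (-3 : ℝ) * y ^ (3:ℝ)) := by ring
        _ = 24 * (y ^ (-3 : ℝ) * y ^ (-3 : ℝ)) := by
            have e3 : y ^ (-3 : ℝ) * y ^ (3:ℝ) = 1 := by rw [← Real.rpow_add hy0]; norm_num
            rw [e3, mul_one]
        _ ≤ 24 * (1 / 729000 * (1 / 729000)) := by gcongr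
        _ ≤ 1 / 100 := by norm_num
    have t5 : 0 ≤ 576 * om ^ 2 * (4 * ((M + N : ℕ) : ℝ) + T) := by positivity
    have t6 : 0 ≤ 96 * om * √(((M + N : ℕ) : ℝ) * Q) := by positivity
    calc (1 - d)⁻¹ ^ 2 * (2 * Q + 576 * om ^ 2 * (4 * ((M + N : ℕ) : ℝ) + T) +
          96 * om * √(((M + N : ℕ) : ℝ) * Q))
        ≤ (1 + 4 * d) * (2 * Q + 1 / 100 + 1 / 100) := by gcongr
      _ ≤ 2 * Q + 1 := by nlinarith
  · rw [← Real.rpow_mul hy0.le, mul_comm a]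
    push_cast at hT' ⊢
    linarith
  · rw [← Real.rpow_mul hy0.le]
    have hb1 : 1 ≤ b := by linarith
    calc y ^ (a * 48) ≤ y ^ ((48 : ℝ) * ((3 : ℕ) : ℝ)) :=
          Real.rpow_le_rpow_of_exponent_le hy1 (by push_cast; linarith)
      _ = (y ^ (48:ℝ)) ^ (3 : ℕ) := by rw [Real.rpow_mul hy0.le, Real.rpow_natCast]
      _ ≤ (b ^ (M + N)) ^ (3 : ℕ) := by gcongr
      _ = b ^ (3 * (M + N)) := by rw [← pow_mul, mul_comm]
      _ ≤ b ^ (M + T + (M + N) + (N + (M + N))) := pow_le_pow_right₀ hb1 (by omega)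

/-- one step of the recursion -/
theorem Has.step {b th y Q : ℝ} (hb : 3 / 2 ≤ b) (hy : 90 ≤ y) (hQ1 : 1 ≤ Q)
    (hQ : Q ≤ y ^ (3:ℝ)) (h : Has b th y Q) :
    ∃ y', y ^ (2.03:ℝ) ≤ y' ∧ Has b th y' (2 * Q + 1) := by
  obtain ⟨U, M, N, hSt, hL, hbL, hMN⟩ := h
  have hy0 : 0 < y := by linarith
  have hy1 : 1 ≤ y := by linarith
  have hpi := two_pi_le hy
  set ND : ℕ := ⌊y ^ (21:ℝ)⌋₊ with hND
  have hy21 : (1 : ℝ) ≤ y ^ (21:ℝ) := Real.one_le_rpow hy1 (by norm_num)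
  have hNDpos : 0 < ND := Nat.floor_pos.2 hy21
  obtain ⟨q, hq0, hqN, hq⟩ := Real.exists_nat_abs_mul_sub_round_le (th / (2 * π)) hNDpos
  have hqy : (q : ℝ) ≤ y ^ (21:ℝ) :=
    (Nat.cast_le.2 hqN).trans (Nat.floor_le (by positivity))
  have hq' : |(q : ℝ) * (th / (2 * π)) - round ((q : ℝ) * (th / (2 * π)))| ≤ y ^ (-21:ℝ) := by
    refine hq.trans ?_
    rw [Real.rpow_neg hy0.le, one_div]
    apply inv_anti₀ (by positivity)
    exact (Nat.lt_floor_add_one _).le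
  have hyy : ∀ s t : ℝ, y ^ s * y ^ t = y ^ (s + t) := fun s t => (Real.rpow_add hy0 s t).symm
  have hbig : (7 : ℝ) ≤ y ^ (1 : ℝ) := by rw [Real.rpow_one]; linarith
  rcases le_or_gt (M + N) q with hcase | hcase
  · -- case A
    refine ⟨y ^ (2.7 : ℝ), Real.rpow_le_rpow_of_exponent_le hy1 (by norm_num), ?_⟩
    refine step_aux hb hy hQ1 hQ hSt hL hbL hMN hcase (by norm_num) (by norm_num)
      (norm_one_sub_exp_le th q (round ((q : ℝ) * (th / (2 * π))))) ?_ hqy ?_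
    · calc 2 * π * |(q : ℝ) * (th / (2 * π)) - round ((q : ℝ) * (th / (2 * π)))| * y ^ (-12 : ℝ)
          ≤ y ^ (0.6 : ℝ) * y ^ (-21:ℝ) * y ^ (-12 : ℝ) := by gcongr
        _ = y ^ (-12 * 2.7 : ℝ) := by rw [hyy, hyy]; norm_num
    · have e1 : y ^ (8:ℝ) ≤ y ^ (21:ℝ) := Real.rpow_le_rpow_of_exponent_le hy1 (by norm_num)
      calc 3 * ((M + N : ℕ) : ℝ) + q ≤ 4 * y ^ (21:ℝ) := by linarith
        _ ≤ y ^ (0.6 : ℝ) * y ^ (21:ℝ) := by
            gcongr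
            linarith [Real.pi_gt_three]
        _ = y ^ (8 * 2.7 : ℝ) := by rw [hyy]; norm_num
  · -- case B
    set L := M + N with hLdef
    set m := (L + q - 1) / q with hm
    have hm1 : L ≤ q * m := by
      rw [hm]
      have := Nat.div_add_mod (L + q - 1) q
      have := Nat.mod_lt (L + q - 1) hq0
      omega
    have hm2 : q * m ≤ L + q - 1 := by
      rw [hm]; exact Nat.mul_div_le _ _
    have hm3 : m ≤ L := by
      rw [hm]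
      apply Nat.div_le_of_le_mul
      have : L + q - 1 ≤ q * L := by
        obtain ⟨q', hq'e⟩ : ∃ q', q = q' + 1 := ⟨q - 1, by omega⟩
        obtain ⟨L', hL'⟩ : ∃ L', L = L' + 1 := ⟨L - 1, by omega⟩
        rw [hL', hq'e]
        have e1 : (q' + 1) * (L' + 1) = L' + 1 + (q' + 1) - 1 + q' * L' := by
          have : (q' + 1) * (L' + 1) = L' + 1 + q' + q' * L' := by ring
          omega
        rw [e1]
        exact Nat.le_add_right _ _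
      exact this
    refine ⟨y ^ (2.03 : ℝ), le_rfl, ?_⟩
    have hT2 : ((q * m : ℕ) : ℝ) ≤ 2 * y ^ (8:ℝ) := by
      have : ((q * m : ℕ) : ℝ) ≤ ((2 * L : ℕ) : ℝ) := by
        apply Nat.cast_le.2; omega
      push_cast at this ⊢
      linarith
    refine step_aux hb hy hQ1 hQ hSt hL hbL hMN hm1 (by norm_num) (by norm_num)
      (norm_one_sub_exp_le th (q * m) (m * round ((q : ℝ) * (th / (2 * π))))) ?_ ?_ ?_
    · have e1 : |((q * m : ℕ) : ℝ) * (th / (2 * π)) - ((m * round ((q : ℝ) * (th / (2 * π))) : ℤ) : ℝ)|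
          = m * |(q : ℝ) * (th / (2 * π)) - round ((q : ℝ) * (th / (2 * π)))| := by
        have e0 : ((q * m : ℕ) : ℝ) * (th / (2 * π)) -
            ((m * round ((q : ℝ) * (th / (2 * π))) : ℤ) : ℝ) =
            m * ((q : ℝ) * (th / (2 * π)) - round ((q : ℝ) * (th / (2 * π)))) := by
          push_cast; ring
        rw [e0, abs_mul, Nat.abs_cast]
      have e2 : (m : ℝ) ≤ y ^ (8:ℝ) := (Nat.cast_le.2 hm3).trans hL
      rw [e1]
      calc 2 * π * (m * |(q : ℝ) * (th / (2 * π)) - round ((q : ℝ) * (th / (2 * π)))|) * y ^ (-12 : ℝ)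
          ≤ y ^ (0.6 : ℝ) * (y ^ (8:ℝ) * y ^ (-21:ℝ)) * y ^ (-12 : ℝ) := by gcongr
        _ = y ^ (-24.4 : ℝ) := by rw [hyy, hyy, hyy]; norm_num
        _ ≤ y ^ (-12 * 2.03 : ℝ) := Real.rpow_le_rpow_of_exponent_le hy1 (by norm_num)
    · calc ((q * m : ℕ) : ℝ) ≤ 2 * y ^ (8:ℝ) := hT2
        _ ≤ y ^ (1 : ℝ) * y ^ (8:ℝ) := by gcongr; rw [Real.rpow_one]; linarith
        _ = y ^ (9 : ℝ) := by rw [hyy]; norm_num
        _ ≤ y ^ (21:ℝ) := Real.rpow_le_rpow_of_exponent_le hy1 (by norm_num)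
    · calc 3 * ((L : ℕ) : ℝ) + ((q * m : ℕ) : ℝ) ≤ 5 * y ^ (8:ℝ) := by linarith
        _ ≤ y ^ (1 : ℝ) * y ^ (8:ℝ) := by gcongr; rw [Real.rpow_one]; linarith
        _ = y ^ (9 : ℝ) := by rw [hyy]; norm_num
        _ ≤ y ^ (8 * 2.03 : ℝ) := Real.rpow_le_rpow_of_exponent_le hy1 (by norm_num)

/-- iteration -/
theorem Has.iterate {b th y0 Q0 : ℝ} (hb : 3 / 2 ≤ b) (hy : 90 ≤ y0) (hQ1 : 1 ≤ Q0)
    (hQ : Q0 ≤ y0 ^ (3:ℝ)) (h : Has b th y0 Q0) (k : ℕ) :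
    ∃ y Q, y0 ≤ y ∧ (2.03 : ℝ) ^ k * Real.log y0 ≤ Real.log y ∧ 1 ≤ Q ∧ Q ≤ y ^ (3:ℝ) ∧
      Q + 1 = 2 ^ k * (Q0 + 1) ∧ Has b th y Q := by
  induction k with
  | zero => exact ⟨y0, Q0, le_rfl, by simp, hQ1, hQ, by simp, h⟩
  | succ k ih =>
    obtain ⟨y, Q, hy', hlog, hQ1', hQ', hQeq, hHas⟩ := ih
    have hy90 : 90 ≤ y := hy.trans hy'
    have hy0' : 0 < y := by linarith
    have hy1 : 1 ≤ y := by linarith
    obtain ⟨y', hyy', hH⟩ := hHas.step hb hy90 hQ1' hQ'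
    have h1 : y ≤ y ^ (2.03:ℝ) := by
      calc y = y ^ (1:ℝ) := (Real.rpow_one y).symm
        _ ≤ y ^ (2.03:ℝ) := Real.rpow_le_rpow_of_exponent_le hy1 (by norm_num)
    have hy'0 : 0 < y' := by linarith
    refine ⟨y', 2 * Q + 1, by linarith, ?_, by linarith, ?_, ?_, hH⟩
    · calc (2.03 : ℝ) ^ (k + 1) * Real.log y0 = 2.03 * (2.03 ^ k * Real.log y0) := by ring
        _ ≤ 2.03 * Real.log y := by gcongr
        _ = Real.log (y ^ (2.03:ℝ)) := (Real.log_rpow hy0' _).symm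
        _ ≤ Real.log y' := Real.log_le_log (by positivity) hyy'
    · calc 2 * Q + 1 ≤ 3 * Q := by linarith
        _ ≤ 3 * y ^ (3:ℝ) := by gcongr
        _ ≤ y ^ (1 : ℝ) * y ^ (3:ℝ) := by gcongr; rw [Real.rpow_one]; linarith
        _ = y ^ (4 : ℝ) := by rw [← Real.rpow_add hy0']; norm_num
        _ ≤ y ^ (2.03 * 3 : ℝ) := Real.rpow_le_rpow_of_exponent_le hy1 (by norm_num)
        _ = (y ^ (2.03:ℝ)) ^ (3:ℝ) := Real.rpow_mul hy0'.le _ _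
        _ ≤ y' ^ (3:ℝ) := by gcongr
    · rw [pow_succ]; linarith

/-- the outcome of the iteration -/
theorem Has.limit {b th y0 Q0 : ℝ} (hb : 3 / 2 ≤ b) (hy : 90 ≤ y0) (hQ1 : 1 ≤ Q0)
    (hQ : Q0 ≤ y0 ^ (3:ℝ)) (h : Has b th y0 Q0) :
    ∀ ε : ℝ, 0 < ε → ∀ Y : ℝ, ∃ y Q, Y ≤ y ∧ 1 ≤ Q ∧ Q ≤ ε * Real.log y ∧ Has b th y Q := by
  intro ε hε Y
  have hlog0 : 0 < Real.log y0 := Real.log_pos (by linarith)
  -- choose k
  have h1 : Tendsto (fun k : ℕ => ε * Real.log y0 * (2.03 / 2 : ℝ) ^ k) atTop atTop :=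
    (tendsto_pow_atTop_atTop_of_one_lt (by norm_num)).const_mul_atTop (by positivity)
  have h2 : Tendsto (fun k : ℕ => (2.03 : ℝ) ^ k * Real.log y0) atTop atTop :=
    (tendsto_pow_atTop_atTop_of_one_lt (by norm_num)).atTop_mul_const hlog0
  obtain ⟨k, hk1, hk2⟩ := ((h1.eventually_ge_atTop (Q0 + 1)).and
    (h2.eventually_ge_atTop (Real.log (max Y 1)))).exists
  obtain ⟨y, Q, hy', hlog, hQ1', hQ', hQeq, hHas⟩ := h.iterate hb hy hQ1 hQ k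
  have hy0' : 0 < y := by linarith
  refine ⟨y, Q, ?_, hQ1', ?_, hHas⟩
  · have h3 : Real.log (max Y 1) ≤ Real.log y := hk2.trans hlog
    have h4 := (Real.log_le_log_iff (by positivity) hy0').1 h3
    exact (le_max_left _ _).trans h4
  · calc Q ≤ 2 ^ k * (Q0 + 1) := by linarith
      _ ≤ 2 ^ k * (ε * Real.log y0 * (2.03 / 2 : ℝ) ^ k) := by gcongr
      _ = ε * (2.03 ^ k * Real.log y0) := by
          rw [div_pow]; field_simp
      _ ≤ ε * Real.log y := by gcongr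

end Vale.Agent.P105
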