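import Mathlib
import Vale.Agent.P105.Core

/-! The test estimate (P105): first and second moments of lacunary cosine sums. -/

open Real Finset Filter Topology

namespace Vale.Agent.P105

section
variable {b : ℝ} {f : ℝ → ℝ}

theorem f_iter (hb0 : 0 < b) (hrec : ∀ x, f x = cos x * f (b⁻¹ * x)) (V : ℝ) (n : ℤ) (k : ℕ) :
    f (2 * π * (V * b ^ n)) = (∏ j ∈ range k, cos (2 * π * (V * b ^ (n - (j : ℤ))))) *
      f (2 * π * (V * b ^ (n - (k : ℤ)))) := by
  induction k with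
  | zero => simp
  | succ k ih =>
    have h1 : b ^ (n - ((k + 1 : ℕ) : ℤ)) = b⁻¹ * b ^ (n - (k : ℤ)) := by
      rw [← zpow_neg_one, ← zpow_add₀ hb0.ne']
      congr 1
      push_cast
      ring
    have h2 : 2 * π * (V * b ^ (n - ((k + 1 : ℕ) : ℤ))) =
        b⁻¹ * (2 * π * (V * b ^ (n - (k : ℤ)))) := by rw [h1]; ring
    rw [prod_range_succ, ih, hrec (2 * π * (V * b ^ (n - (k : ℤ)))), h2]
    ring

theorem f_lim (hb : 3 / 2 ≤ b) (hlim : Tendsto f (𝓝 0) (𝓝 1)) (V : ℝ) (n : ℤ) :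
    Tendsto (fun k : ℕ => f (2 * π * (V * b ^ (n - (k : ℤ))))) atTop (𝓝 1) := by
  have hb0 : 0 < b := by linarith
  apply hlim.comp
  have h1 : Tendsto (fun k : ℕ => (b⁻¹) ^ k) atTop (𝓝 0) := by
    apply tendsto_pow_atTop_nhds_zero_of_lt_one (by positivity)
    rw [inv_lt_one₀ hb0]; linarith
  have h2 : Tendsto (fun k : ℕ => (2 * π * (V * b ^ n)) * (b⁻¹) ^ k) atTop (𝓝 0) := by
    simpa using h1.const_mul (2 * π * (V * b ^ n))
  refine h2.congr (fun k => ?_)
  rw [zpow_sub₀ hb0.ne', zpow_natCast, inv_pow]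
  ring

/-- Lower bound for `f²` in terms of the sum of squared tangents. -/
theorem f_sq_lower (hb : 3 / 2 ≤ b) (hrec : ∀ x, f x = cos x * f (b⁻¹ * x))
    (hlim : Tendsto f (𝓝 0) (𝓝 1)) (V : ℝ) (n : ℤ) (Q' : ℝ)
    (hc : ∀ i : ℤ, cos (2 * π * (V * b ^ i)) ≠ 0)
    (hQ : ∀ F : Finset ℤ, (∀ i ∈ F, i ≤ n) → ∑ i ∈ F, tan (2 * π * (V * b ^ i)) ^ 2 ≤ Q') :
    exp (-Q') ≤ f (2 * π * (V * b ^ n)) ^ 2 := by
  have hb0 : 0 < b := by linarith
  have h1 : ∀ k : ℕ, exp (-Q') * f (2 * π * (V * b ^ (n - (k : ℤ)))) ^ 2 ≤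
      f (2 * π * (V * b ^ n)) ^ 2 := by
    intro k
    rw [f_iter hb0 hrec V n k, mul_pow, ← prod_pow]
    apply mul_le_mul_of_nonneg_right _ (sq_nonneg _)
    have h2 : exp (-∑ j ∈ range k, tan (2 * π * (V * b ^ (n - (j : ℤ)))) ^ 2) ≤
        ∏ j ∈ range k, cos (2 * π * (V * b ^ (n - (j : ℤ)))) ^ 2 := by
      rw [← sum_neg_distrib, Real.exp_sum]
      apply Finset.prod_le_prod
      · intro j _; positivity
      · intro j _
        have hcj := hc (n - (j : ℤ))
        have h3 := Real.inv_one_add_tan_sq hcj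
        rw [← h3, Real.exp_neg]
        apply inv_anti₀ (by positivity)
        have := Real.add_one_le_exp (tan (2 * π * (V * b ^ (n - (j : ℤ)))) ^ 2)
        linarith
    refine le_trans (Real.exp_le_exp.2 (neg_le_neg ?_)) h2
    have h4 : ∑ j ∈ range k, tan (2 * π * (V * b ^ (n - (j : ℤ)))) ^ 2 =
        ∑ i ∈ (range k).image (fun j : ℕ => n - (j : ℤ)), tan (2 * π * (V * b ^ i)) ^ 2 := by
      rw [sum_image]
      intro i _ j _ hij
      simpa using hij
    rw [h4]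
    apply hQ
    intro i hi
    rw [mem_image] at hi
    obtain ⟨j, _, rfl⟩ := hi
    omega
  have h2 : Tendsto (fun k : ℕ => exp (-Q') * f (2 * π * (V * b ^ (n - (k : ℤ)))) ^ 2) atTop
      (𝓝 (exp (-Q') * 1 ^ 2)) := ((f_lim hb hlim V n).pow 2).const_mul _
  have := le_of_tendsto' h2 h1
  simpa using this

end

section
variable {b th U : ℝ} {M N : ℕ} {om Q : ℝ} {f : ℝ → ℝ}

theorem prod_one_add_le_exp {s : Finset ℕ} (g : ℕ → ℝ) (h : ∀ j ∈ s, -1 ≤ g j) :
    ∏ j ∈ s, (1 + g j) ≤ exp (∑ j ∈ s, |g j|) := by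
  rw [Real.exp_sum]
  apply Finset.prod_le_prod
  · intro j hj; linarith [h j hj]
  · intro j _
    have := Real.add_one_le_exp (|g j|)
    linarith [le_abs_self (g j)]

/-- The decorrelation estimate. `s = 1` or `-1`. -/
theorem St.decor (hb : 3 / 2 ≤ b) (h : St b th U M N om Q) (h0 : 0 < om) (hQ : 1 ≤ Q)
    (hsm : 24 * om * √Q ≤ 1 / 100) (hMN : 1 ≤ M + N)
    (hrec : ∀ x, f x = cos x * f (b⁻¹ * x)) (hlim : Tendsto f (𝓝 0) (𝓝 1))
    {m e : ℕ} (hm : M + N ≤ m) {n : ℤ} (hn : n < (N : ℤ) + e)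
    (hpos : 0 ≤ f (2 * π * (U * b ^ n)) * f (2 * π * (U * b ^ (n + m)))) (s : ℝ)
    (hs : s = 1 ∨ s = -1) :
    f (2 * π * (U * b ^ n) - s * (2 * π * (U * b ^ (n + m)))) ≤
      exp (48 * om * √((M + N : ℕ) * Q) + 576 * om ^ 2 * e) *
      (f (2 * π * (U * b ^ n)) * f (2 * π * (U * b ^ (n + m)))) := by
  have hb0 : 0 < b := by linarith
  have hsq : (1:ℝ) ≤ √Q := by rw [Real.one_le_sqrt]; exact hQ
  have hom : om ≤ 1 / 1000 := by nlinarith
  set E := 48 * om * √((M + N : ℕ) * Q) + 576 * om ^ 2 * e with hE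
  set V := U * (1 - s * b ^ m) with hV
  have key : ∀ i : ℤ, 2 * π * (V * b ^ i) =
      2 * π * (U * b ^ i) - s * (2 * π * (U * b ^ (i + m))) := by
    intro i
    rw [hV, zpow_add₀ hb0.ne', zpow_natCast]; ring
  have hcos : ∀ i : ℤ, cos (2 * π * (V * b ^ i)) =
      cos (2 * π * (U * b ^ i)) * cos (2 * π * (U * b ^ (i + m))) *
      (1 + s * (tan (2 * π * (U * b ^ i)) * tan (2 * π * (U * b ^ (i + m))))) := by
    intro i
    rw [key]
    rcases hs with rfl | rfl
    · rw [one_mul, cos_sub_tan (h.cos_ne i) (h.cos_ne (i + m))]; ring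
    · have : 2 * π * (U * b ^ i) - -1 * (2 * π * (U * b ^ (i + (m:ℤ)))) =
        2 * π * (U * b ^ i) + 2 * π * (U * b ^ (i + (m:ℤ))) := by ring
      rw [this, cos_add_tan (h.cos_ne i) (h.cos_ne (i + m))]; ring
  have hpq := h.pq_le hb h0 hom hQ hm
  have habs : |s| = 1 := by rcases hs with rfl | rfl <;> simp
  -- the finite identity
  have hfin : ∀ k : ℕ, f (2 * π * (V * b ^ n)) *
      (f (2 * π * (U * b ^ (n - (k : ℤ)))) * f (2 * π * (U * b ^ (n + m - (k : ℤ))))) =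
      (f (2 * π * (U * b ^ n)) * f (2 * π * (U * b ^ (n + m)))) *
      ((∏ j ∈ range k, (1 + s * (tan (2 * π * (U * b ^ (n - (j : ℤ)))) *
        tan (2 * π * (U * b ^ (n - (j : ℤ) + m)))))) * f (2 * π * (V * b ^ (n - (k : ℤ))))) := by
    intro k
    rw [f_iter hb0 hrec V n k, f_iter hb0 hrec U n k, f_iter hb0 hrec U (n + m) k]
    simp_rw [hcos]
    rw [prod_mul_distrib, prod_mul_distrib]
    have : ∀ j : ℕ, n + (m:ℤ) - (j:ℤ) = n - (j:ℤ) + m := by intro j; ring
    simp_rw [this]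
    ring
  have hprod : ∀ k : ℕ, ∏ j ∈ range k, (1 + s * (tan (2 * π * (U * b ^ (n - (j : ℤ)))) *
        tan (2 * π * (U * b ^ (n - (j : ℤ) + m))))) ≤ exp E := by
    intro k
    refine le_trans (prod_one_add_le_exp _ ?_) ?_
    · intro j _
      have h1 := hpq (n - (j : ℤ))
      have h2 : |s * (tan (2 * π * (U * b ^ (n - (j : ℤ)))) *
        tan (2 * π * (U * b ^ (n - (j : ℤ) + m))))| ≤ 1 / 100 := by
        rw [abs_mul, habs, one_mul]; linarith
      have := (abs_le.1 h2).1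
      linarith
    · apply Real.exp_le_exp.2
      have h3 : ∀ j ∈ range k, |s * (tan (2 * π * (U * b ^ (n - (j : ℤ)))) *
        tan (2 * π * (U * b ^ (n - (j : ℤ) + m))))| =
        |tan (2 * π * (U * b ^ (n - (j : ℤ)))) * tan (2 * π * (U * b ^ (n - (j : ℤ) + m)))| := by
        intro j _
        rw [abs_mul, habs, one_mul]
      rw [sum_congr rfl h3]
      have h4 : ∑ j ∈ range k, |tan (2 * π * (U * b ^ (n - (j : ℤ)))) *
          tan (2 * π * (U * b ^ (n - (j : ℤ) + m)))| =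
          ∑ i ∈ (range k).image (fun j : ℕ => n - (j : ℤ)),
            |tan (2 * π * (U * b ^ i)) * tan (2 * π * (U * b ^ (i + m)))| := by
        rw [sum_image]
        intro i _ j _ hij
        simpa using hij
      rw [h4]
      apply h.cross_le hb h0 hom hQ hMN hm e
      intro i hi
      rw [mem_image] at hi
      obtain ⟨j, _, rfl⟩ := hi
      omega
  have l1 := f_lim hb hlim U n
  have l2 := f_lim hb hlim U (n + m)
  have l3 := f_lim hb hlim V n
  have ev : ∀ᶠ k : ℕ in atTop, 0 ≤ f (2 * π * (V * b ^ (n - (k : ℤ)))) := by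
    have := l3.eventually (lt_mem_nhds (show (0:ℝ) < 1 by norm_num))
    filter_upwards [this] with k hk
    exact hk.le
  have hle : ∀ᶠ k : ℕ in atTop, f (2 * π * (V * b ^ n)) *
      (f (2 * π * (U * b ^ (n - (k : ℤ)))) * f (2 * π * (U * b ^ (n + m - (k : ℤ))))) ≤
      (f (2 * π * (U * b ^ n)) * f (2 * π * (U * b ^ (n + m)))) *
      (exp E * f (2 * π * (V * b ^ (n - (k : ℤ))))) := by
    filter_upwards [ev] with k hk
    rw [hfin k]
    apply mul_le_mul_of_nonneg_left _ hpos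
    exact mul_le_mul_of_nonneg_right (hprod k) hk
  have t1 : Tendsto (fun k : ℕ => f (2 * π * (V * b ^ n)) *
      (f (2 * π * (U * b ^ (n - (k : ℤ)))) * f (2 * π * (U * b ^ (n + m - (k : ℤ)))))) atTop
      (𝓝 (f (2 * π * (V * b ^ n)) * (1 * 1))) := (l1.mul l2).const_mul _
  have t2 : Tendsto (fun k : ℕ => (f (2 * π * (U * b ^ n)) * f (2 * π * (U * b ^ (n + m)))) *
      (exp E * f (2 * π * (V * b ^ (n - (k : ℤ)))))) atTop
      (𝓝 ((f (2 * π * (U * b ^ n)) * f (2 * π * (U * b ^ (n + m)))) * (exp E * 1))) :=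
    (l3.const_mul _).const_mul _
  have := le_of_tendsto_of_tendsto t1 t2 hle
  rw [← key]
  linarith

/-- Same sign beyond the window. -/
theorem St.same_sign (hb : 3 / 2 ≤ b) (h : St b th U M N om Q) (h0 : 0 < om) (hom : om ≤ 1 / 1000)
    (hrec : ∀ x, f x = cos x * f (b⁻¹ * x)) (i j : ℕ) :
    0 ≤ f (2 * π * (U * b ^ ((N : ℤ) + i))) * f (2 * π * (U * b ^ ((N : ℤ) + j))) := by
  have hb0 : 0 < b := by linarith
  -- each value is a nonnegative multiple of the value at `N`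
  have hmul : ∀ k : ℕ, ∃ r : ℝ, 0 ≤ r ∧
      f (2 * π * (U * b ^ ((N : ℤ) + k))) = r * f (2 * π * (U * b ^ ((N : ℤ)))) := by
    intro k
    refine ⟨∏ j ∈ range k, cos (2 * π * (U * b ^ ((N : ℤ) + k - (j : ℤ)))), ?_, ?_⟩
    · apply prod_nonneg
      intro j hj
      rw [mem_range] at hj
      have hi : (N : ℤ) ≤ (N : ℤ) + k - (j : ℤ) := by omega
      set i := (N : ℤ) + k - (j : ℤ)
      obtain ⟨S, w, htr, hS, hw⟩ := h.tr
      obtain ⟨c, hc⟩ := htr i
      have h1 : |U * b ^ i - c| ≤ 3 * om := by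
        have e : U * b ^ i - c = -(S * b ^ (-i)) -
            2 * (w * Complex.exp (Complex.I * ((th * (i : ℝ) : ℝ) : ℂ))).re := by linarith
        have h2 : |S * b ^ (-i)| ≤ om := by
          rw [abs_mul, abs_of_pos (zpow_pos hb0 _)]
          have h3 : b ^ (-i) * b ^ N ≤ 1 := by
            rw [← zpow_natCast, ← zpow_add₀ hb0.ne']
            apply zpow_le_one_of_nonpos₀ (by linarith) (by omega)
          have h4 := zpow_pos hb0 (-i)
          calc |S| * b ^ (-i) ≤ om * b ^ N * b ^ (-i) := by gcongr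
            _ = om * (b ^ (-i) * b ^ N) := by ring
            _ ≤ om * 1 := by gcongr
            _ = om := by ring
        have h3 : |2 * (w * Complex.exp (Complex.I * ((th * (i : ℝ) : ℝ) : ℂ))).re| ≤ 2 * om := by
          rw [abs_mul, abs_of_pos (by norm_num : (0:ℝ) < 2)]
          have h4 := Complex.abs_re_le_norm
            (w * Complex.exp (Complex.I * ((th * (i : ℝ) : ℝ) : ℂ)))
          rw [norm_mul, Complex.norm_exp_I_mul_ofReal, mul_one] at h4
          linarith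
        rw [e]
        have h5 := abs_sub (-(S * b ^ (-i)))
            (2 * (w * Complex.exp (Complex.I * ((th * (i : ℝ) : ℝ) : ℂ))).re)
        rw [abs_neg] at h5
        linarith
      have e1 : cos (2 * π * (U * b ^ i)) = cos (2 * π * (U * b ^ i - c)) := by
        have : 2 * π * (U * b ^ i - c) = 2 * π * (U * b ^ i) - (c : ℝ) * (2 * π) := by ring
        rw [this, Real.cos_sub_int_mul_two_pi]
      rw [e1]
      apply Real.cos_nonneg_of_mem_Icc
      have hpi := Real.pi_pos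
      rw [Set.mem_Icc]
      have h6 := abs_le.1 h1
      constructor <;> nlinarith [h6.1, h6.2]
    · have := f_iter hb0 hrec U ((N : ℤ) + k) k
      rw [this, add_sub_cancel_right]
  obtain ⟨r1, hr1, e1⟩ := hmul i
  obtain ⟨r2, hr2, e2⟩ := hmul j
  rw [e1, e2]
  have : r1 * f (2 * π * (U * b ^ ((N : ℤ)))) * (r2 * f (2 * π * (U * b ^ ((N : ℤ))))) =
    (r1 * r2) * (f (2 * π * (U * b ^ ((N : ℤ)))) ^ 2) := by ring
  rw [this]
  positivity

end

end Vale.Agent.P105
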