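import Mathlib
import Vale.Agent.P105.TestEst

/-! First and second moment of the lacunary cosine sum (P105). -/

open Real Finset Filter Topology MeasureTheory

namespace Vale.Agent.P105

variable {b th U : ℝ} {M N : ℕ} {om Q : ℝ} {f : ℝ → ℝ}

theorem integrable_cos_mul (nu : Measure ℝ) [IsProbabilityMeasure nu] (a : ℝ) :
    Integrable (fun y => cos (a * y)) nu := by
  apply Integrable.of_bound (C := 1)
  · fun_prop
  · exact Eventually.of_forall (fun y => by simpa using Real.abs_cos_le_one _)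

theorem integrable_cos_cos (nu : Measure ℝ) [IsProbabilityMeasure nu] (a c : ℝ) :
    Integrable (fun y => cos (a * y) * cos (c * y)) nu := by
  apply Integrable.of_bound (C := 1)
  · fun_prop
  · refine Eventually.of_forall (fun y => ?_)
    rw [norm_mul]
    have h1 : ‖cos (a * y)‖ ≤ 1 := by simpa using Real.abs_cos_le_one _
    have h2 : ‖cos (c * y)‖ ≤ 1 := by simpa using Real.abs_cos_le_one _
    calc _ ≤ (1:ℝ) * 1 := mul_le_mul h1 h2 (norm_nonneg _) (by norm_num)
      _ = 1 := by norm_num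

theorem integral_cos_cos (nu : Measure ℝ) [IsProbabilityMeasure nu]
    (hf : ∀ x, f x = ∫ y, cos (x * y) ∂nu) (a c : ℝ) :
    ∫ y, cos (a * y) * cos (c * y) ∂nu = (f (a - c) + f (a + c)) / 2 := by
  rw [hf, hf, ← integral_add (integrable_cos_mul nu _) (integrable_cos_mul nu _),
    ← integral_div]
  congr 1
  ext y
  rw [sub_mul, add_mul, Real.cos_sub, Real.cos_add]
  ring

theorem f_abs_le (nu : Measure ℝ) [IsProbabilityMeasure nu]
    (hf : ∀ x, f x = ∫ y, cos (x * y) ∂nu) (x : ℝ) : |f x| ≤ 1 := by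
  rw [hf]
  calc |∫ y, cos (x * y) ∂nu| ≤ ∫ y, |cos (x * y)| ∂nu := abs_integral_le_integral_abs
    _ ≤ ∫ _y, (1:ℝ) ∂nu := by
        apply integral_mono_of_nonneg
        · exact Eventually.of_forall (fun y => abs_nonneg _)
        · exact integrable_const _
        · exact Eventually.of_forall (fun y => Real.abs_cos_le_one _)
    _ = 1 := by simp

theorem f_even (nu : Measure ℝ) (hf : ∀ x, f x = ∫ y, cos (x * y) ∂nu) (x : ℝ) :
    f (-x) = f x := by
  rw [hf, hf]
  congr 1
  ext y
  rw [neg_mul, Real.cos_neg]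

theorem St.moments (nu : Measure ℝ) [IsProbabilityMeasure nu]
    (hf : ∀ x, f x = ∫ y, cos (x * y) ∂nu)
    (hb : 3 / 2 ≤ b) (h : St b th U M N om Q) (h0 : 0 < om) (hQ : 1 ≤ Q)
    (hsm : 24 * om * √Q ≤ 1 / 100) (hMN : 1 ≤ M + N)
    (hrec : ∀ x, f x = cos x * f (b⁻¹ * x)) (hlim : Tendsto f (𝓝 0) (𝓝 1)) (J : ℕ) :
    ∃ s : ℝ, (s = 1 ∨ s = -1) ∧
      J * exp (-((Q + 576 * om ^ 2 * J) / 2)) ≤
        ∫ x, s * ∑ n ∈ range J, cos (2 * π * (U * b ^ (N + n)) * x) ∂nu ∧
      ∫ x, (s * ∑ n ∈ range J, cos (2 * π * (U * b ^ (N + n)) * x)) ^ 2 ∂nu ≤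
        2 * (M + N : ℕ) * J + exp (48 * om * √((M + N : ℕ) * Q) + 576 * om ^ 2 * J) *
        (∫ x, s * ∑ n ∈ range J, cos (2 * π * (U * b ^ (N + n)) * x) ∂nu) ^ 2 := by
  have hb0 : 0 < b := by linarith
  have hsq : (1:ℝ) ≤ √Q := by rw [Real.one_le_sqrt]; exact hQ
  have hom : om ≤ 1 / 1000 := by nlinarith
  set E := 48 * om * √((M + N : ℕ) * Q) + 576 * om ^ 2 * J with hE
  set Q' := Q + 576 * om ^ 2 * J with hQ'
  set B : ℕ → ℝ := fun n => f (2 * π * (U * b ^ (N + n))) with hB
  have hBz : ∀ n : ℕ, B n = f (2 * π * (U * b ^ ((N : ℤ) + n))) := by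
    intro n
    rw [hB]
    simp only
    rw [← Nat.cast_add, zpow_natCast]
  have hsame : ∀ i j : ℕ, 0 ≤ B i * B j := by
    intro i j
    rw [hBz, hBz]
    exact h.same_sign hb h0 hom hrec i j
  have hlow : ∀ n, n < J → exp (-Q') ≤ B n ^ 2 := by
    intro n hn
    rw [hBz]
    apply f_sq_lower hb hrec hlim U _ Q' h.cos_ne
    intro F hF
    apply h.sum_le' hb h0 hom J F
    intro i hi
    have := hF i hi
    omega
  -- choose the sign
  obtain ⟨s, hs, hsB⟩ : ∃ s : ℝ, (s = 1 ∨ s = -1) ∧ ∀ n < J, s * B n = |B n| := by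
    by_cases hneg : ∃ n < J, B n < 0
    · obtain ⟨n0, hn0, hBn0⟩ := hneg
      refine ⟨-1, Or.inr rfl, fun n _ => ?_⟩
      have : B n ≤ 0 := by
        by_contra hc
        push_neg at hc
        have := hsame n0 n
        nlinarith
      rw [abs_of_nonpos this]; ring
    · push_neg at hneg
      refine ⟨1, Or.inl rfl, fun n hn => ?_⟩
      rw [abs_of_nonneg (hneg n hn)]; ring
  have hs2 : s ^ 2 = 1 := by rcases hs with rfl | rfl <;> norm_num
  have habsB : ∀ n < J, exp (-(Q' / 2)) ≤ |B n| := by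
    intro n hn
    have h1 := hlow n hn
    have h2 : exp (-(Q' / 2)) ^ 2 = exp (-Q') := by
      rw [← Real.exp_nat_mul]; congr 1; push_cast; ring
    rw [← h2, ← sq_abs (B n)] at h1
    exact (sq_le_sq₀ (Real.exp_pos _).le (abs_nonneg _)).1 h1
  have hmean : ∫ x, s * ∑ n ∈ range J, cos (2 * π * (U * b ^ (N + n)) * x) ∂nu =
      ∑ n ∈ range J, |B n| := by
    rw [integral_const_mul, integral_finset_sum _ (fun n _ => integrable_cos_mul nu _), mul_sum]
    apply sum_congr rfl
    intro n hn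
    rw [mem_range] at hn
    rw [← hsB n hn, hB]
    simp only
    rw [hf]
  refine ⟨s, hs, ?_, ?_⟩
  · rw [hmean]
    calc J * exp (-(Q' / 2)) = ∑ n ∈ range J, exp (-(Q' / 2)) := by simp
      _ ≤ ∑ n ∈ range J, |B n| := sum_le_sum (fun n hn => habsB n (mem_range.1 hn))
  · rw [hmean]
    have hsqint : ∫ x, (s * ∑ n ∈ range J, cos (2 * π * (U * b ^ (N + n)) * x)) ^ 2 ∂nu =
        ∑ n ∈ range J, ∑ k ∈ range J, (f (2 * π * (U * b ^ (N + n)) - 2 * π * (U * b ^ (N + k))) +
          f (2 * π * (U * b ^ (N + n)) + 2 * π * (U * b ^ (N + k)))) / 2 := by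
      have e1 : ∀ x, (s * ∑ n ∈ range J, cos (2 * π * (U * b ^ (N + n)) * x)) ^ 2 =
          ∑ n ∈ range J, ∑ k ∈ range J, cos (2 * π * (U * b ^ (N + n)) * x) *
            cos (2 * π * (U * b ^ (N + k)) * x) := by
        intro x
        rw [mul_pow, hs2, one_mul, sq, sum_mul_sum]
      simp_rw [e1]
      rw [integral_finset_sum _ (fun n _ => integrable_finset_sum _
        (fun k _ => integrable_cos_cos nu _ _))]
      apply sum_congr rfl
      intro n _
      rw [integral_finset_sum _ (fun k _ => integrable_cos_cos nu _ _)]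
      apply sum_congr rfl
      intro k _
      rw [integral_cos_cos nu hf]
    rw [hsqint]
    -- pairwise bound
    have hfar : ∀ n k : ℕ, n < J → n + (M + N) ≤ k →
        (f (2 * π * (U * b ^ (N + n)) - 2 * π * (U * b ^ (N + k))) +
          f (2 * π * (U * b ^ (N + n)) + 2 * π * (U * b ^ (N + k)))) / 2 ≤
          exp E * (|B n| * |B k|) := by
      intro n k hn hk
      obtain ⟨m, rfl⟩ : ∃ m, k = n + m := ⟨k - n, by omega⟩
      have hm : M + N ≤ m := by omega
      have e1 : U * b ^ (N + n) = U * b ^ ((N : ℤ) + n) := by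
        rw [← Nat.cast_add, zpow_natCast]
      have e2 : U * b ^ (N + (n + m)) = U * b ^ ((N : ℤ) + n + m) := by
        rw [← Nat.cast_add, ← Nat.cast_add, zpow_natCast, add_assoc]
      have hp : 0 ≤ f (2 * π * (U * b ^ ((N : ℤ) + n))) * f (2 * π * (U * b ^ ((N : ℤ) + n + m))) := by
        have := hsame n (n + m)
        rw [hBz, hBz] at this
        push_cast at this
        rwa [← add_assoc] at this
      have d1 := h.decor (f := f) hb h0 hQ hsm hMN hrec hlim (e := J) hm (n := (N : ℤ) + n)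
        (by omega) hp 1 (Or.inl rfl)
      have d2 := h.decor (f := f) hb h0 hQ hsm hMN hrec hlim (e := J) hm (n := (N : ℤ) + n)
        (by omega) hp (-1) (Or.inr rfl)
      have e3 : |B n| * |B (n + m)| =
          f (2 * π * (U * b ^ ((N : ℤ) + n))) * f (2 * π * (U * b ^ ((N : ℤ) + n + m))) := by
        rw [← abs_mul, hBz, hBz]
        push_cast
        rw [← add_assoc, abs_of_nonneg hp]
      rw [e3, e1, e2]
      have e4 : 2 * π * (U * b ^ ((N : ℤ) + n)) + 2 * π * (U * b ^ ((N : ℤ) + n + m)) =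
        2 * π * (U * b ^ ((N : ℤ) + n)) - -1 * (2 * π * (U * b ^ ((N : ℤ) + n + m))) := by ring
      rw [e4]
      rw [one_mul] at d1
      linarith
    have hpair : ∀ n ∈ range J, ∀ k ∈ range J,
        (f (2 * π * (U * b ^ (N + n)) - 2 * π * (U * b ^ (N + k))) +
          f (2 * π * (U * b ^ (N + n)) + 2 * π * (U * b ^ (N + k)))) / 2 ≤
          (if k ∈ Finset.Ico (n + 1 - (M + N)) (n + (M + N)) then (1:ℝ) else 0) +
          exp E * (|B n| * |B k|) := by
      intro n hn k hk
      rw [mem_range] at hn hk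
      have hnn : 0 ≤ exp E * (|B n| * |B k|) := by positivity
      by_cases hnear : k ∈ Finset.Ico (n + 1 - (M + N)) (n + (M + N))
      · rw [if_pos hnear]
        have b1 := (abs_le.1 (f_abs_le nu hf
          (2 * π * (U * b ^ (N + n)) - 2 * π * (U * b ^ (N + k))))).2
        have b2 := (abs_le.1 (f_abs_le nu hf
          (2 * π * (U * b ^ (N + n)) + 2 * π * (U * b ^ (N + k))))).2
        linarith
      · rw [if_neg hnear, zero_add]
        rw [Finset.mem_Ico] at hnear
        rcases le_or_gt (n + (M + N)) k with h1 | h1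
        · exact hfar n k hn h1
        · have h2 : k + (M + N) ≤ n := by omega
          have := hfar k n hk h2
          have e5 : f (2 * π * (U * b ^ (N + n)) - 2 * π * (U * b ^ (N + k))) =
              f (2 * π * (U * b ^ (N + k)) - 2 * π * (U * b ^ (N + n))) := by
            rw [← f_even nu hf]; congr 1; ring
          rw [e5, add_comm (2 * π * (U * b ^ (N + n))), mul_comm |B n|]
          exact this
    calc _ ≤ ∑ n ∈ range J, ∑ k ∈ range J,
          ((if k ∈ Finset.Ico (n + 1 - (M + N)) (n + (M + N)) then (1:ℝ) else 0) +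
          exp E * (|B n| * |B k|)) := sum_le_sum (fun n hn => sum_le_sum (fun k hk => hpair n hn k hk))
      _ = ∑ n ∈ range J, ∑ k ∈ range J,
          (if k ∈ Finset.Ico (n + 1 - (M + N)) (n + (M + N)) then (1:ℝ) else 0) +
          exp E * (∑ n ∈ range J, |B n|) ^ 2 := by
          simp_rw [sum_add_distrib]
          congr 1
          rw [sq, sum_mul_sum, mul_sum]
          simp_rw [mul_sum]
      _ ≤ ∑ n ∈ range J, (2 * ((M + N : ℕ) : ℝ)) + exp E * (∑ n ∈ range J, |B n|) ^ 2 := by
          gcongr with n hn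
          rw [← sum_filter, sum_const, nsmul_eq_mul, mul_one]
          have h3 : (range J).filter (fun k => k ∈ Finset.Ico (n + 1 - (M + N)) (n + (M + N))) ⊆
              Finset.Ico (n + 1 - (M + N)) (n + (M + N)) := by
            intro k hk
            exact (mem_filter.1 hk).2
          have h4 := card_le_card h3
          rw [Nat.card_Ico] at h4
          have h5 : ((range J).filter
            (fun k => k ∈ Finset.Ico (n + 1 - (M + N)) (n + (M + N)))).card ≤ 2 * (M + N) := by omega
          exact_mod_cast h5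
      _ = 2 * (M + N : ℕ) * J + exp E * (∑ n ∈ range J, |B n|) ^ 2 := by
          rw [sum_const, card_range, nsmul_eq_mul]; ring

end Vale.Agent.P105
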