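import Mathlib
import Vale.Agent.P105.CharFun
import Vale.Agent.P105.Moments
import Vale.Agent.P105.Lebesgue
import Vale.Agent.P105.Iterate
import Vale.Agent.P105.FinalNum

/-! Assembly (P105). -/

open Real Finset Filter Topology MeasureTheory

namespace Vale.Agent.P105

theorem singular_of_has {b th : ℝ} (hb : 3 / 2 ≤ b)
    (H : ∀ Y : ℝ, ∃ y Q : ℝ, Y ≤ y ∧ 1 ≤ Q ∧ Q ≤ Real.log y ∧ Has b th y Q) :
    (bernoulliConv b⁻¹).MutuallySingular volume := by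
  have hb0 : 0 < b := by linarith
  have hb1 : 1 < b := by linarith
  have hl0 : 0 < b⁻¹ := by positivity
  have hl1 : b⁻¹ < 1 := inv_lt_one_of_one_lt₀ hb1
  haveI := bernoulliConv_prob b⁻¹
  have hR : 0 < (1 - b⁻¹)⁻¹ := by rw [inv_pos]; linarith
  apply singular_of_tests (bernoulliConv b⁻¹) (1 - b⁻¹)⁻¹ (bernoulliConv_supp hl0 hl1)
  intro ε hε
  obtain ⟨C, hC, hCb⟩ := lacunary_L2 hR hb1
  obtain ⟨y, Q, hYy, hQ1, hQl, U, M, N, hst, hMN, -, hMN2⟩ := H (90 + (2 * C + 3000) / ε)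
  have hd0 : 0 ≤ (2 * C + 3000) / ε := by positivity
  have hy90 : 90 ≤ y := by linarith
  have hy0 : 0 < y := by linarith
  have hy1 : (1:ℝ) ≤ y := by linarith
  have hyε : 2 * C + 3000 ≤ ε * y := by
    have : (2 * C + 3000) / ε ≤ y := by linarith
    rw [div_le_iff₀ hε] at this
    linarith
  have e12 : y ^ (-12 : ℝ) = (y ^ 12)⁻¹ := by
    rw [Real.rpow_neg hy0.le]
    congr 1
    exact_mod_cast Real.rpow_natCast y 12
  have e8 : y ^ (8 : ℝ) = y ^ 8 := by exact_mod_cast Real.rpow_natCast y 8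
  rw [e12] at hst
  rw [e8] at hMN
  have hQy : Q ≤ y := by
    have := Real.log_le_sub_one_of_pos hy0
    linarith
  obtain ⟨J, hJle, hJ10⟩ : ∃ J : ℕ, (J : ℝ) ≤ y ^ 22 ∧ y ^ 10 ≤ (J : ℝ) := by
    refine ⟨⌊y ^ 22⌋₊, Nat.floor_le (by positivity), ?_⟩
    have hJge := Nat.lt_floor_add_one (y ^ 22)
    have h1 : y ^ 11 ≤ y ^ 22 := pow_le_pow_right₀ hy1 (by norm_num)
    have h2 : 90 * y ^ 10 ≤ y ^ 11 := by
      rw [pow_succ]; nlinarith [pow_pos hy0 10]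
    have h3 : 1 ≤ y ^ 10 := one_le_pow₀ hy1
    linarith
  have hJpos : (0:ℝ) < J := lt_of_lt_of_le (by positivity) hJ10
  have hsm := num_sm hy90 (by linarith : 0 ≤ Q) hQy
  obtain ⟨s, hs, hm, hm2⟩ := hst.moments (f := phi b⁻¹) (bernoulliConv b⁻¹) (fun x => rfl) hb
    (by positivity) hQ1 hsm (by omega) (fun x => phi_rec hl0 hl1 x) (phi_tendsto hl0 hl1) J
  have hs2 : s ^ 2 = 1 := by rcases hs with rfl | rfl <;> norm_num
  have hfin := num_final hε hC hy90 hyε hQ1 hQl hMN (by positivity) hJ10 hJle hm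
  have hm0 := lt_of_lt_of_le (mul_pos hJpos (Real.exp_pos _)) hm
  refine ⟨fun x => s * ∑ n ∈ range J, cos (2 * π * (U * b ^ (N + n)) * x), by fun_prop,
    _, hm0, ?_, rfl, hm2.trans hfin.2⟩
  have h1 := hCb U N J (by
    have := hst.hU1
    have h3 : 1 ≤ b ^ N := one_le_pow₀ hb1.le
    nlinarith)
  have h2 : ∀ x, (s * ∑ n ∈ range J, cos (2 * π * (U * b ^ (N + n)) * x)) ^ 2 =
      (∑ n ∈ range J, cos (2 * π * (U * b ^ (N + n)) * x)) ^ 2 := by
    intro x; rw [mul_pow, hs2, one_mul]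
  simp_rw [h2]
  exact h1.trans hfin.1

end Vale.Agent.P105
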