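import Mathlib

/-! `L²` bound for lacunary cosine sums (P105). -/

open MeasureTheory Finset Real

namespace Vale.Agent.P105

theorem abs_integral_cos_le (R g : ℝ) (hg : g ≠ 0) :
    |∫ x in (-R)..R, cos (g * x)| ≤ 2 / |g| := by
  have h1 : ∫ x in (-R)..R, cos (g * x) = g⁻¹ * (sin (g * R) - sin (g * (-R))) := by
    rw [intervalIntegral.integral_comp_mul_left (fun x => cos x) hg, integral_cos, smul_eq_mul]
  rw [h1, abs_mul, abs_inv, div_eq_inv_mul]
  gcongr
  have h2 := Real.abs_sin_le_one (g * R)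
  have h3 := Real.abs_sin_le_one (g * (-R))
  calc |sin (g * R) - sin (g * (-R))| ≤ |sin (g * R)| + |sin (g * (-R))| := abs_sub _ _
    _ ≤ 2 := by linarith

theorem abs_integral_cos_cos_le (R α β : ℝ) (h1 : α - β ≠ 0) (h2 : α + β ≠ 0) :
    |∫ x in (-R)..R, cos (α * x) * cos (β * x)| ≤ 1 / |α - β| + 1 / |α + β| := by
  have e : ∀ x, cos (α * x) * cos (β * x) = (1 / 2) * cos ((α - β) * x) + (1 / 2) * cos ((α + β) * x) := by
    intro x
    rw [sub_mul, add_mul, Real.cos_sub, Real.cos_add]; ring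
  simp_rw [e]
  rw [intervalIntegral.integral_add, intervalIntegral.integral_const_mul,
    intervalIntegral.integral_const_mul]
  · have k1 := abs_integral_cos_le R (α - β) h1
    have k2 := abs_integral_cos_le R (α + β) h2
    calc |1 / 2 * (∫ x in (-R)..R, cos ((α - β) * x)) + 1 / 2 * ∫ x in (-R)..R, cos ((α + β) * x)|
        ≤ |1 / 2 * (∫ x in (-R)..R, cos ((α - β) * x))| +
          |1 / 2 * ∫ x in (-R)..R, cos ((α + β) * x)| := abs_add_le _ _
      _ = 1 / 2 * |∫ x in (-R)..R, cos ((α - β) * x)| +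
          1 / 2 * |∫ x in (-R)..R, cos ((α + β) * x)| := by
          rw [abs_mul, abs_mul, abs_of_pos (by norm_num : (0:ℝ) < 1 / 2)]
      _ ≤ 1 / 2 * (2 / |α - β|) + 1 / 2 * (2 / |α + β|) := by gcongr
      _ = 1 / |α - β| + 1 / |α + β| := by ring
  · apply Continuous.intervalIntegrable; fun_prop
  · apply Continuous.intervalIntegrable; fun_prop

theorem freq_sep {b U : ℝ} (hb : 1 < b) {K : ℕ} (hU : 1 ≤ |U| * b ^ K) {n k : ℕ} (hnk : n < k) :
    (1 - b⁻¹) * b ^ k ≤ |2 * π * (U * b ^ (K + n)) - 2 * π * (U * b ^ (K + k))| ∧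
    (1 - b⁻¹) * b ^ k ≤ |2 * π * (U * b ^ (K + n)) + 2 * π * (U * b ^ (K + k))| := by
  have hb0 : 0 < b := by linarith
  have hpi : 1 ≤ 2 * π := by have := Real.pi_gt_three; linarith
  have hbi : b⁻¹ < 1 := inv_lt_one_of_one_lt₀ hb
  have hbk : b ^ n ≤ b⁻¹ * b ^ k := by
    obtain ⟨j, rfl⟩ : ∃ j, k = j + 1 := ⟨k - 1, by omega⟩
    have : b⁻¹ * b ^ (j + 1) = b ^ j := by rw [pow_succ]; field_simp
    rw [this]
    exact pow_le_pow_right₀ hb.le (by omega)
  have hn0 : 0 < b ^ n := by positivity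
  have hk0 : 0 < b ^ k := by positivity
  have hcoef : 1 ≤ |2 * π * (U * b ^ K)| := by
    rw [abs_mul (2 * π), abs_mul U, abs_of_pos (by linarith : 0 < 2 * π),
      abs_of_pos (by positivity : 0 < b ^ K)]
    nlinarith
  constructor
  · have e : 2 * π * (U * b ^ (K + n)) - 2 * π * (U * b ^ (K + k)) =
        (2 * π * (U * b ^ K)) * (b ^ n - b ^ k) := by rw [pow_add, pow_add]; ring
    rw [e, abs_mul]
    have h1 : (1 - b⁻¹) * b ^ k ≤ |b ^ n - b ^ k| := by
      rw [abs_sub_comm, le_abs]; left; linarith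
    have h2 : 0 ≤ (1 - b⁻¹) * b ^ k := mul_nonneg (by linarith) hk0.le
    nlinarith
  · have e : 2 * π * (U * b ^ (K + n)) + 2 * π * (U * b ^ (K + k)) =
        (2 * π * (U * b ^ K)) * (b ^ n + b ^ k) := by rw [pow_add, pow_add]; ring
    rw [e, abs_mul]
    have h1 : (1 - b⁻¹) * b ^ k ≤ |b ^ n + b ^ k| := by
      rw [le_abs]; left
      have : 0 < b⁻¹ := by positivity
      nlinarith
    have h2 : 0 ≤ (1 - b⁻¹) * b ^ k := mul_nonneg (by linarith) hk0.le
    nlinarith

theorem pair_bound_lt {b U R : ℝ} (hb : 1 < b) {K : ℕ} (hU : 1 ≤ |U| * b ^ K) {n k : ℕ}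
    (hnk : n < k) :
    |∫ x in (-R)..R, cos (2 * π * (U * b ^ (K + n)) * x) * cos (2 * π * (U * b ^ (K + k)) * x)| ≤
      2 / (1 - b⁻¹) * ((√b)⁻¹ ^ n * (√b)⁻¹ ^ k) := by
  have hb0 : 0 < b := by linarith
  have hbi : b⁻¹ < 1 := inv_lt_one_of_one_lt₀ hb
  obtain ⟨s1, s2⟩ := freq_sep hb hU hnk
  have hk0 : 0 < b ^ k := by positivity
  have hpos : 0 < (1 - b⁻¹) * b ^ k := mul_pos (by linarith) hk0
  have n1 : 2 * π * (U * b ^ (K + n)) - 2 * π * (U * b ^ (K + k)) ≠ 0 := by
    intro h; rw [h, abs_zero] at s1; linarith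
  have n2 : 2 * π * (U * b ^ (K + n)) + 2 * π * (U * b ^ (K + k)) ≠ 0 := by
    intro h; rw [h, abs_zero] at s2; linarith
  refine (abs_integral_cos_cos_le R _ _ n1 n2).trans ?_
  have hs1 : 1 < √b := by rw [Real.lt_sqrt (by norm_num)]; simpa using hb
  have hs0 : 0 < √b := by linarith
  have hbs : √b ^ n * √b ^ k ≤ b ^ k := by
    have : b ^ k = √b ^ k * √b ^ k := by
      rw [← mul_pow, Real.mul_self_sqrt hb0.le]
    rw [this]
    have h5 : √b ^ n ≤ √b ^ k := pow_le_pow_right₀ hs1.le hnk.le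
    gcongr
  calc 1 / |2 * π * (U * b ^ (K + n)) - 2 * π * (U * b ^ (K + k))| +
        1 / |2 * π * (U * b ^ (K + n)) + 2 * π * (U * b ^ (K + k))|
      ≤ 1 / ((1 - b⁻¹) * b ^ k) + 1 / ((1 - b⁻¹) * b ^ k) := by gcongr
    _ = 2 / (1 - b⁻¹) * (b ^ k)⁻¹ := by field_simp; ring
    _ ≤ 2 / (1 - b⁻¹) * (√b ^ n * √b ^ k)⁻¹ := by
        have : 0 < 1 - b⁻¹ := by linarith
        gcongr
    _ = 2 / (1 - b⁻¹) * ((√b)⁻¹ ^ n * (√b)⁻¹ ^ k) := by rw [mul_inv, inv_pow, inv_pow]

theorem lacunary_L2 {R b : ℝ} (hR : 0 < R) (hb : 1 < b) : ∃ C : ℝ, 0 < C ∧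
    ∀ (U : ℝ) (K J : ℕ), 1 ≤ |U| * b ^ K →
     ∫ x in (-R)..R, (∑ n ∈ Finset.range J, Real.cos (2 * Real.pi * (U * b ^ (K + n)) * x)) ^ 2
       ≤ C * J := by
  have hb0 : 0 < b := by linarith
  have hbi : b⁻¹ < 1 := inv_lt_one_of_one_lt₀ hb
  have hs1 : 1 < √b := by rw [Real.lt_sqrt (by norm_num)]; simpa using hb
  have hs0 : 0 < √b := by linarith
  have hsi : (√b)⁻¹ < 1 := inv_lt_one_of_one_lt₀ hs1
  set r := (√b)⁻¹ with hr
  have hr0 : 0 < r := by positivity
  set c := 2 / (1 - b⁻¹) with hc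
  have hc0 : 0 < c := by
    have : 0 < 1 - b⁻¹ := by linarith
    positivity
  refine ⟨2 * R + c * ((1 - r)⁻¹ * (1 - r)⁻¹), ?_, ?_⟩
  · have : 0 < 1 - r := by linarith
    positivity
  intro U K J hU
  have hexp : ∫ x in (-R)..R, (∑ n ∈ range J, cos (2 * π * (U * b ^ (K + n)) * x)) ^ 2 =
      ∑ n ∈ range J, ∑ k ∈ range J, ∫ x in (-R)..R,
        cos (2 * π * (U * b ^ (K + n)) * x) * cos (2 * π * (U * b ^ (K + k)) * x) := by
    simp_rw [sq, sum_mul_sum]
    rw [intervalIntegral.integral_finset_sum]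
    · apply sum_congr rfl
      intro n _
      rw [intervalIntegral.integral_finset_sum]
      intro k _
      apply Continuous.intervalIntegrable; fun_prop
    · intro n _
      apply Continuous.intervalIntegrable; fun_prop
  rw [hexp]
  have hpair : ∀ n k : ℕ, ∫ x in (-R)..R,
        cos (2 * π * (U * b ^ (K + n)) * x) * cos (2 * π * (U * b ^ (K + k)) * x) ≤
      (if n = k then 2 * R else 0) + c * (r ^ n * r ^ k) := by
    intro n k
    have hnn : 0 ≤ c * (r ^ n * r ^ k) := by positivity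
    rcases lt_trichotomy n k with h | h | h
    · rw [if_neg h.ne, zero_add]
      exact (le_abs_self _).trans (pair_bound_lt hb hU h)
    · rw [if_pos h, h]
      have : ∫ x in (-R)..R, cos (2 * π * (U * b ^ (K + k)) * x) *
          cos (2 * π * (U * b ^ (K + k)) * x) ≤ ∫ x in (-R)..R, (1 : ℝ) := by
        apply intervalIntegral.integral_mono (by linarith)
        · apply Continuous.intervalIntegrable; fun_prop
        · apply Continuous.intervalIntegrable; fun_prop
        · intro x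
          have := Real.cos_sq_le_one (2 * π * (U * b ^ (K + k)) * x)
          simp only
          nlinarith
      rw [intervalIntegral.integral_const, smul_eq_mul, mul_one] at this
      have h9 : 0 ≤ c * (r ^ k * r ^ k) := by positivity
      linarith
    · rw [if_neg h.ne', zero_add]
      have h1 := (le_abs_self _).trans (pair_bound_lt (R := R) hb hU h)
      have e1 : ∀ x, cos (2 * π * (U * b ^ (K + n)) * x) * cos (2 * π * (U * b ^ (K + k)) * x) =
        cos (2 * π * (U * b ^ (K + k)) * x) * cos (2 * π * (U * b ^ (K + n)) * x) :=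
        fun x => mul_comm _ _
      simp_rw [e1]
      rw [mul_comm (r ^ n)]
      exact h1
  calc _ ≤ ∑ n ∈ range J, ∑ k ∈ range J, ((if n = k then 2 * R else 0) + c * (r ^ n * r ^ k)) :=
        sum_le_sum (fun n _ => sum_le_sum (fun k _ => hpair n k))
    _ = ∑ n ∈ range J, (2 * R) + c * ((∑ n ∈ range J, r ^ n) * (∑ n ∈ range J, r ^ n)) := by
        simp_rw [sum_add_distrib]
        congr 1
        · apply sum_congr rfl
          intro n hn
          rw [sum_ite_eq, if_pos hn]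
        · rw [sum_mul_sum, mul_sum]
          simp_rw [mul_sum]
    _ ≤ (2 * R + c * ((1 - r)⁻¹ * (1 - r)⁻¹)) * J := by
        rw [sum_const, card_range, nsmul_eq_mul]
        rcases Nat.eq_zero_or_pos J with hJ | hJ
        · subst hJ; simp
        · have hJ1 : (1 : ℝ) ≤ J := by exact_mod_cast hJ
          have hg : ∑ n ∈ range J, r ^ n ≤ (1 - r)⁻¹ := by
            have h1 := (summable_geometric_of_lt_one hr0.le hsi).sum_le_tsum (range J)
              (fun k _ => by positivity)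
            rwa [tsum_geometric_of_lt_one hr0.le hsi] at h1
          have hg0 : 0 ≤ ∑ n ∈ range J, r ^ n := sum_nonneg (fun k _ => by positivity)
          have h2 : (∑ n ∈ range J, r ^ n) * (∑ n ∈ range J, r ^ n) ≤ (1 - r)⁻¹ * (1 - r)⁻¹ := by
            gcongr
          have h3 : 0 ≤ c * ((1 - r)⁻¹ * (1 - r)⁻¹) := by
            have : 0 < 1 - r := by linarith
            positivity
          have h4 : c * ((∑ n ∈ range J, r ^ n) * (∑ n ∈ range J, r ^ n)) ≤
              c * ((1 - r)⁻¹ * (1 - r)⁻¹) := by gcongr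
          nlinarith

end Vale.Agent.P105
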