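import Mathlib
import Vale.Agent.P105.Beta
import Vale.Agent.P105.SalemDef

/-! `sb` is a Salem number of degree 4 (P105). -/

open Polynomial

namespace Vale.Agent.P105

/-- Roots of `(x² - t x + 1)(x² - 2 cos θ x + 1)`. -/
theorem root_norm_le {b th : ℝ} (hb : 1 < b) {z : ℂ}
    (hz : (z ^ 2 - ((b + b⁻¹ : ℝ) : ℂ) * z + 1) * (z ^ 2 - ((2 * Real.cos th : ℝ) : ℂ) * z + 1) = 0)
    (hzb : z ≠ (b : ℂ)) : ‖z‖ ≤ 1 := by
  have hb0 : 0 < b := by linarith
  have hbC : (b : ℂ) ≠ 0 := by exact_mod_cast hb0.ne'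
  rcases mul_eq_zero.1 hz with h | h
  · have h1 : (z - b) * (z - (b : ℂ)⁻¹) = 0 := by
      have : (z - b) * (z - (b : ℂ)⁻¹) = z ^ 2 - (b + (b : ℂ)⁻¹) * z + b * (b : ℂ)⁻¹ := by ring
      rw [this, mul_inv_cancel₀ hbC]
      push_cast at h
      exact h
    rcases mul_eq_zero.1 h1 with h2 | h2
    · exact absurd (sub_eq_zero.1 h2) hzb
    · rw [sub_eq_zero.1 h2, norm_inv, Complex.norm_real, Real.norm_eq_abs, abs_of_pos hb0]
      exact inv_le_one_of_one_le₀ hb.le
  · set e1 : ℂ := Complex.exp ((th : ℂ) * Complex.I) with he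
    have he0 : e1 ≠ 0 := Complex.exp_ne_zero _
    have hsum : e1 + e1⁻¹ = ((2 * Real.cos th : ℝ) : ℂ) := by
      rw [he, ← Complex.exp_neg, ← neg_mul]
      push_cast
      rw [Complex.two_cos]
    have h1 : (z - e1) * (z - e1⁻¹) = 0 := by
      have : (z - e1) * (z - e1⁻¹) = z ^ 2 - (e1 + e1⁻¹) * z + e1 * e1⁻¹ := by ring
      rw [this, mul_inv_cancel₀ he0, hsum]
      exact h
    have hn : ‖e1‖ = 1 := by rw [he]; exact Complex.norm_exp_ofReal_mul_I th
    rcases mul_eq_zero.1 h1 with h2 | h2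
    · rw [sub_eq_zero.1 h2, hn]
    · rw [sub_eq_zero.1 h2, norm_inv, hn, inv_one]

theorem minpoly_sb : minpoly ℚ sb = X ^ 4 - 2 * X ^ 3 + X ^ 2 - 2 * X + 1 := by
  set P : ℚ[X] := X ^ 4 - 2 * X ^ 3 + X ^ 2 - 2 * X + 1 with hP
  have hPd : P.natDegree = 4 := by rw [hP]; compute_degree!
  have hPm : P.Monic := by rw [hP]; monicity!
  have hPb : aeval sb P = 0 := by
    rw [hP]
    simp only [map_sub, map_add, map_mul, map_pow, aeval_X, map_one, map_ofNat]
    exact sb_quartic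
  have hintQ : IsIntegral ℚ sb := ⟨P, hPm, by simpa [aeval_def] using hPb⟩
  have hdvd : minpoly ℚ sb ∣ P := minpoly.dvd ℚ sb hPb
  have hdeg : 4 ≤ (minpoly ℚ sb).natDegree := by
    by_contra hlt
    push Not at hlt
    have h0 : aeval sb (minpoly ℚ sb) = 0 := minpoly.aeval ℚ sb
    rw [aeval_eq_sum_range' hlt] at h0
    simp only [Finset.sum_range_succ, Finset.sum_range_zero, zero_add, pow_zero, pow_one,
      Algebra.smul_def, eq_ratCast, mul_one] at h0
    obtain ⟨c0, c1, c2, c3⟩ := cubic_indep h0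
    apply minpoly.ne_zero hintQ
    ext n
    rcases lt_or_ge n 4 with hn | hn
    · interval_cases n <;> simp [c0, c1, c2, c3]
    · rw [coeff_eq_zero_of_natDegree_lt (by omega)]; simp
  exact (Polynomial.eq_of_monic_of_dvd_of_natDegree_le (minpoly.monic hintQ) hPm hdvd
    (by omega)).symm

theorem sb_natDegree : (minpoly ℚ sb).natDegree = 4 := by
  rw [minpoly_sb]; compute_degree!

theorem sb_integral : IsIntegral ℤ sb := by
  refine ⟨X ^ 4 - 2 * X ^ 3 + X ^ 2 - 2 * X + 1, by monicity!, ?_⟩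
  simp only [eval₂_add, eval₂_sub, eval₂_mul, eval₂_pow, eval₂_X, eval₂_one, eval₂_ofNat]
  exact sb_quartic

theorem sb_isSalem : IsSalem sb := by
  have hlb := sb_lb
  have hs2 : (((√2 : ℝ) : ℂ)) ^ 2 = 2 := by
    rw [← Complex.ofReal_pow, sq_sqrt2]; norm_num
  have hfac : ∀ z : ℂ, aeval z (minpoly ℚ sb) =
      (z ^ 2 - ((sb + sb⁻¹ : ℝ) : ℂ) * z + 1) * (z ^ 2 - ((2 * Real.cos sth : ℝ) : ℂ) * z + 1) := by
    intro z
    rw [minpoly_sb, sb_add_inv, two_cos_sth]
    simp only [map_sub, map_add, map_mul, map_pow, aeval_X, map_one, map_ofNat]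
    push_cast
    linear_combination z ^ 2 * hs2
  refine ⟨by linarith, sb_integral, ?_, ?_⟩
  · intro z hzb hz
    rw [hfac] at hz
    exact root_norm_le (by linarith) hz hzb
  · refine ⟨Complex.exp ((sth : ℂ) * Complex.I), ?_, Complex.norm_exp_ofReal_mul_I sth⟩
    rw [hfac]
    set e1 : ℂ := Complex.exp ((sth : ℂ) * Complex.I) with he
    have he0 : e1 ≠ 0 := Complex.exp_ne_zero _
    have hsum : e1 + e1⁻¹ = ((2 * Real.cos sth : ℝ) : ℂ) := by
      rw [he, ← Complex.exp_neg, ← neg_mul]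
      push_cast
      rw [Complex.two_cos]
    have : e1 ^ 2 - ((2 * Real.cos sth : ℝ) : ℂ) * e1 + 1 = 0 := by
      rw [← hsum]; field_simp; ring
    rw [this, mul_zero]

/-- A Salem number is not a Pisot number. -/
theorem IsSalem.not_pisot {b : ℝ} (h : IsSalem b) : ¬ IsPisot b := by
  rintro ⟨_, _, hp⟩
  obtain ⟨hb1, _, _, z, hz, hzn⟩ := h
  have hzb : z ≠ (b : ℂ) := by
    intro h
    rw [h, Complex.norm_real, Real.norm_eq_abs, abs_of_pos (by linarith)] at hzn
    linarith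
  have := hp z hzb hz
  linarith

end Vale.Agent.P105
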