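import Mathlib
import Vale.Agent.P105.Beta2
import Vale.Agent.P105.Salem1

/-! `sb2` is a Salem number of degree 4 (P105). -/

open Polynomial

namespace Vale.Agent.P105

theorem irrational_sqrt13 : Irrational √13 := by
  have : Nat.Prime 13 := by norm_num
  simpa using this.irrational_sqrt

theorem lin_indep_sqrt13 {x y : ℚ} (h : (x : ℝ) + y * √13 = 0) : x = 0 ∧ y = 0 := by
  have hirr := irrational_sqrt13
  by_cases hy : y = 0
  · subst hy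
    simp at h
    exact ⟨h, rfl⟩
  · exfalso
    apply hirr
    refine ⟨-x / y, ?_⟩
    have hy' : (y : ℝ) ≠ 0 := by exact_mod_cast hy
    push_cast
    field_simp
    linarith

theorem lin_indep_sb2 {p0 p1 s0 s1 : ℚ}
    (h : ((p0 : ℝ) + p1 * √13) + ((s0 : ℝ) + s1 * √13) * sb2 = 0) : s0 = 0 ∧ s1 = 0 := by
  have hs := sq_sqrt13
  by_contra hne
  have hn : s0 ^ 2 - 13 * s1 ^ 2 ≠ 0 := by
    intro h0
    apply hne
    have h1 : ((s0 : ℝ) + s1 * √13) * ((s0 : ℝ) - s1 * √13) = 0 := by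
      have : ((s0 ^ 2 - 13 * s1 ^ 2 : ℚ) : ℝ) = 0 := by rw [h0]; simp
      push_cast at this
      nlinarith
    rcases mul_eq_zero.1 h1 with h2 | h2
    · exact lin_indep_sqrt13 h2
    · have h3 : ((s0 : ℚ) : ℝ) + ((-s1 : ℚ) : ℝ) * √13 = 0 := by push_cast; linarith
      obtain ⟨h4, h5⟩ := lin_indep_sqrt13 h3
      exact ⟨h4, by linarith [neg_eq_zero.1 h5]⟩
  set n : ℚ := s0 ^ 2 - 13 * s1 ^ 2 with hnd
  have hnR : (n : ℝ) ≠ 0 := by exact_mod_cast hn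
  have hb : (n : ℝ) * sb2 = -(((p0 * s0 - 13 * p1 * s1 : ℚ) : ℝ) +
      ((p1 * s0 - p0 * s1 : ℚ) : ℝ) * √13) := by
    have h1 : (((p0 : ℝ) + p1 * √13) + ((s0 : ℝ) + s1 * √13) * sb2) * ((s0 : ℝ) - s1 * √13) = 0 := by
      rw [h]; ring
    rw [hnd]
    push_cast
    have h2 : (((p0 : ℝ) + p1 * √13) + ((s0 : ℝ) + s1 * √13) * sb2) * ((s0 : ℝ) - s1 * √13) =
      (p0 * s0 - p1 * s1 * √13 ^ 2) + (p1 * s0 - p0 * s1) * √13
        + (s0 ^ 2 - s1 ^ 2 * √13 ^ 2) * sb2 := by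
      ring
    rw [h2, hs] at h1
    linarith
  have hbb : sb2 = ((-(p0 * s0 - 13 * p1 * s1) / n : ℚ) : ℝ) +
      ((-(p1 * s0 - p0 * s1) / n : ℚ) : ℝ) * √13 := by
    push_cast at hb ⊢
    field_simp
    linarith
  set α : ℚ := -(p0 * s0 - 13 * p1 * s1) / n
  set γ : ℚ := -(p1 * s0 - p0 * s1) / n
  have hq := sb2_quad
  have ht := t2_sq
  have htd : t2 = (1 + √13) / 2 := rfl
  have hx : (((2 * α - 1 / 2) ^ 2 + 13 * (2 * γ - 1 / 2) ^ 2 + 1 / 2 : ℚ) : ℝ) +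
      ((2 * (2 * α - 1 / 2) * (2 * γ - 1 / 2) - 1 / 2 : ℚ) : ℝ) * √13 = 0 := by
    have h1 : (2 * sb2 - t2) ^ 2 = t2 - 1 := by nlinarith
    rw [hbb, htd] at h1
    push_cast
    have h2 : (2 * ((α : ℝ) + γ * √13) - (1 + √13) / 2) ^ 2 =
      (2 * α - 1 / 2) ^ 2 + (2 * γ - 1 / 2) ^ 2 * √13 ^ 2
        + 2 * (2 * α - 1 / 2) * (2 * γ - 1 / 2) * √13 := by ring
    rw [h2, hs] at h1
    linarith
  have h3 := (lin_indep_sqrt13 hx).1
  nlinarith [sq_nonneg (2 * α - 1 / 2), sq_nonneg (2 * γ - 1 / 2)]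

theorem cubic_indep2 {a0 a1 a2 a3 : ℚ}
    (h : (a0 : ℝ) + a1 * sb2 + a2 * sb2 ^ 2 + a3 * sb2 ^ 3 = 0) :
    a0 = 0 ∧ a1 = 0 ∧ a2 = 0 ∧ a3 = 0 := by
  have hq := sb2_quad
  have ht := t2_sq
  have e2 : sb2 ^ 2 = t2 * sb2 - 1 := by linarith
  have e3 : sb2 ^ 3 = (t2 + 2) * sb2 - t2 := by
    have : sb2 ^ 3 = sb2 * sb2 ^ 2 := by ring
    rw [this, e2]
    have : sb2 * (t2 * sb2 - 1) = t2 * sb2 ^ 2 - sb2 := by ring
    rw [this, e2]
    linear_combination sb2 * ht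
  have htd : t2 = (1 + √13) / 2 := rfl
  rw [e2, e3, htd] at h
  have h1 : (((a0 - a2 - a3 / 2 : ℚ) : ℝ) + ((-a3 / 2 : ℚ) : ℝ) * √13) +
      (((a1 + a2 / 2 + 5 * a3 / 2 : ℚ) : ℝ) + (((a2 + a3) / 2 : ℚ) : ℝ) * √13) * sb2 = 0 := by
    push_cast; linarith
  obtain ⟨h2, h3⟩ := lin_indep_sb2 h1
  rw [h2, h3] at h1
  have h4 : ((a0 - a2 - a3 / 2 : ℚ) : ℝ) + ((-a3 / 2 : ℚ) : ℝ) * √13 = 0 := by
    simpa using h1
  obtain ⟨h5, h6⟩ := lin_indep_sqrt13 h4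
  refine ⟨?_, ?_, ?_, ?_⟩ <;> linarith

theorem minpoly_sb2 : minpoly ℚ sb2 = X ^ 4 - X ^ 3 - X ^ 2 - X + 1 := by
  set P : ℚ[X] := X ^ 4 - X ^ 3 - X ^ 2 - X + 1 with hP
  have hPd : P.natDegree = 4 := by rw [hP]; compute_degree!
  have hPm : P.Monic := by rw [hP]; monicity!
  have hPb : aeval sb2 P = 0 := by
    rw [hP]
    simp only [map_sub, map_add, map_pow, aeval_X, map_one]
    exact sb2_quartic
  have hintQ : IsIntegral ℚ sb2 := ⟨P, hPm, by simpa [aeval_def] using hPb⟩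
  have hdvd : minpoly ℚ sb2 ∣ P := minpoly.dvd ℚ sb2 hPb
  have hdeg : 4 ≤ (minpoly ℚ sb2).natDegree := by
    by_contra hlt
    push Not at hlt
    have h0 : aeval sb2 (minpoly ℚ sb2) = 0 := minpoly.aeval ℚ sb2
    rw [aeval_eq_sum_range' hlt] at h0
    simp only [Finset.sum_range_succ, Finset.sum_range_zero, zero_add, pow_zero, pow_one,
      Algebra.smul_def, eq_ratCast, mul_one] at h0
    obtain ⟨c0, c1, c2, c3⟩ := cubic_indep2 h0
    apply minpoly.ne_zero hintQ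
    ext n
    rcases lt_or_ge n 4 with hn | hn
    · interval_cases n <;> simp [c0, c1, c2, c3]
    · rw [coeff_eq_zero_of_natDegree_lt (by omega)]; simp
  exact (Polynomial.eq_of_monic_of_dvd_of_natDegree_le (minpoly.monic hintQ) hPm hdvd
    (by omega)).symm

theorem sb2_natDegree : (minpoly ℚ sb2).natDegree = 4 := by
  rw [minpoly_sb2]; compute_degree!

theorem sb2_integral : IsIntegral ℤ sb2 := by
  refine ⟨X ^ 4 - X ^ 3 - X ^ 2 - X + 1, by monicity!, ?_⟩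
  simp only [eval₂_add, eval₂_sub, eval₂_pow, eval₂_X, eval₂_one]
  exact sb2_quartic

theorem sb2_isSalem : IsSalem sb2 := by
  have hlb := sb2_lb
  have ht : ((t2 : ℝ) : ℂ) + ((t2' : ℝ) : ℂ) = 1 := by
    rw [← Complex.ofReal_add, t2_add]; simp
  have htt : ((t2 : ℝ) : ℂ) * ((t2' : ℝ) : ℂ) = -3 := by
    have h1 : t2 * t2' = -3 := by
      have := t2_sq; have h2 := t2_add
      have h3 : t2' = 1 - t2 := by linarith
      rw [h3]; linarith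
    rw [← Complex.ofReal_mul, h1]; norm_num
  have hfac : ∀ z : ℂ, aeval z (minpoly ℚ sb2) =
      (z ^ 2 - ((sb2 + sb2⁻¹ : ℝ) : ℂ) * z + 1) *
        (z ^ 2 - ((2 * Real.cos sth2 : ℝ) : ℂ) * z + 1) := by
    intro z
    rw [minpoly_sb2, sb2_add_inv]
    have e : ((2 * Real.cos sth2 : ℝ) : ℂ) = ((t2' : ℝ) : ℂ) := by
      rw [two_cos_sth2]
    rw [e]
    simp only [map_sub, map_add, map_pow, aeval_X, map_one]
    linear_combination (z ^ 3 + z) * ht - z ^ 2 * htt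
  refine ⟨by linarith, sb2_integral, ?_, ?_⟩
  · intro z hzb hz
    rw [hfac] at hz
    exact root_norm_le (by linarith) hz hzb
  · refine ⟨Complex.exp ((sth2 : ℂ) * Complex.I), ?_, Complex.norm_exp_ofReal_mul_I sth2⟩
    rw [hfac]
    set e1 : ℂ := Complex.exp ((sth2 : ℂ) * Complex.I) with he
    have he0 : e1 ≠ 0 := Complex.exp_ne_zero _
    have hsum : e1 + e1⁻¹ = ((2 * Real.cos sth2 : ℝ) : ℂ) := by
      rw [he, ← Complex.exp_neg, ← neg_mul]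
      push_cast
      rw [Complex.two_cos]
    have : e1 ^ 2 - ((2 * Real.cos sth2 : ℝ) : ℂ) * e1 + 1 = 0 := by
      rw [← hsum]; field_simp; ring
    rw [this, mul_zero]

end Vale.Agent.P105
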